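import Mathlib

/-!
# P267, package CURV-C1 (helper823): functions invariant under a rotation
-/

open Filter Topology

namespace Vale.Agent.P267.H823

/-- Identity principle in the form used below. -/
theorem eventually_zero_or_ne {f : ℂ → ℂ} (hf : AnalyticAt ℂ f 0) :
    (∀ᶠ t in 𝓝 (0 : ℂ), f t = 0) ∨ ∀ᶠ t in 𝓝[≠] (0 : ℂ), f t ≠ 0 :=
  hf.eventually_eq_zero_or_eventually_ne_zero

theorem eventually_eq_or_ne {f g : ℂ → ℂ} (hf : AnalyticAt ℂ f 0) (hg : AnalyticAt ℂ g 0) :
    (∀ᶠ t in 𝓝 (0 : ℂ), f t = g t) ∨ ∀ᶠ t in 𝓝[≠] (0 : ℂ), f t ≠ g t := by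
  rcases eventually_zero_or_ne (hf.sub hg) with h | h
  · left
    filter_upwards [h] with t ht
    exact sub_eq_zero.1 ht
  · right
    filter_upwards [h] with t ht
    exact sub_ne_zero.1 ht

theorem tendsto_mul_zero (c : ℂ) : Tendsto (fun t : ℂ => c * t) (𝓝 0) (𝓝 0) := by
  have h : ContinuousAt (fun t : ℂ => c * t) 0 := by fun_prop
  rw [ContinuousAt, mul_zero] at h
  exact h

theorem analyticAt_comp_mul {F : Type*} [NormedAddCommGroup F] [NormedSpace ℂ F]
    {f : ℂ → F} (hf : AnalyticAt ℂ f 0) (c : ℂ) : AnalyticAt ℂ (fun t => f (c * t)) 0 :=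
  AnalyticAt.comp_of_eq hf (analyticAt_const.mul analyticAt_id) (by simp)

/-- The Taylor coefficients of a function invariant under multiplication by a root of unity. -/
theorem coeff_eq_zero_of_invariant {f : ℂ → ℂ} {p : FormalMultilinearSeries ℂ ℂ ℂ}
    (hp : HasFPowerSeriesAt f p 0) {ω : ℂ} {e : ℕ} (hω : IsPrimitiveRoot ω e)
    (hinv : ∀ᶠ t in 𝓝 (0 : ℂ), f (ω * t) = f t) {n : ℕ} (hn : ¬ e ∣ n) : p.coeff n = 0 := by
  set u : ℂ →L[ℂ] ℂ := ω • ContinuousLinearMap.id ℂ ℂ with hu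
  have hu1 : ∀ t, u t = ω * t := fun t => rfl
  have h1 : HasFPowerSeriesAt (f ∘ u) (p.compContinuousLinearMap u) 0 := by
    refine HasFPowerSeriesAt.compContinuousLinearMap ?_
    rw [map_zero]
    exact hp
  have h2 : p.compContinuousLinearMap u = p :=
    h1.eq_formalMultilinearSeries_of_eventually hp hinv
  have h3 : p.coeff n = ω ^ n * p.coeff n := by
    have h4 : p.coeff n = (p.compContinuousLinearMap u).coeff n := by rw [h2]
    conv_lhs => rw [h4]
    unfold FormalMultilinearSeries.coeff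
    show (p n) (fun i => u ((1 : Fin n → ℂ) i)) = _
    have h5 : (fun i => u ((1 : Fin n → ℂ) i)) = fun i => ω • (1 : Fin n → ℂ) i := rfl
    rw [h5, ContinuousMultilinearMap.map_smul_univ]
    simp
  by_contra hne
  have h4 : ω ^ n = 1 := by
    have h5 : (ω ^ n - 1) * p.coeff n = 0 := by rw [sub_mul, one_mul, ← h3, sub_self]
    rcases mul_eq_zero.1 h5 with h6 | h6
    · exact sub_eq_zero.1 h6
    · exact absurd h6 hne
  exact hn ((hω.pow_eq_one_iff_dvd n).1 h4)

/-- A holomorphic germ invariant under multiplication by a primitive `e`-th root of unity is a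
holomorphic germ of `t ^ e`. -/
theorem exists_comp_pow {f : ℂ → ℂ} (hf : AnalyticAt ℂ f 0) {ω : ℂ} {e : ℕ} (he : 0 < e)
    (hω : IsPrimitiveRoot ω e) (hinv : ∀ᶠ t in 𝓝 (0 : ℂ), f (ω * t) = f t) :
    ∃ h : ℂ → ℂ, AnalyticAt ℂ h 0 ∧ ∀ᶠ t in 𝓝 (0 : ℂ), f t = h (t ^ e) := by
  obtain ⟨p, hp⟩ := hf
  have hsum : ∀ᶠ t in 𝓝 (0 : ℂ), HasSum (fun n => p.coeff n * t ^ n) (f t) := by
    filter_upwards [hp.eventually_hasSum] with t ht
    rw [zero_add] at ht
    have h1 : (fun n => (p n) fun _ => t) = fun n => p.coeff n * t ^ n := by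
      funext n
      rw [FormalMultilinearSeries.apply_eq_prod_smul_coeff]
      simp [mul_comm]
    rwa [h1] at ht
  have hinj : Function.Injective fun n : ℕ => e * n := fun a b h => Nat.eq_of_mul_eq_mul_left he h
  have hsum2 : ∀ᶠ t in 𝓝 (0 : ℂ), HasSum (fun n => p.coeff (e * n) * (t ^ e) ^ n) (f t) := by
    filter_upwards [hsum] with t ht
    have h1 := (hinj.hasSum_iff (f := fun n => p.coeff n * t ^ n) (a := f t) (by
      intro n hn
      rw [coeff_eq_zero_of_invariant hp hω hinv, zero_mul]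
      rintro ⟨m, rfl⟩
      exact hn ⟨m, rfl⟩)).2 ht
    refine h1.congr_fun ?_ |> fun h => h
    intro n
    simp [pow_mul]
  obtain ⟨r, hr, hsr⟩ : ∃ r : ℝ, 0 < r ∧ Summable fun n => ‖p.coeff n‖ * r ^ n := by
    obtain ⟨s, hs, hs'⟩ := ENNReal.lt_iff_exists_nnreal_btwn.1 hp.radius_pos
    have hs0 : 0 < s := by exact_mod_cast hs
    refine ⟨s, hs0, ?_⟩
    have := p.summable_norm_mul_pow hs'
    refine this.congr fun n => ?_
    rw [FormalMultilinearSeries.norm_apply_eq_norm_coef]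
  have hsr2 : Summable fun n => ‖p.coeff (e * n)‖ * (r ^ e) ^ n := by
    have := hsr.comp_injective hinj
    refine this.congr fun n => ?_
    simp [pow_mul]
  refine ⟨fun s => ∑' n, p.coeff (e * n) * s ^ n, ?_, ?_⟩
  · have h : DifferentiableOn ℂ (fun s : ℂ => ∑' n, p.coeff (e * n) * s ^ n)
        (Metric.ball (0 : ℂ) (r ^ e)) := by
      refine Complex.differentiableOn_tsum_of_summable_norm hsr2 (fun n => ?_)
        Metric.isOpen_ball fun n w hw => ?_
      · exact ((differentiable_id.pow n).const_mul _).differentiableOn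
      · rw [mem_ball_zero_iff] at hw
        rw [norm_mul, norm_pow]
        gcongr
    exact h.analyticAt (Metric.ball_mem_nhds _ (by positivity))
  · filter_upwards [hsum2] with t ht
    exact ht.tsum_eq.symm

end Vale.Agent.P267.H823
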