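import Vale.Agent.P267.H823.Puiseux
import Vale.Agent.P267.H823.Inv

/-!
# P267, package CURV-C1 (helper823): factorization into branches
-/

open Filter Topology Polynomial

namespace Vale.Agent.P267.H823

/-! ### Families of polynomials with holomorphic coefficients -/

/-- the coefficients are holomorphic at `0` -/
def AnC (P : ℂ → ℂ[X]) : Prop := ∀ i, AnalyticAt ℂ (fun z => (P z).coeff i) 0

theorem AnC.mul {P Q : ℂ → ℂ[X]} (hP : AnC P) (hQ : AnC Q) : AnC fun z => P z * Q z := by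
  intro i
  have h : (fun z => (P z * Q z).coeff i) = fun z =>
      ∑ x ∈ Finset.HasAntidiagonal.antidiagonal i, (P z).coeff x.1 * (Q z).coeff x.2 := by
    funext z
    exact coeff_mul _ _ _
  rw [h]
  exact Finset.analyticAt_fun_sum _ fun x _ => (hP _).mul (hQ _)

theorem AnC.one : AnC fun _ => 1 := fun _ => analyticAt_const

theorem AnC.prod {ι : Type*} (s : Finset ι) {P : ι → ℂ → ℂ[X]} (h : ∀ i ∈ s, AnC (P i)) :
    AnC fun z => ∏ i ∈ s, P i z := by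
  classical
  induction s using Finset.induction_on with
  | empty => simpa using AnC.one
  | insert a s ha ih =>
    simp only [Finset.prod_insert ha]
    exact (h a (Finset.mem_insert_self _ _)).mul
      (ih fun i hi => h i (Finset.mem_insert_of_mem hi))

theorem AnC.X_sub_C {β : ℂ → ℂ} (hβ : AnalyticAt ℂ β 0) : AnC fun z => X - C (β z) := by
  intro i
  simp only [coeff_sub, coeff_C]
  refine analyticAt_const.sub ?_
  by_cases h : i = 0
  · simpa [h] using hβ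
  · simpa [h] using analyticAt_const

/-- monic families of degree `d` with holomorphic coefficients -/
structure MF (d : ℕ) (P : ℂ → ℂ[X]) : Prop where
  monic : ∀ z, (P z).Monic
  deg : ∀ z, (P z).natDegree = d
  an : AnC P

theorem MF.prod {ι : Type*} (s : Finset ι) {β : ι → ℂ → ℂ} (h : ∀ i ∈ s, AnalyticAt ℂ (β i) 0) :
    MF s.card fun z => ∏ i ∈ s, (X - C (β i z)) where
  monic _ := monic_prod_of_monic _ _ fun _ _ => monic_X_sub_C _
  deg _ := natDegree_finsetProd_X_sub_C_eq_card _ _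
  an := AnC.prod s fun i hi => AnC.X_sub_C (h i hi)

theorem MF.comp_mul {d : ℕ} {P : ℂ → ℂ[X]} (h : MF d P) (c : ℂ) : MF d fun z => P (c * z) where
  monic _ := h.monic _
  deg _ := h.deg _
  an i := analyticAt_comp_mul (h.an i) c

theorem MF.comp_pow {d : ℕ} {P : ℂ → ℂ[X]} (h : MF d P) {N : ℕ} (hN : 0 < N) :
    MF d fun z => P (z ^ N) where
  monic _ := h.monic _
  deg _ := h.deg _
  an i := Puiseux.analyticAt_comp_pow (h.an i) hN

theorem MF.eval_eq {d : ℕ} {P : ℂ → ℂ[X]} (h : MF d P) (z w : ℂ) :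
    (P z).eval w = ∑ i ∈ Finset.range (d + 1), (P z).coeff i * w ^ i := by
  rw [eval_eq_sum_range, h.deg]

theorem MF.analyticAt_eval {d : ℕ} {P : ℂ → ℂ[X]} (h : MF d P) (w₀ : ℂ) :
    AnalyticAt ℂ (fun p : ℂ × ℂ => (P p.1).eval p.2) (0, w₀) := by
  have h1 : (fun p : ℂ × ℂ => (P p.1).eval p.2) = fun p =>
      ∑ i ∈ Finset.range (d + 1), (P p.1).coeff i * p.2 ^ i := by
    funext p
    exact h.eval_eq _ _
  rw [h1]
  refine Finset.analyticAt_fun_sum _ fun i _ => ?_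
  exact (AnalyticAt.comp_of_eq (h.an i) analyticAt_fst rfl).mul (analyticAt_snd.pow i)

/-- equality of monic families near `0` from equality off `0` -/
theorem MF.eq_of_ne {d d' : ℕ} {P Q : ℂ → ℂ[X]} (hP : MF d P) (hQ : MF d' Q)
    (h : ∀ᶠ z in 𝓝[≠] (0 : ℂ), P z = Q z) : ∀ᶠ z in 𝓝 (0 : ℂ), P z = Q z := by
  have h1 : P 0 = Q 0 := by
    ext i
    have h2 : ∀ᶠ z in 𝓝[≠] (0 : ℂ), (P z).coeff i = (Q z).coeff i := by
      filter_upwards [h] with z hz
      rw [hz]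
    have h3 : Tendsto (fun z => (P z).coeff i) (𝓝[≠] 0) (𝓝 ((P 0).coeff i)) :=
      ((hP.an i).continuousAt.tendsto).mono_left nhdsWithin_le_nhds
    have h4 : Tendsto (fun z => (Q z).coeff i) (𝓝[≠] 0) (𝓝 ((Q 0).coeff i)) :=
      ((hQ.an i).continuousAt.tendsto).mono_left nhdsWithin_le_nhds
    exact tendsto_nhds_unique_of_eventuallyEq h3 h4 h2
  rw [eventually_nhdsWithin_iff] at h
  filter_upwards [h] with z hz
  by_cases hz0 : z = 0
  · rw [hz0, h1]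
  · exact hz hz0

/-! ### Roots of the parameter -/

theorem eventually_of_pow {N : ℕ} (hN : 0 < N) {p : ℂ → Prop}
    (h : ∀ᶠ t in 𝓝 (0 : ℂ), p (t ^ N)) : ∀ᶠ z in 𝓝 (0 : ℂ), p z := by
  obtain ⟨δ, hδ, h1⟩ := Metric.eventually_nhds_iff.1 h
  rw [Metric.eventually_nhds_iff]
  refine ⟨δ ^ N, by positivity, fun z hz => ?_⟩
  obtain ⟨t, rfl⟩ := IsAlgClosed.exists_pow_nat_eq z hN
  refine h1 ?_
  rw [dist_zero_right] at hz ⊢
  rw [norm_pow] at hz
  exact lt_of_pow_lt_pow_left₀ N hδ.le hz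

theorem eventually_ne_of_pow {N : ℕ} (hN : 0 < N) {p : ℂ → Prop}
    (h : ∀ᶠ t in 𝓝[≠] (0 : ℂ), p (t ^ N)) : ∀ᶠ z in 𝓝[≠] (0 : ℂ), p z := by
  rw [eventually_nhdsWithin_iff] at h ⊢
  refine eventually_of_pow hN ?_
  filter_upwards [h] with t ht h1
  refine ht ?_
  rintro rfl
  exact h1 (zero_pow hN.ne')

theorem tendsto_pow_ne {N : ℕ} (hN : 0 < N) : Tendsto (fun t : ℂ => t ^ N) (𝓝[≠] 0) (𝓝[≠] 0) := by
  refine tendsto_nhdsWithin_iff.2 ⟨(Puiseux.tendsto_pow hN).mono_left nhdsWithin_le_nhds, ?_⟩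
  filter_upwards [self_mem_nhdsWithin] with t ht
  exact pow_ne_zero _ ht

theorem tendsto_mul_ne {c : ℂ} (hc : c ≠ 0) : Tendsto (fun t : ℂ => c * t) (𝓝[≠] 0) (𝓝[≠] 0) := by
  refine tendsto_nhdsWithin_iff.2 ⟨(tendsto_mul_zero c).mono_left nhdsWithin_le_nhds, ?_⟩
  filter_upwards [self_mem_nhdsWithin] with t ht
  exact mul_ne_zero hc ht

/-- descent: an invariant monic family is a family in `t ^ N` -/
theorem descend {d N : ℕ} (hN : 0 < N) {ζ : ℂ} (hζ : IsPrimitiveRoot ζ N) {S : ℂ → ℂ[X]}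
    (hS : MF d S) (hinv : ∀ᶠ t in 𝓝 (0 : ℂ), S (ζ * t) = S t) :
    ∃ P, MF d P ∧ ∀ᶠ t in 𝓝 (0 : ℂ), S t = P (t ^ N) := by
  have h1 : ∀ i : Fin d, ∃ h : ℂ → ℂ, AnalyticAt ℂ h 0 ∧
      ∀ᶠ t in 𝓝 (0 : ℂ), (S t).coeff i = h (t ^ N) := by
    intro i
    refine exists_comp_pow (hS.an i) hN hζ ?_
    filter_upwards [hinv] with t ht
    rw [ht]
  choose c hc1 hc2 using h1
  refine ⟨fun z => hmp d (fun i => c i z), ⟨fun z => hmp_monic _ _, fun z => hmp_natDegree _ _,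
    fun i => ?_⟩, ?_⟩
  · simp only [hmp_coeff]
    refine analyticAt_const.add ?_
    have h2 : AnalyticAt ℂ (fun z => fun i => c i z) 0 := by
      rw [analyticAt_pi_iff]
      exact hc1
    exact ((hcf d i).analyticAt _).comp h2
  · filter_upwards [Filter.eventually_all.2 hc2] with t ht
    have h3 : (fun i : Fin d => c i (t ^ N)) = fun i : Fin d => (S t).coeff i := by
      funext i
      exact (ht i).symm
    simp only [h3]
    exact (hmp_eq (hS.monic t) (hS.deg t)).symm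

/-- a product of germs which is zero has a factor which is zero -/
theorem exists_zero_of_prod {ι : Type*} [Finite ι] {s : Finset ι} {f : ι → ℂ → ℂ}
    (hf : ∀ i, AnalyticAt ℂ (f i) 0) (h : ∀ᶠ t in 𝓝 (0 : ℂ), ∏ i ∈ s, f i t = 0) :
    ∃ i ∈ s, ∀ᶠ t in 𝓝 (0 : ℂ), f i t = 0 := by
  by_contra hcon
  have h1 : ∀ i ∈ s, ∀ᶠ t in 𝓝[≠] (0 : ℂ), f i t ≠ 0 := by
    intro i hi
    rcases eventually_zero_or_ne (hf i) with h2 | h2
    · exact absurd ⟨i, hi, h2⟩ hcon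
    · exact h2
  have h2 : ∀ᶠ t in 𝓝[≠] (0 : ℂ), ∀ i ∈ s, f i t ≠ 0 := (s.eventually_all).2 h1
  have h3 := h2.and (h.filter_mono nhdsWithin_le_nhds)
  obtain ⟨t, ht1, ht2⟩ := h3.exists
  exact Finset.prod_ne_zero_iff.2 ht1 ht2

/-! ### Branches -/

/-- the `k`-th roots of unity -/
noncomputable def μ (k : ℕ) : Finset ℂ := nthRootsFinset k (1 : ℂ)

theorem mem_μ {k : ℕ} (hk : 0 < k) {η : ℂ} : η ∈ μ k ↔ η ^ k = 1 := mem_nthRootsFinset hk 1

theorem one_mem_μ {k : ℕ} (hk : 0 < k) : (1 : ℂ) ∈ μ k := (mem_μ hk).2 (one_pow k)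

theorem card_μ {k : ℕ} (hk : 0 < k) : (μ k).card = k :=
  (Complex.isPrimitiveRoot_exp k hk.ne').card_nthRootsFinset

theorem μ_ne_zero {k : ℕ} (hk : 0 < k) {η : ℂ} (h : η ∈ μ k) : η ≠ 0 := by
  rintro rfl
  rw [mem_μ hk, zero_pow hk.ne'] at h
  exact zero_ne_one h

/-- `t ↦ (t ^ k, h t)` is a primitive parametrization -/
structure IsBranch (k : ℕ) (h : ℂ → ℂ) : Prop where
  pos : 0 < k
  an : AnalyticAt ℂ h 0
  prim : ∀ η : ℂ, η ^ k = 1 → η ≠ 1 → ∀ᶠ t in 𝓝[≠] (0 : ℂ), h (η * t) ≠ h t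

/-- `Q` is the minimal polynomial of the branch -/
structure IsEqn (k : ℕ) (h : ℂ → ℂ) (Q : ℂ → ℂ[X]) : Prop where
  mf : MF k Q
  eq : ∀ᶠ s in 𝓝 (0 : ℂ), Q (s ^ k) = ∏ η ∈ μ k, (X - C (h (η * s)))

theorem IsBranch.injOn {k : ℕ} {h : ℂ → ℂ} (H : IsBranch k h) :
    ∀ᶠ t in 𝓝[≠] (0 : ℂ), Set.InjOn (fun η => h (η * t)) (μ k) := by
  have h1 : ∀ η ∈ μ k, ∀ η' ∈ μ k, ∀ᶠ t in 𝓝[≠] (0 : ℂ), η ≠ η' → h (η * t) ≠ h (η' * t) := by
    intro η hη η' hη'
    by_cases hne : η = η'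
    · exact Filter.Eventually.of_forall fun t h => absurd hne h
    have h0 := μ_ne_zero H.pos hη'
    have h2 := H.prim (η / η') (by
      rw [div_pow, (mem_μ H.pos).1 hη, (mem_μ H.pos).1 hη', div_one]) (by
      intro h3
      exact hne ((div_eq_one_iff_eq h0).1 h3))
    filter_upwards [(tendsto_mul_ne h0).eventually h2] with t ht _
    have h4 : η / η' * (η' * t) = η * t := by
      field_simp
    rwa [h4] at ht
  have h2 : ∀ᶠ t in 𝓝[≠] (0 : ℂ), ∀ η ∈ μ k, ∀ η' ∈ μ k, η ≠ η' → h (η * t) ≠ h (η' * t) := by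
    refine ((μ k).eventually_all).2 fun η hη => ((μ k).eventually_all).2 fun η' hη' => ?_
    exact h1 η hη η' hη'
  filter_upwards [h2] with t ht η hη η' hη' h3
  by_contra h4
  exact ht η hη η' hη' h4 h3

/-- Existence of the minimal polynomial. -/
theorem IsBranch.exists_eqn {k : ℕ} {h : ℂ → ℂ} (H : IsBranch k h) : ∃ Q, IsEqn k h Q := by
  have hζ := Complex.isPrimitiveRoot_exp k H.pos.ne'
  set ζ := Complex.exp (2 * Real.pi * Complex.I / k) with hζdef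
  have hζ0 : ζ ≠ 0 := Complex.exp_ne_zero _
  have hS : MF k fun s => ∏ η ∈ μ k, (X - C (h (η * s))) := by
    have := MF.prod (μ k) (β := fun η s => h (η * s)) fun η _ => analyticAt_comp_mul H.an η
    rwa [card_μ H.pos] at this
  obtain ⟨Q, hQ1, hQ2⟩ := descend H.pos hζ hS (by
    refine Filter.Eventually.of_forall fun t => ?_
    refine Finset.prod_nbij' (fun η => η * ζ) (fun η => η / ζ) ?_ ?_ ?_ ?_ ?_
    · intro η hη
      rw [mem_μ H.pos] at hη ⊢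
      rw [mul_pow, hη, hζ.pow_eq_one, one_mul]
    · intro η hη
      rw [mem_μ H.pos] at hη ⊢
      rw [div_pow, hη, hζ.pow_eq_one, div_one]
    · intro η _
      exact mul_div_cancel_right₀ _ hζ0
    · intro η _
      exact div_mul_cancel₀ _ hζ0
    · intro η _
      rw [mul_assoc])
  refine ⟨Q, hQ1, ?_⟩
  filter_upwards [hQ2] with s hs
  exact hs.symm

theorem IsEqn.eval_eq {k : ℕ} {h : ℂ → ℂ} {Q : ℂ → ℂ[X]} (H : IsEqn k h Q) :
    ∀ᶠ s in 𝓝 (0 : ℂ), ∀ w, (Q (s ^ k)).eval w = ∏ η ∈ μ k, (w - h (η * s)) := by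
  filter_upwards [H.eq] with s hs w
  rw [hs, eval_prod]
  simp

/-- The first step of the factorization: peel off the branch of one root. -/
theorem peel {d : ℕ} (hd : 0 < d) {P : ℂ → ℂ[X]} (hP : MF d P) :
    ∃ (k : ℕ) (h : ℂ → ℂ) (Q P' : ℂ → ℂ[X]), k ≤ d ∧ IsBranch k h ∧ IsEqn k h Q ∧ MF (d - k) P' ∧
      ∀ᶠ z in 𝓝 (0 : ℂ), P z = Q z * P' z := by
  classical
  obtain ⟨N, hN, β, hβ, hβP⟩ := puiseux (fun s => ⟨hP.monic s, hP.deg s⟩) hP.an
  set β0 := β ⟨0, hd⟩ with hβ0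
  have hβ0a : AnalyticAt ℂ β0 0 := hβ _
  have hζ := Complex.isPrimitiveRoot_exp N hN.ne'
  set ζ := Complex.exp (2 * Real.pi * Complex.I / N) with hζdef
  have hζ0 : ζ ≠ 0 := Complex.exp_ne_zero _
  -- periods
  obtain ⟨p, hp⟩ : ∃ p : ℕ → Prop, ∀ j, p j ↔ ∀ᶠ t in 𝓝 (0 : ℂ), β0 (ζ ^ j * t) = β0 t :=
    ⟨_, fun j => Iff.rfl⟩
  have hpN : p N := by
    rw [hp, hζ.pow_eq_one]
    simp
  have hp_sub : ∀ a b, p a → p (a + b) → p b := by
    intro a b ha hab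
    rw [hp] at ha hab ⊢
    filter_upwards [(tendsto_mul_zero (ζ ^ b)).eventually ha, hab] with t h1 h2
    rw [← h1, ← h2, ← mul_assoc, ← pow_add]
  have hex : ∃ j, 0 < j ∧ p j := ⟨N, hN, hpN⟩
  obtain ⟨k, hkdef⟩ : ∃ k, k = Nat.find hex := ⟨_, rfl⟩
  have hk0 : 0 < k := by
    rw [hkdef]
    exact (Nat.find_spec hex).1
  have hpk : p k := by
    rw [hkdef]
    exact (Nat.find_spec hex).2
  have hkmin : ∀ j, 0 < j → p j → k ≤ j := by
    intro j h1 h2
    rw [hkdef]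
    exact Nat.find_min' hex ⟨h1, h2⟩
  have hmod : ∀ n, p n → p (n % k) := by
    intro n
    induction n using Nat.strong_induction_on with
    | _ n ih =>
    intro hn
    by_cases hlt : n < k
    · rwa [Nat.mod_eq_of_lt hlt]
    · have h1 : n % k = (n - k) % k := Nat.mod_eq_sub_mod (not_lt.1 hlt)
      rw [h1]
      refine ih (n - k) (by omega) ?_
      refine hp_sub k (n - k) hpk ?_
      rwa [Nat.add_sub_cancel' (not_lt.1 hlt)]
  have hkN : k ∣ N := by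
    refine Nat.dvd_of_mod_eq_zero ?_
    by_contra hne
    have h1 := hkmin _ (Nat.pos_of_ne_zero hne) (hmod N hpN)
    exact absurd (Nat.mod_lt N hk0) (not_lt.2 h1)
  obtain ⟨e, hNe⟩ := hkN
  have he0 : 0 < e := by
    rcases Nat.eq_zero_or_pos e with h | h
    · rw [h, mul_zero] at hNe
      omega
    · exact h
  have hω : IsPrimitiveRoot (ζ ^ k) e := hζ.pow hN hNe
  have hω' : IsPrimitiveRoot (ζ ^ e) k := hζ.pow hN (by rw [hNe, mul_comm])
  obtain ⟨h, hha, hhe⟩ := exists_comp_pow hβ0a he0 hω ((hp k).1 hpk)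
  have hrot : ∀ j, ∀ᶠ t in 𝓝 (0 : ℂ), β0 (ζ ^ j * t) = h ((ζ ^ e) ^ j * t ^ e) := by
    intro j
    filter_upwards [(tendsto_mul_zero (ζ ^ j)).eventually hhe] with t ht
    rw [ht, mul_pow, ← pow_mul, ← pow_mul, mul_comm j e]
  have hbr : IsBranch k h := by
    refine ⟨hk0, hha, fun η hη hη1 => ?_⟩
    rcases eventually_eq_or_ne (analyticAt_comp_mul hha η) hha with h1 | h1
    · exfalso
      have : NeZero k := ⟨hk0.ne'⟩
      obtain ⟨j, hj, rfl⟩ := hω'.eq_pow_of_pow_eq_one hη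
      have hj0 : 0 < j := by
        rcases Nat.eq_zero_or_pos j with h2 | h2
        · rw [h2, pow_zero] at hη1
          exact absurd rfl hη1
        · exact h2
      have h3 : p j := by
        rw [hp]
        filter_upwards [hrot j, (Puiseux.tendsto_pow he0).eventually h1, hhe] with t h4 h5 h6
        rw [h4, h5, h6]
      exact absurd (hkmin j hj0 h3) (not_le.2 hj)
    · exact h1
  obtain ⟨Q, hQ⟩ := hbr.exists_eqn
  -- the root germs
  have hσ : ∀ η ∈ μ k, ∃ i : Fin d, ∀ᶠ t in 𝓝 (0 : ℂ), h (η * t ^ e) = β i t := by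
    intro η hη
    have : NeZero k := ⟨hk0.ne'⟩
    obtain ⟨j, hj, rfl⟩ := hω'.eq_pow_of_pow_eq_one ((mem_μ hk0).1 hη)
    have h1 : ∀ᶠ t in 𝓝 (0 : ℂ), ∏ i, (h ((ζ ^ e) ^ j * t ^ e) - β i t) = 0 := by
      filter_upwards [hβP, (tendsto_mul_zero (ζ ^ j)).eventually hβP, hrot j] with t h2 h3 h4
      have h5 : (ζ ^ j * t) ^ N = t ^ N := by
        rw [mul_pow, ← pow_mul, mul_comm j N, pow_mul, hζ.pow_eq_one, one_pow, one_mul]
      rw [h5, h2] at h3
      have h6 := congrArg (eval (β0 (ζ ^ j * t))) h3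
      rw [eval_prod, eval_prod] at h6
      simp only [eval_sub, eval_X, eval_C] at h6
      rw [← h4, h6]
      exact Finset.prod_eq_zero (Finset.mem_univ ⟨0, hd⟩) (sub_self _)
    have h2 := exists_zero_of_prod (s := Finset.univ)
      (f := fun i t => h ((ζ ^ e) ^ j * t ^ e) - β i t) (fun i => by
        refine AnalyticAt.sub ?_ (hβ i)
        exact Puiseux.analyticAt_comp_pow (analyticAt_comp_mul hha _) he0) h1
    obtain ⟨i, -, hi⟩ := h2
    refine ⟨i, ?_⟩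
    filter_upwards [hi] with t ht
    exact sub_eq_zero.1 ht
  have hne : Nonempty (Fin d) := ⟨⟨0, hd⟩⟩
  choose! σ hσ using hσ
  have hσinj : Set.InjOn σ (μ k) := by
    intro η hη η' hη' heq
    have h1 := hσ η hη
    have h2 := hσ η' hη'
    rw [← heq] at h2
    have h3 := (tendsto_pow_ne he0).eventually hbr.injOn
    have h4 := (h1.and h2).filter_mono (nhdsWithin_le_nhds (s := {(0 : ℂ)}ᶜ))
    obtain ⟨t, ht1, ht2, ht3⟩ := (h3.and h4).exists
    exact ht1 hη hη' (by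
      show h (η * t ^ e) = h (η' * t ^ e)
      rw [ht2, ht3])
  set J : Finset (Fin d) := (μ k).image σ with hJ
  have hJcard : J.card = k := by
    rw [hJ, Finset.card_image_of_injOn hσinj, card_μ hk0]
  have hkd : k ≤ d := by
    rw [← hJcard]
    simpa using Finset.card_le_univ J
  have hQJ : ∀ᶠ t in 𝓝 (0 : ℂ), Q (t ^ N) = ∏ i ∈ J, (X - C (β i t)) := by
    have h1 : ∀ᶠ t in 𝓝 (0 : ℂ), ∀ η ∈ μ k, h (η * t ^ e) = β (σ η) t :=
      ((μ k).eventually_all).2 hσ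
    filter_upwards [(Puiseux.tendsto_pow he0).eventually hQ.eq, h1] with t h2 h3
    have h4 : t ^ N = (t ^ e) ^ k := by rw [hNe, ← pow_mul, mul_comm e k]
    rw [h4, h2, hJ, Finset.prod_image hσinj]
    refine Finset.prod_congr rfl fun η hη => ?_
    rw [h3 η hη]
  set T : ℂ → ℂ[X] := fun t => ∏ i ∈ Jᶜ, (X - C (β i t)) with hT
  have hTmf : MF (d - k) T := by
    have h1 := MF.prod Jᶜ (β := β) fun i _ => hβ i
    rwa [Finset.card_compl, hJcard, Fintype.card_fin] at h1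
  have hPT : ∀ᶠ t in 𝓝 (0 : ℂ), P (t ^ N) = Q (t ^ N) * T t := by
    filter_upwards [hβP, hQJ] with t h1 h2
    rw [h1, h2, hT]
    exact (Finset.prod_mul_prod_compl J _).symm
  obtain ⟨P', hP', hP'e⟩ := descend hN hζ hTmf (by
    filter_upwards [hPT, (tendsto_mul_zero ζ).eventually hPT] with t h1 h2
    have h3 : (ζ * t) ^ N = t ^ N := by rw [mul_pow, hζ.pow_eq_one, one_mul]
    rw [h3, h1] at h2
    exact (mul_left_cancel₀ (hQ.mf.monic _).ne_zero h2).symm)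
  refine ⟨k, h, Q, P', hkd, hbr, hQ, hP', ?_⟩
  refine eventually_of_pow hN ?_
  filter_upwards [hPT, hP'e] with t h1 h2
  rw [h1, h2]

/-- Factorization into branch polynomials, with repetitions. -/
theorem exists_factorization (d : ℕ) : ∀ P : ℂ → ℂ[X], MF d P →
    ∃ (n : ℕ) (k : Fin n → ℕ) (h : Fin n → ℂ → ℂ) (Q : Fin n → ℂ → ℂ[X]),
      (∀ i, IsBranch (k i) (h i)) ∧ (∀ i, IsEqn (k i) (h i) (Q i)) ∧
      ∀ᶠ z in 𝓝 (0 : ℂ), P z = ∏ i, Q i z := by
  induction d using Nat.strong_induction_on with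
  | _ d ih =>
  intro P hP
  rcases Nat.eq_zero_or_pos d with hd | hd
  · refine ⟨0, fun i => i.elim0, fun i => i.elim0, fun i => i.elim0, fun i => i.elim0,
      fun i => i.elim0, Filter.Eventually.of_forall fun z => ?_⟩
    rw [Fin.prod_univ_zero]
    exact (hP.monic z).natDegree_eq_zero.1 (by rw [hP.deg, hd])
  obtain ⟨k, h, Q, P', hkd, hbr, hQ, hP', hmul⟩ := peel hd hP
  obtain ⟨n, k', h', Q', hb', hq', hprod⟩ := ih (d - k) (by have := hbr.pos; omega) P' hP'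
  refine ⟨n + 1, Fin.cons k k', Fin.cons h h', Fin.cons Q Q', ?_, ?_, ?_⟩
  · intro i
    refine Fin.cases ?_ (fun j => ?_) i
    · exact hbr
    · exact hb' j
  · intro i
    refine Fin.cases ?_ (fun j => ?_) i
    · exact hQ
    · exact hq' j
  · filter_upwards [hmul, hprod] with z h1 h2
    rw [Fin.prod_univ_succ, h1, h2]
    rfl

/-! ### Two branches are equal or have no common points off the origin -/

theorem dich_aux {k k' : ℕ} {h h' : ℂ → ℂ} (H : IsBranch k h) (H' : IsBranch k' h') {η₀ η₀' : ℂ}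
    (hη₀ : η₀ ∈ μ k) (hη₀' : η₀' ∈ μ k')
    (heq : ∀ᶠ t in 𝓝 (0 : ℂ), h (η₀ * t ^ k') = h' (η₀' * t ^ k)) {η : ℂ} (hη : η ∈ μ k) :
    ∃ η' ∈ μ k', ∀ᶠ t in 𝓝 (0 : ℂ), h (η * t ^ k') = h' (η' * t ^ k) := by
  have hN : 0 < k * k' := Nat.mul_pos H.pos H'.pos
  have hζ := Complex.isPrimitiveRoot_exp (k * k') hN.ne'
  set ζ := Complex.exp (2 * Real.pi * Complex.I / ((k * k' : ℕ) : ℂ)) with hζdef
  have hω : IsPrimitiveRoot (ζ ^ k') k := hζ.pow hN (mul_comm k k')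
  have h0 := μ_ne_zero H.pos hη₀
  have : NeZero k := ⟨H.pos.ne'⟩
  obtain ⟨j, -, hj⟩ := hω.eq_pow_of_pow_eq_one (ξ := η / η₀) (by
    rw [div_pow, (mem_μ H.pos).1 hη, (mem_μ H.pos).1 hη₀, div_one])
  refine ⟨η₀' * (ζ ^ k) ^ j, ?_, ?_⟩
  · rw [mem_μ H'.pos, mul_pow, (mem_μ H'.pos).1 hη₀', one_mul, ← pow_mul, ← pow_mul,
      show k * (j * k') = k * k' * j by ring, pow_mul, hζ.pow_eq_one, one_pow]
  · filter_upwards [(tendsto_mul_zero (ζ ^ j)).eventually heq] with t ht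
    have h1 : η₀ * (ζ ^ j * t) ^ k' = η * t ^ k' := by
      rw [mul_pow, ← pow_mul, mul_comm j k', pow_mul, hj]
      field_simp
    have h2 : η₀' * (ζ ^ j * t) ^ k = η₀' * (ζ ^ k) ^ j * t ^ k := by
      rw [mul_pow, ← pow_mul, mul_comm j k, pow_mul, mul_assoc]
    rw [h1, h2] at ht
    exact ht

theorem eqn_dichotomy {k k' : ℕ} {h h' : ℂ → ℂ} {Q Q' : ℂ → ℂ[X]} (H : IsBranch k h)
    (H' : IsBranch k' h') (hQ : IsEqn k h Q) (hQ' : IsEqn k' h' Q') :
    (k = k' ∧ ∀ᶠ z in 𝓝 (0 : ℂ), Q z = Q' z) ∨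
      ∀ᶠ z in 𝓝[≠] (0 : ℂ), ∀ w, (Q z).eval w = 0 → (Q' z).eval w ≠ 0 := by
  classical
  have hN : 0 < k * k' := Nat.mul_pos H.pos H'.pos
  have e1 : ∀ᶠ t in 𝓝 (0 : ℂ), Q (t ^ (k * k')) = ∏ η ∈ μ k, (X - C (h (η * t ^ k'))) := by
    filter_upwards [(Puiseux.tendsto_pow H'.pos).eventually hQ.eq] with t ht
    rw [← ht, ← pow_mul, mul_comm k' k]
  have e2 : ∀ᶠ t in 𝓝 (0 : ℂ), Q' (t ^ (k * k')) = ∏ η ∈ μ k', (X - C (h' (η * t ^ k))) := by
    filter_upwards [(Puiseux.tendsto_pow H.pos).eventually hQ'.eq] with t ht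
    rw [← ht, ← pow_mul]
  by_cases hex : ∃ η ∈ μ k, ∃ η' ∈ μ k', ∀ᶠ t in 𝓝 (0 : ℂ), h (η * t ^ k') = h' (η' * t ^ k)
  · left
    obtain ⟨η₀, hη₀, η₀', hη₀', heq⟩ := hex
    have h1 : ∀ η ∈ μ k, ∃ η' ∈ μ k', ∀ᶠ t in 𝓝 (0 : ℂ), h (η * t ^ k') = h' (η' * t ^ k) :=
      fun η hη => dich_aux H H' hη₀ hη₀' heq hη
    have h2 : ∀ η' ∈ μ k', ∃ η ∈ μ k, ∀ᶠ t in 𝓝 (0 : ℂ), h' (η' * t ^ k) = h (η * t ^ k') :=
      fun η' hη' => dich_aux H' H hη₀' hη₀ (by
        filter_upwards [heq] with t ht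
        exact ht.symm) hη'
    choose! a ha1 ha2 using h1
    choose! b hb1 hb2 using h2
    have h3 : ∀ᶠ t in 𝓝[≠] (0 : ℂ), Q (t ^ (k * k')) = Q' (t ^ (k * k')) := by
      have i1 := (tendsto_pow_ne H'.pos).eventually H.injOn
      have i2 := (tendsto_pow_ne H.pos).eventually H'.injOn
      have e3 := (((μ k).eventually_all).2 ha2).filter_mono
        (nhdsWithin_le_nhds (s := {(0 : ℂ)}ᶜ))
      have e4 := (((μ k').eventually_all).2 hb2).filter_mono
        (nhdsWithin_le_nhds (s := {(0 : ℂ)}ᶜ))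
      filter_upwards [i1, i2, e3, e4, e1.filter_mono nhdsWithin_le_nhds,
        e2.filter_mono nhdsWithin_le_nhds] with t j1 j2 j3 j4 j5 j6
      rw [j5, j6]
      have h4 : ∏ η ∈ μ k, (X - C (h (η * t ^ k'))) =
          ∏ w ∈ (μ k).image (fun η => h (η * t ^ k')), (X - C w) := by
        rw [Finset.prod_image j1]
      have h5 : ∏ η ∈ μ k', (X - C (h' (η * t ^ k))) =
          ∏ w ∈ (μ k').image (fun η => h' (η * t ^ k)), (X - C w) := by
        rw [Finset.prod_image j2]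
      rw [h4, h5]
      congr 1
      ext w
      rw [Finset.mem_image, Finset.mem_image]
      constructor
      · rintro ⟨η, hη, rfl⟩
        exact ⟨a η, ha1 η hη, (j3 η hη).symm⟩
      · rintro ⟨η, hη, rfl⟩
        exact ⟨b η, hb1 η hη, (j4 η hη).symm⟩
    have h4 := hQ.mf.eq_of_ne hQ'.mf (eventually_ne_of_pow (p := fun z => Q z = Q' z) hN h3)
    refine ⟨?_, h4⟩
    have h5 := h4.self_of_nhds
    rw [← hQ.mf.deg 0, ← hQ'.mf.deg 0, h5]
  · right
    have h1 : ∀ᶠ t in 𝓝[≠] (0 : ℂ), ∀ η ∈ μ k, ∀ η' ∈ μ k', h (η * t ^ k') ≠ h' (η' * t ^ k) := by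
      refine ((μ k).eventually_all).2 fun η hη => ((μ k').eventually_all).2 fun η' hη' => ?_
      rcases eventually_eq_or_ne (Puiseux.analyticAt_comp_pow (analyticAt_comp_mul H.an η) H'.pos)
        (Puiseux.analyticAt_comp_pow (analyticAt_comp_mul H'.an η') H.pos) with h2 | h2
      · exact absurd ⟨η, hη, η', hη', h2⟩ hex
      · exact h2
    refine eventually_ne_of_pow (p := fun z => ∀ w, (Q z).eval w = 0 → (Q' z).eval w ≠ 0) hN ?_
    filter_upwards [h1, e1.filter_mono nhdsWithin_le_nhds,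
      e2.filter_mono nhdsWithin_le_nhds] with t j1 j2 j3 w hw hw'
    rw [j2, eval_prod, Finset.prod_eq_zero_iff] at hw
    rw [j3, eval_prod, Finset.prod_eq_zero_iff] at hw'
    obtain ⟨η, hη, h3⟩ := hw
    obtain ⟨η', hη', h4⟩ := hw'
    rw [eval_sub, eval_X, eval_C, sub_eq_zero] at h3 h4
    exact j1 η hη η' hη' (by rw [← h3, ← h4])

end Vale.Agent.P267.H823
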