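import Vale.Agent.P267.H823.Mfd

/-!
# P267, package CURV-C1 (helper823): local factorization on a complex surface
-/

open Filter Topology
open scoped Manifold ContDiff

set_option linter.unusedSectionVars false

namespace Vale.Agent.P267.H823

section Def

variable (E : Type*) [NormedAddCommGroup E] [NormedSpace ℂ E]
  {M : Type*} [TopologicalSpace M] [ChartedSpace E M]

/-- the differential of a function, as a linear form on `E` -/
noncomputable def dM (s : M → ℂ) (p : M) : E →L[ℂ] ℂ := mfderiv 𝓘(ℂ, E) 𝓘(ℂ) s p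

/-- local factorization of `f` at `p` into irreducible factors `q i` with multiplicities `m i` -/
structure LocFact (f : M → ℂ) (p : M) {ι : Type} [Fintype ι] (q : ι → M → ℂ) (m : ι → ℕ)
    (u : M → ℂ) : Prop where
  hol : ∀ i, HolN E (q i) p
  zero : ∀ i, q i p = 0
  mpos : ∀ i, 0 < m i
  holu : HolN E u p
  ne : u p ≠ 0
  eq : ∀ᶠ x in 𝓝 p, f x = u x * ∏ i, q i x ^ m i
  reg : ∀ᶠ x in 𝓝[≠] p, ∀ i, q i x = 0 → dM E (q i) x ≠ 0 ∧ ∀ j, j ≠ i → q j x ≠ 0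
  conn : ∀ W ∈ 𝓝 p, ∃ V ∈ 𝓝 p, IsOpen V ∧ V ⊆ W ∧
    ∀ i, IsConnected ({x ∈ V | q i x = 0} \ {p})

/-- `f = v * l ^ m` near `y` with `v y ≠ 0`, `l y = 0` and `dl ≠ 0` at `y` -/
structure RegAt (f : M → ℂ) (y : M) (l : M → ℂ) (m : ℕ) (v : M → ℂ) : Prop where
  hol : HolN E l y
  zero : l y = 0
  dne : dM E l y ≠ 0
  mpos : 0 < m
  holv : HolN E v y
  ne : v y ≠ 0
  eq : ∀ᶠ x in 𝓝 y, f x = v x * l x ^ m

end Def

variable {E : Type*} [NormedAddCommGroup E] [NormedSpace ℂ E]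
  {M : Type*} [TopologicalSpace M] [ChartedSpace E M]

theorem dM_ne_zero_iff {s : M → ℂ} {p : M} :
    dM E s p ≠ 0 ↔ mfderiv 𝓘(ℂ, E) 𝓘(ℂ) s p ≠ 0 := Iff.rfl

theorem dM_eq {s : M → ℂ} {p : M} {A : E →L[ℂ] ℂ}
    (h : HasMFDerivAt 𝓘(ℂ, E) 𝓘(ℂ) s p A) : dM E s p = A := h.mfderiv

theorem dM_congr {s t : M → ℂ} {p : M} (h : ∀ᶠ x in 𝓝 p, s x = t x) : dM E s p = dM E t p := by
  have h1 : s =ᶠ[𝓝 p] t := h
  exact h1.mfderiv_eq

theorem dM_mul_of_zero {q R : M → ℂ} {p : M}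
    (hq : MDifferentiableAt 𝓘(ℂ, E) 𝓘(ℂ) q p)
    (hR : MDifferentiableAt 𝓘(ℂ, E) 𝓘(ℂ) R p) (h0 : q p = 0) (v : E) :
    dM E (fun x => R x * q x) p v = R p * dM E q p v := by
  obtain ⟨A, hA⟩ : ∃ A : E →L[ℂ] ℂ, HasMFDerivAt 𝓘(ℂ, E) 𝓘(ℂ) q p A := ⟨_, hq.hasMFDerivAt⟩
  obtain ⟨B, hB⟩ : ∃ B : E →L[ℂ] ℂ, HasMFDerivAt 𝓘(ℂ, E) 𝓘(ℂ) R p B := ⟨_, hR.hasMFDerivAt⟩
  have h1 : HasMFDerivAt 𝓘(ℂ, E) 𝓘(ℂ) (fun x => R x * q x) p (R p • A + q p • B : E →L[ℂ] ℂ) :=
    hB.mul hA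
  rw [dM_eq h1, dM_eq hA]
  show R p * A v + q p * B v = R p * A v
  rw [h0, zero_mul, add_zero]

theorem dM_mul_ne_zero_iff {q R : M → ℂ} {p : M}
    (hq : MDifferentiableAt 𝓘(ℂ, E) 𝓘(ℂ) q p)
    (hR : MDifferentiableAt 𝓘(ℂ, E) 𝓘(ℂ) R p) (h0 : q p = 0) :
    dM E (fun x => R x * q x) p ≠ 0 ↔ R p ≠ 0 ∧ dM E q p ≠ 0 := by
  have h1 := dM_mul_of_zero hq hR h0
  constructor
  · intro h
    refine ⟨fun h2 => h ?_, fun h2 => h ?_⟩
    · ext v
      rw [h1, h2, zero_mul]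
      rfl
    · ext v
      rw [h1, h2]
      exact mul_zero _
  · rintro ⟨h2, h3⟩ h4
    apply h3
    ext v
    have h5 := h1 v
    rw [h4] at h5
    have h6 : R p * dM E q p v = 0 := h5.symm
    exact (mul_eq_zero.1 h6).resolve_left h2

/-- a function with nonzero differential is not locally zero -/
theorem frequently_ne_of_mfderiv {l : M → ℂ} {p : M}
    (h : dM E l p ≠ 0) : ∃ᶠ x in 𝓝 p, l x ≠ 0 := by
  intro hcon
  apply h
  have h1 : ∀ᶠ x in 𝓝 p, l x = 0 := by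
    filter_upwards [hcon] with x hx
    exact not_not.1 hx
  rw [dM_congr (E := E) (t := fun _ => (0 : ℂ)) h1]
  exact mfderiv_const

section Ex

variable [FiniteDimensional ℂ E] [IsManifold 𝓘(ℂ, E) ω M]

theorem exists_locFact (h2 : Module.finrank ℂ E = 2) {f : M → ℂ} {p : M} (hf : HolN E f p)
    (h0 : f p = 0) (hne : ∃ᶠ x in 𝓝 p, f x ≠ 0) :
    ∃ (ι : Type) (_ : Fintype ι) (q : ι → M → ℂ) (m : ι → ℕ) (u : M → ℂ), Nonempty ι ∧
      LocFact E f p q m u := by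
  have I1 : IsManifold 𝓘(ℂ, E) 1 M := IsManifold.of_le (n := ω) le_top
  set e := chartAt E p with he
  have hpe : p ∈ e.source := mem_chart_source E p
  have hpt : e p ∈ e.target := e.map_source hpe
  have hga : AnalyticAt ℂ (f ∘ e.symm) (e p) :=
    hf.analyticAt (mdifferentiable_chart (I := 𝓘(ℂ, E)) p) hpe
  have hg0 : (f ∘ e.symm) (e p) = 0 := by
    simp [e.left_inv hpe, h0]
  have hgne : ∃ᶠ x in 𝓝 (e p), (f ∘ e.symm) x ≠ 0 := by
    intro hcon
    apply hne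
    filter_upwards [(e.continuousAt hpe).eventually hcon, e.open_source.mem_nhds hpe] with x hx hxs
    simpa [e.left_inv hxs] using hx
  obtain ⟨v, hv, hline⟩ := exists_line hga hg0 hgne
  obtain ⟨L, hL⟩ := exists_coord h2 hv
  set ψ := crd p L with hψdef
  have hψ : ψ.MDifferentiable 𝓘(ℂ, E) 𝓘(ℂ, ℂ × ℂ) := crd_mdiff p L
  have hps : p ∈ ψ.source := mem_crd_source p L
  have hp0 : ψ p = 0 := crd_self p L
  have h0t : (0 : ℂ × ℂ) ∈ ψ.target := by
    rw [← hp0]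
    exact ψ.map_source hps
  have hsymm0 : ψ.symm 0 = p := by
    rw [← hp0]
    exact ψ.left_inv hps
  have hFa : AnalyticAt ℂ (f ∘ ψ.symm) 0 := by
    rw [← hp0]
    exact hf.analyticAt hψ hps
  have hF0 : (f ∘ ψ.symm) 0 = 0 := by
    simp [hsymm0, h0]
  have hFne : ¬ ∀ᶠ w in 𝓝 (0 : ℂ), (f ∘ ψ.symm) (0, w) = 0 := by
    intro hcon
    apply hline
    filter_upwards [hcon] with w hw
    have h3 : L.symm (0, w) = w • v := by
      rw [← hL, ← L.symm.map_smul]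
      simp
    have h4 : ψ.symm (0, w) = e.symm (w • v + e p) := by
      rw [hψdef, crd_symm_apply, h3]
    simp only [Function.comp_apply, h4] at hw
    simpa [add_comm] using hw
  obtain ⟨ι, Fι, q, m, u, hι, hq, hq0, hm, hu, hu0, heq, hreg, hconn⟩ :=
    local_struct_prod hFa hF0 hFne
  have hψc : Tendsto ψ (𝓝 p) (𝓝 0) := by
    have := (ψ.continuousAt hps).tendsto
    rwa [hp0] at this
  have hψc' : Tendsto ψ (𝓝[≠] p) (𝓝[≠] 0) := by
    refine tendsto_nhdsWithin_iff.2 ⟨hψc.mono_left nhdsWithin_le_nhds, ?_⟩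
    filter_upwards [self_mem_nhdsWithin,
      mem_nhdsWithin_of_mem_nhds (ψ.open_source.mem_nhds hps)] with x hx hxs
    intro h3
    apply hx
    have h4 : ψ x = ψ p := by
      rw [hp0]
      exact h3
    exact ψ.injOn hxs hps h4
  refine ⟨ι, Fι, fun i => q i ∘ ψ, m, u ∘ ψ, hι, ?_⟩
  refine ⟨fun i => ?_, fun i => ?_, hm, ?_, ?_, ?_, ?_, fun W hW => ?_⟩
  · exact holN_of_analyticAt hψ hps (by rw [hp0]; exact hq i)
  · simp [hp0, hq0 i]
  · exact holN_of_analyticAt hψ hps (by rw [hp0]; exact hu)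
  · simp [hp0, hu0]
  · filter_upwards [hψc.eventually heq, ψ.open_source.mem_nhds hps] with x hx hxs
    have h3 : (f ∘ ψ.symm) (ψ x) = f x := by simp [ψ.left_inv hxs]
    rw [h3] at hx
    exact hx
  · have h3 : ∀ᶠ x in 𝓝[≠] p, ∀ i, AnalyticAt ℂ (q i) (ψ x) :=
      (hψc.mono_left nhdsWithin_le_nhds).eventually
        (Filter.eventually_all.2 fun i => (hq i).eventually_analyticAt)
    filter_upwards [hψc'.eventually hreg, h3,
      mem_nhdsWithin_of_mem_nhds (ψ.open_source.mem_nhds hps)] with x hx hxa hxs i hi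
    obtain ⟨h4, h5⟩ := hx i hi
    exact ⟨mfderiv_comp_ne_zero hψ hxs (hxa i).differentiableAt h4, h5⟩
  · have hW' : ψ.symm ⁻¹' W ∩ ψ.target ∈ 𝓝 (0 : ℂ × ℂ) := by
      refine inter_mem ?_ (ψ.open_target.mem_nhds h0t)
      have h3 := (ψ.continuousAt_symm h0t).tendsto
      rw [hsymm0] at h3
      exact h3 hW
    obtain ⟨V', hV'n, hV'o, hV'W, hV'c⟩ := hconn _ hW'
    refine ⟨ψ.source ∩ ψ ⁻¹' V', ?_, ψ.isOpen_inter_preimage hV'o, ?_, fun i => ?_⟩
    · exact inter_mem (ψ.open_source.mem_nhds hps) (hψc hV'n)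
    · rintro x ⟨hxs, hxV⟩
      have := (hV'W hxV).1
      simpa [ψ.left_inv hxs] using this
    · have key : {x ∈ ψ.source ∩ ψ ⁻¹' V' | (q i ∘ ψ) x = 0} \ {p} =
          ψ.symm '' ({y ∈ V' | q i y = 0} \ {0}) := by
        ext x
        constructor
        · rintro ⟨⟨⟨hxs, hxV⟩, hxq⟩, hxp⟩
          refine ⟨ψ x, ⟨⟨hxV, hxq⟩, fun h3 => hxp ?_⟩, ψ.left_inv hxs⟩
          have h4 : ψ x = ψ p := by
            rw [hp0]
            exact h3
          exact ψ.injOn hxs hps h4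
        · rintro ⟨y, ⟨⟨hyV, hyq⟩, hy0⟩, rfl⟩
          have hyt := (hV'W hyV).2
          refine ⟨⟨⟨ψ.map_target hyt, ?_⟩, ?_⟩, fun h3 => hy0 ?_⟩
          · show ψ (ψ.symm y) ∈ V'
            rwa [ψ.right_inv hyt]
          · show q i (ψ (ψ.symm y)) = 0
            rwa [ψ.right_inv hyt]
          · have h4 : ψ.symm y = p := h3
            have h5 : y = ψ p := by rw [← h4, ψ.right_inv hyt]
            rw [h5]
            exact hp0
      rw [key]
      refine (hV'c i).image _ ?_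
      refine ψ.continuousOn_symm.mono ?_
      rintro y ⟨⟨hyV, -⟩, -⟩
      exact (hV'W hyV).2

/-- At a regular point the factorization has one smooth factor. -/
theorem RegAt.exists_locFact' (h2 : Module.finrank ℂ E = 2) {f : M → ℂ} {p : M} {l : M → ℂ}
    {n : ℕ} {v : M → ℂ} (H : RegAt E f p l n v) :
    ∃ (ι : Type) (_ : Fintype ι) (q : ι → M → ℂ) (m : ι → ℕ) (u : M → ℂ), Nonempty ι ∧
      LocFact E f p q m u ∧ ∀ i, dM E (q i) p ≠ 0 ∧ ∀ j, j = i := by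
  classical
  obtain ⟨ι, Fι, q, m, u, hι, L⟩ := exists_locFact h2 H.hol H.zero (frequently_ne_of_mfderiv H.dne)
  have key : ∀ i, (m i = 1 ∧ ∀ j, j = i) ∧ dM E (q i) p ≠ 0 := by
    intro i
    set R : M → ℂ := fun x => u x * (q i x ^ (m i - 1) * ∏ j ∈ Finset.univ.erase i, q j x ^ m j)
      with hR
    have hRh : HolN E R p :=
      L.holu.mul (((L.hol i).pow _).mul (HolN.prod _ fun j _ => (L.hol j).pow _))
    have h3 : ∀ᶠ x in 𝓝 p, l x = R x * q i x := by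
      filter_upwards [L.eq] with x hx
      rw [hx, hR, ← Finset.mul_prod_erase Finset.univ (fun j => q j x ^ m j) (Finset.mem_univ i)]
      have h4 : q i x ^ m i = q i x ^ (m i - 1) * q i x := by
        rw [← pow_succ, Nat.sub_add_cancel (L.mpos i)]
      rw [h4]
      ring
    have h4 := H.dne
    rw [dM_congr h3, dM_mul_ne_zero_iff (L.hol i).mdiff hRh.mdiff (L.zero i)] at h4
    refine ⟨?_, h4.2⟩
    have h5 := h4.1
    rw [hR] at h5
    simp only [mul_ne_zero_iff, Finset.prod_ne_zero_iff] at h5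
    obtain ⟨-, h6, h7⟩ := h5
    constructor
    · have h8 := L.mpos i
      by_contra h9
      rw [L.zero i, zero_pow (by omega)] at h6
      exact h6 rfl
    · intro j
      by_contra h9
      have := h7 j (Finset.mem_erase.2 ⟨h9, Finset.mem_univ _⟩)
      rw [L.zero j, zero_pow (L.mpos j).ne'] at this
      exact this rfl
  refine ⟨ι, Fι, q, fun _ => n, fun x => v x * u x ^ n, hι, ?_, fun i => ⟨(key i).2, (key i).1.2⟩⟩
  refine ⟨L.hol, L.zero, fun _ => H.mpos, H.holv.mul (L.holu.pow _),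
    mul_ne_zero H.ne (pow_ne_zero _ L.ne), ?_, L.reg, L.conn⟩
  obtain ⟨i0⟩ := hι
  have huniv : (Finset.univ : Finset ι) = {i0} := by
    ext j
    simp [(key i0).1.2 j]
  filter_upwards [H.eq, L.eq] with x h3 h4
  rw [h3, h4, huniv, Finset.prod_singleton, Finset.prod_singleton, (key i0).1.1, pow_one,
    mul_pow, mul_assoc]

end Ex

end Vale.Agent.P267.H823
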