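import Vale.Agent.P267.H823.Factor
import Vale.Agent.P267.H823.Weier

/-!
# P267, package CURV-C1 (helper823): local factorization in prepared coordinates
-/

open Filter Topology Polynomial

namespace Vale.Agent.P267.H823

/-- Grouping equal factors. -/
theorem exists_grouped {d : ℕ} {P : ℂ → ℂ[X]} (hP : MF d P) :
    ∃ (ι : Type) (_ : Fintype ι) (k : ι → ℕ) (h : ι → ℂ → ℂ) (Q : ι → ℂ → ℂ[X]) (m : ι → ℕ),
      (∀ i, IsBranch (k i) (h i)) ∧ (∀ i, IsEqn (k i) (h i) (Q i)) ∧ (∀ i, 0 < m i) ∧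
      (∀ i j, i ≠ j → ∀ᶠ z in 𝓝[≠] (0 : ℂ), ∀ w, (Q i z).eval w = 0 → (Q j z).eval w ≠ 0) ∧
      ∀ᶠ z in 𝓝 (0 : ℂ), P z = ∏ i, Q i z ^ m i := by
  classical
  obtain ⟨n, k, h, Q, hb, hq, hprod⟩ := exists_factorization d P hP
  let S : Setoid (Fin n) :=
    { r := fun i j => ∀ᶠ z in 𝓝 (0 : ℂ), Q i z = Q j z
      iseqv :=
        { refl := fun i => Filter.Eventually.of_forall fun z => rfl
          symm := fun {i j} h => by
            filter_upwards [h] with z hz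
            exact hz.symm
          trans := fun {i j l} h h' => by
            filter_upwards [h, h'] with z hz hz'
            exact hz.trans hz' } }
  let F : Fintype (Quotient S) := Fintype.ofFinite _
  have hS : ∀ i : Fin n, ∀ᶠ z in 𝓝 (0 : ℂ), Q i z = Q (Quotient.mk S i).out z := by
    intro i
    have h1 : S.r (Quotient.mk S i).out i := Quotient.mk_out (s := S) i
    filter_upwards [h1] with z hz
    exact hz.symm
  refine ⟨Quotient S, F, fun q => k q.out, fun q => h q.out, fun q => Q q.out,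
    fun q => (Finset.univ.filter fun i => Quotient.mk S i = q).card, fun q => hb _, fun q => hq _,
    fun q => ?_, fun q q' hne => ?_, ?_⟩
  · refine Finset.card_pos.2 ⟨q.out, ?_⟩
    rw [Finset.mem_filter]
    exact ⟨Finset.mem_univ _, q.out_eq⟩
  · rcases eqn_dichotomy (hb q.out) (hb q'.out) (hq q.out) (hq q'.out) with h1 | h1
    · exfalso
      apply hne
      rw [← q.out_eq, ← q'.out_eq]
      exact Quotient.sound h1.2
    · exact h1
  · filter_upwards [hprod, Filter.eventually_all.2 hS] with z h1 h2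
    rw [h1, ← Finset.prod_fiberwise (s := Finset.univ) (g := fun i => Quotient.mk S i)]
    refine Finset.prod_congr rfl fun q _ => ?_
    rw [← Finset.prod_const]
    refine Finset.prod_congr rfl fun i hi => ?_
    rw [Finset.mem_filter] at hi
    rw [h2 i, hi.2]

/-! ### zeros of a branch polynomial -/

theorem IsEqn.exists_radius {k : ℕ} {h : ℂ → ℂ} {Q : ℂ → ℂ[X]} (hQ : IsEqn k h Q) : ∃ ρ > 0, ∀ s : ℂ, ‖s‖ ^ k < ρ →
      Q (s ^ k) = ∏ η ∈ μ k, (X - C (h (η * s))) := by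
  obtain ⟨δ, hδ, h1⟩ := Metric.eventually_nhds_iff.1 hQ.eq
  refine ⟨δ ^ k, by positivity, fun s hs => h1 ?_⟩
  rw [dist_zero_right]
  exact lt_of_pow_lt_pow_left₀ k hδ.le hs

theorem IsEqn.zero_iff {k : ℕ} {h : ℂ → ℂ} {Q : ℂ → ℂ[X]} (H : IsBranch k h)
    {ρ : ℝ} (hρ : ∀ s : ℂ, ‖s‖ ^ k < ρ → Q (s ^ k) = ∏ η ∈ μ k, (X - C (h (η * s))))
    {z : ℂ} (hz : ‖z‖ < ρ) (w : ℂ) : (Q z).eval w = 0 ↔ ∃ t, t ^ k = z ∧ w = h t := by
  constructor
  · intro h1
    obtain ⟨s, rfl⟩ := IsAlgClosed.exists_pow_nat_eq z H.pos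
    rw [hρ s (by rwa [norm_pow] at hz), eval_prod, Finset.prod_eq_zero_iff] at h1
    obtain ⟨η, hη, h2⟩ := h1
    rw [eval_sub, eval_X, eval_C, sub_eq_zero] at h2
    exact ⟨η * s, by rw [mul_pow, (mem_μ H.pos).1 hη, one_mul], h2⟩
  · rintro ⟨t, rfl, rfl⟩
    rw [hρ t (by rwa [norm_pow] at hz), eval_prod]
    refine Finset.prod_eq_zero (one_mem_μ H.pos) ?_
    simp

/-- the roots are simple off `0` -/
theorem IsEqn.derivative_ne_zero {k : ℕ} {h : ℂ → ℂ} {Q : ℂ → ℂ[X]} (H : IsBranch k h)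
    (hQ : IsEqn k h Q) : ∀ᶠ z in 𝓝[≠] (0 : ℂ), ∀ w, (Q z).eval w = 0 →
      (derivative (Q z)).eval w ≠ 0 := by
  classical
  refine eventually_ne_of_pow (p := fun z => ∀ w, (Q z).eval w = 0 →
      (derivative (Q z)).eval w ≠ 0) H.pos ?_
  filter_upwards [H.injOn, hQ.eq.filter_mono nhdsWithin_le_nhds] with t h1 h2 w hw
  have h3 : Q (t ^ k) = ∏ w ∈ (μ k).image (fun η => h (η * t)), (X - C w) := by
    rw [h2, Finset.prod_image h1]
  have h4 : (Q (t ^ k)).Separable := by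
    rw [h3]
    exact separable_prod_X_sub_C_iff'.2 fun x _ y _ hxy => hxy
  intro h5
  obtain ⟨a, b, hab⟩ := h4
  have h6 := congrArg (eval w) hab
  rw [eval_add, eval_mul, eval_mul, hw, h5, eval_one, mul_zero, mul_zero, add_zero] at h6
  exact zero_ne_one h6

theorem IsEqn.eval_zero {k : ℕ} {h : ℂ → ℂ} {Q : ℂ → ℂ[X]} (H : IsBranch k h)
    (hQ : IsEqn k h Q) : (Q 0).eval (h 0) = 0 := by
  have h1 := hQ.eq.self_of_nhds
  rw [zero_pow H.pos.ne'] at h1
  rw [h1, eval_prod]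
  refine Finset.prod_eq_zero (one_mem_μ H.pos) ?_
  simp

/-- Local factorization in prepared coordinates. -/
theorem local_factorization {g : ℂ × ℂ → ℂ} (hg : AnalyticAt ℂ g 0) (h0 : g 0 = 0)
    (hne : ¬ ∀ᶠ w in 𝓝 (0 : ℂ), g (0, w) = 0) :
    ∃ (ι : Type) (_ : Fintype ι) (k : ι → ℕ) (h : ι → ℂ → ℂ) (Q : ι → ℂ → ℂ[X]) (m : ι → ℕ)
      (u : ℂ × ℂ → ℂ), Nonempty ι ∧
      (∀ i, IsBranch (k i) (h i)) ∧ (∀ i, IsEqn (k i) (h i) (Q i)) ∧ (∀ i, h i 0 = 0) ∧
      (∀ i, 0 < m i) ∧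
      (∀ i j, i ≠ j → ∀ᶠ z in 𝓝[≠] (0 : ℂ), ∀ w, (Q i z).eval w = 0 → (Q j z).eval w ≠ 0) ∧
      AnalyticAt ℂ u 0 ∧ u 0 ≠ 0 ∧
      ∀ᶠ p in 𝓝 (0 : ℂ × ℂ), g p = u p * ∏ i, ((Q i p.1).eval p.2) ^ m i := by
  -- the restriction to the line
  have ha : AnalyticAt ℂ (fun w : ℂ => g (0, w)) 0 :=
    AnalyticAt.comp_of_eq hg (analyticAt_const.prod analyticAt_id) rfl
  have hfin : analyticOrderAt (fun w : ℂ => g (0, w)) 0 ≠ ⊤ := by
    rw [Ne, analyticOrderAt_eq_top]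
    exact hne
  obtain ⟨b, hb⟩ := ENat.ne_top_iff_exists.1 hfin
  obtain ⟨u0, hu0a, hu0, hu0e⟩ := (ha.analyticOrderAt_eq_natCast (n := b)).1 hb.symm
  -- Weierstrass preparation
  have hF : AnalyticAt ℂ (fun z : ℂ × ℂ => g (z.2, z.1)) (0, 0) :=
    AnalyticAt.comp_of_eq hg (analyticAt_snd.prod analyticAt_fst) rfl
  obtain ⟨P, v, hP1, hP2, hP3, hv, hv0, hPv⟩ := weierstrass (p0 := (0 : ℂ)) hF (b := b) (u := u0)
    hu0a hu0 (by
      filter_upwards [hu0e] with x hx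
      rw [hx, sub_zero, smul_eq_mul])
  have hMF : MF b P := ⟨fun z => (hP1 z).1, fun z => (hP1 z).2, hP2⟩
  obtain ⟨ι, Fι, k, h, Q, m, hbr, hq, hm, hdis, hprod⟩ := exists_grouped hMF
  have hb0 : b ≠ 0 := by
    rintro rfl
    have h1 := hu0e.self_of_nhds
    rw [sub_zero, pow_zero, one_smul] at h1
    exact hu0 (by rw [← h1]; exact h0)
  have hι : Nonempty ι := by
    by_contra hcon
    rw [not_nonempty_iff] at hcon
    have h1 := hprod.self_of_nhds
    rw [Finset.univ_eq_empty, Finset.prod_empty] at h1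
    have h2 := hMF.deg 0
    rw [h1, natDegree_one] at h2
    exact hb0 h2.symm
  have hP0 := hprod.self_of_nhds
  rw [hP3] at hP0
  refine ⟨ι, Fι, k, h, Q, m, fun p => (v (p.2, p.1))⁻¹, hι, hbr, hq, fun i => ?_, hm, hdis,
    ?_, ?_, ?_⟩
  · have h1 := (hq i).eval_zero (hbr i)
    have h2 := congrArg (eval (h i 0)) hP0
    rw [eval_prod, Finset.prod_eq_zero (Finset.mem_univ i) (by
      rw [eval_pow, h1, zero_pow (hm i).ne'])] at h2
    rw [eval_pow, eval_X] at h2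
    exact pow_eq_zero_iff hb0 |>.1 h2
  · have h1 : AnalyticAt ℂ (fun p : ℂ × ℂ => v (p.2, p.1)) 0 :=
      AnalyticAt.comp_of_eq hv (analyticAt_snd.prod analyticAt_fst) rfl
    exact h1.inv hv0
  · exact inv_ne_zero hv0
  · have hsw : Tendsto (fun p : ℂ × ℂ => (p.2, p.1)) (𝓝 0) (𝓝 (0, 0)) := by
      have h1 : Continuous fun p : ℂ × ℂ => (p.2, p.1) := by fun_prop
      exact h1.tendsto 0
    have hv1 : ∀ᶠ p : ℂ × ℂ in 𝓝 0, v (p.2, p.1) ≠ 0 :=
      hsw.eventually (hv.continuousAt.eventually_ne hv0)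
    have hfst : Tendsto (fun p : ℂ × ℂ => p.1) (𝓝 0) (𝓝 0) := by
      have h1 : Continuous fun p : ℂ × ℂ => p.1 := by fun_prop
      exact h1.tendsto 0
    filter_upwards [hsw.eventually hPv, hv1, hfst.eventually hprod] with p h1 h2 h3
    have h4 : ∏ i, ((Q i p.1).eval p.2) ^ m i = (P p.1).eval p.2 := by
      rw [h3, eval_prod]
      refine Finset.prod_congr rfl fun i _ => ?_
      rw [eval_pow]
    rw [h4]
    rw [← h1]
    field_simp

end Vale.Agent.P267.H823
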