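import Vale.Agent.P267.H823.Loc

/-!
# P267, package CURV-C1 (helper823): geometry of the zero set in prepared coordinates
-/

open Filter Topology Polynomial

namespace Vale.Agent.P267.H823

theorem tendsto_fst_zero : Tendsto (fun p : ℂ × ℂ => p.1) (𝓝 0) (𝓝 0) := by
  have h1 : Continuous fun p : ℂ × ℂ => p.1 := by fun_prop
  exact h1.tendsto 0

theorem eventually_fst_ne {p : ℂ → Prop} (h : ∀ᶠ z in 𝓝[≠] (0 : ℂ), p z) :
    ∀ᶠ x : ℂ × ℂ in 𝓝 0, x.1 ≠ 0 → p x.1 := by
  rw [eventually_nhdsWithin_iff] at h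
  exact tendsto_fst_zero.eventually h

/-- the partial derivative in the second variable -/
theorem fderiv_eval_ne {d : ℕ} {Q : ℂ → ℂ[X]} (hQ : MF d Q) : ∀ᶠ x in 𝓝 (0 : ℂ × ℂ),
    (derivative (Q x.1)).eval x.2 ≠ 0 →
      fderiv ℂ (fun p : ℂ × ℂ => (Q p.1).eval p.2) x ≠ 0 := by
  have h1 : ∀ᶠ x in 𝓝 (0 : ℂ × ℂ), AnalyticAt ℂ (fun p : ℂ × ℂ => (Q p.1).eval p.2) x :=
    (hQ.analyticAt_eval 0).eventually_analyticAt
  filter_upwards [h1] with x hx hne h0
  apply hne
  have h2 : HasFDerivAt (fun p : ℂ × ℂ => (Q p.1).eval p.2) (0 : ℂ × ℂ →L[ℂ] ℂ) x := by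
    rw [← h0]
    exact hx.differentiableAt.hasFDerivAt
  have h3 : HasDerivAt (fun w : ℂ => (x.1, w)) ((0 : ℂ), (1 : ℂ)) x.2 :=
    (hasDerivAt_const x.2 x.1).prodMk (hasDerivAt_id x.2)
  have h4 : HasDerivAt (fun w : ℂ => (Q x.1).eval w) 0 x.2 := by
    have h5 := HasFDerivAt.comp_hasDerivAt_of_eq x.2 h2 h3 rfl
    rw [ContinuousLinearMap.zero_apply] at h5
    exact h5
  have h6 := (Q x.1).hasDerivAt x.2
  exact h6.unique h4

/-- The local structure in prepared coordinates. -/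
theorem local_struct_prod {g : ℂ × ℂ → ℂ} (hg : AnalyticAt ℂ g 0) (h0 : g 0 = 0)
    (hne : ¬ ∀ᶠ w in 𝓝 (0 : ℂ), g (0, w) = 0) :
    ∃ (ι : Type) (_ : Fintype ι) (q : ι → ℂ × ℂ → ℂ) (m : ι → ℕ) (u : ℂ × ℂ → ℂ), Nonempty ι ∧
      (∀ i, AnalyticAt ℂ (q i) 0) ∧ (∀ i, q i 0 = 0) ∧ (∀ i, 0 < m i) ∧
      AnalyticAt ℂ u 0 ∧ u 0 ≠ 0 ∧ (∀ᶠ x in 𝓝 (0 : ℂ × ℂ), g x = u x * ∏ i, q i x ^ m i) ∧
      (∀ᶠ x in 𝓝[≠] (0 : ℂ × ℂ), ∀ i, q i x = 0 →
        fderiv ℂ (q i) x ≠ 0 ∧ ∀ j, j ≠ i → q j x ≠ 0) ∧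
      ∀ W ∈ 𝓝 (0 : ℂ × ℂ), ∃ V ∈ 𝓝 (0 : ℂ × ℂ), IsOpen V ∧ V ⊆ W ∧
        ∀ i, IsConnected ({x ∈ V | q i x = 0} \ {0}) := by
  obtain ⟨ι, Fι, k, h, Q, m, u, hι, hbr, hq, hh0, hm, hdis, hu, hu0, heq⟩ :=
    local_factorization hg h0 hne
  have hrad : ∀ i, ∃ ρ > 0, ∀ s : ℂ, ‖s‖ ^ (k i) < ρ →
      Q i (s ^ (k i)) = ∏ η ∈ μ (k i), (X - C (h i (η * s))) := fun i => (hq i).exists_radius
  choose ρ hρ0 hρ using hrad
  have hz : ∀ i (z : ℂ), ‖z‖ < ρ i → ∀ w, (Q i z).eval w = 0 ↔ ∃ t, t ^ k i = z ∧ w = h i t :=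
    fun i z hz w => IsEqn.zero_iff (hbr i) (hρ i) hz w
  -- zeros off the origin have `z ≠ 0`
  have hzne : ∀ i, ∀ᶠ x in 𝓝 (0 : ℂ × ℂ), (Q i x.1).eval x.2 = 0 → x ≠ 0 → x.1 ≠ 0 := by
    intro i
    refine Filter.Eventually.of_forall fun x hx hx0 hx1 => hx0 ?_
    rw [hx1, hz i 0 (by rw [norm_zero]; exact hρ0 i)] at hx
    obtain ⟨t, ht1, ht2⟩ := hx
    rw [pow_eq_zero_iff (hbr i).pos.ne'] at ht1
    rw [ht1, hh0 i] at ht2
    exact Prod.ext hx1 ht2
  refine ⟨ι, Fι, fun i p => (Q i p.1).eval p.2, m, u, hι,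
    fun i => (hq i).mf.analyticAt_eval 0, fun i => ?_, hm, hu, hu0, heq, ?_, fun W hW => ?_⟩
  · have h1 := (hq i).eval_zero (hbr i)
    rwa [hh0 i] at h1
  · rw [eventually_nhdsWithin_iff]
    have e1 : ∀ i, ∀ᶠ x : ℂ × ℂ in 𝓝 0, x.1 ≠ 0 → ∀ w, (Q i x.1).eval w = 0 →
        (derivative (Q i x.1)).eval w ≠ 0 :=
      fun i => eventually_fst_ne ((hq i).derivative_ne_zero (hbr i))
    have e2 : ∀ i j, ∀ᶠ x : ℂ × ℂ in 𝓝 0, i ≠ j → x.1 ≠ 0 → ∀ w, (Q i x.1).eval w = 0 →
        (Q j x.1).eval w ≠ 0 := by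
      intro i j
      by_cases hij : i = j
      · exact Filter.Eventually.of_forall fun x h => absurd hij h
      · filter_upwards [eventually_fst_ne (hdis i j hij)] with x hx _
        exact hx
    filter_upwards [Filter.eventually_all.2 hzne, Filter.eventually_all.2 e1,
      Filter.eventually_all.2 fun i => Filter.eventually_all.2 (e2 i),
      Filter.eventually_all.2 fun i => fderiv_eval_ne (hq i).mf] with x h1 h2 h3 h4 hx0 i hi
    have h5 := h1 i hi hx0
    exact ⟨h4 i (h2 i h5 x.2 hi), fun j hj => h3 i j (Ne.symm hj) h5 x.2 hi⟩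
  · -- connectedness
    obtain ⟨ε, hε, hεW⟩ := Metric.mem_nhds_iff.1 hW
    have hh : ∀ i, ∃ r > 0, ∀ t : ℂ, ‖t‖ ^ (k i) < r → ‖h i t‖ < ε ∧ AnalyticAt ℂ (h i) t := by
      intro i
      have h1 : ∀ᶠ t in 𝓝 (0 : ℂ), ‖h i t‖ < ε := by
        have h2 : Tendsto (fun t => ‖h i t‖) (𝓝 0) (𝓝 ‖h i 0‖) :=
          (hbr i).an.continuousAt.norm
        rw [hh0 i, norm_zero] at h2
        exact h2.eventually_lt_const hε
      obtain ⟨δ, hδ, h2⟩ := Metric.eventually_nhds_iff.1 (h1.and (hbr i).an.eventually_analyticAt)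
      refine ⟨δ ^ k i, by positivity, fun t ht => h2 ?_⟩
      rw [dist_zero_right]
      exact lt_of_pow_lt_pow_left₀ _ hδ.le ht
    choose r hr0 hr using hh
    -- the radius
    obtain ⟨R, hR0, hR⟩ : ∃ R > 0, ∀ i, R ≤ ρ i ∧ R ≤ r i ∧ R ≤ ε := by
      have h1 : ∀ᶠ R in 𝓝[>] (0 : ℝ), ∀ i, R ≤ ρ i ∧ R ≤ r i ∧ R ≤ ε := by
        refine Filter.eventually_all.2 fun i => ?_
        have h2 : ∀ c : ℝ, 0 < c → ∀ᶠ R in 𝓝[>] (0 : ℝ), R ≤ c := fun c hc => by
          filter_upwards [Ioo_mem_nhdsGT hc] with R hR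
          exact hR.2.le
        exact (h2 _ (hρ0 i)).and ((h2 _ (hr0 i)).and (h2 _ hε))
      obtain ⟨R, h2, h3⟩ := (h1.and self_mem_nhdsWithin).exists
      exact ⟨R, h3, h2⟩
    refine ⟨Metric.ball (0 : ℂ) R ×ˢ Metric.ball (0 : ℂ) ε, ?_, ?_, ?_, fun i => ?_⟩
    · exact prod_mem_nhds (Metric.ball_mem_nhds _ hR0) (Metric.ball_mem_nhds _ hε)
    · exact Metric.isOpen_ball.prod Metric.isOpen_ball
    · rintro ⟨z, w⟩ ⟨h1, h2⟩
      apply hεW
      rw [mem_ball_zero_iff, Prod.norm_def]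
      simp only [mem_ball_zero_iff] at h1 h2
      refine max_lt (lt_of_lt_of_le h1 ?_) h2
      exact (hR (Classical.arbitrary ι)).2.2
    · have hki := (hbr i).pos
      have key : {x ∈ Metric.ball (0 : ℂ) R ×ˢ Metric.ball (0 : ℂ) ε |
          (Q i x.1).eval x.2 = 0} \ {0} =
          (fun s : ℂ => (Complex.exp s ^ k i, h i (Complex.exp s))) ''
            {s : ℂ | s.re * k i < Real.log R} := by
        have hnorm : ∀ s : ℂ, s.re * k i < Real.log R ↔ ‖Complex.exp s‖ ^ k i < R := by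
          intro s
          rw [Complex.norm_exp, ← Real.exp_nat_mul, mul_comm, Real.lt_log_iff_exp_lt hR0]
        ext ⟨z, w⟩
        constructor
        · rintro ⟨⟨⟨h1, h2⟩, h3⟩, h4⟩
          simp only [mem_ball_zero_iff] at h1 h2
          simp only at h3
          rw [hz i z (lt_of_lt_of_le h1 (hR i).1)] at h3
          obtain ⟨t, rfl, rfl⟩ := h3
          have ht0 : t ≠ 0 := by
            rintro rfl
            apply h4
            rw [zero_pow hki.ne', hh0 i]
            rfl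
          refine ⟨Complex.log t, ?_, ?_⟩
          · show (Complex.log t).re * k i < Real.log R
            rw [hnorm, Complex.exp_log ht0]
            rwa [norm_pow] at h1
          · simp only [Complex.exp_log ht0]
        · rintro ⟨s, hs, heq2⟩
          change s.re * k i < Real.log R at hs
          rw [hnorm] at hs
          have hz' : Complex.exp s ^ k i = z := congrArg Prod.fst heq2
          have hw' : h i (Complex.exp s) = w := congrArg Prod.snd heq2
          have hzn : ‖z‖ < R := by rw [← hz', norm_pow]; exact hs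
          refine ⟨⟨⟨?_, ?_⟩, ?_⟩, ?_⟩
          · simpa using hzn
          · rw [← hw']
            simp only [mem_ball_zero_iff]
            exact (hr i _ (lt_of_lt_of_le hs (hR i).2.1)).1
          · show (Q i z).eval w = 0
            rw [hz i z (lt_of_lt_of_le hzn (hR i).1)]
            exact ⟨_, hz', hw'.symm⟩
          · intro h5
            have h6 : z = 0 := congrArg Prod.fst h5
            rw [← hz'] at h6
            exact pow_ne_zero _ (Complex.exp_ne_zero s) h6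
      rw [key]
      have hconv : Convex ℝ {s : ℂ | s.re * k i < Real.log R} := by
        intro x hx y hy a b ha hb hab
        simp only [Set.mem_ofPred_eq] at hx hy ⊢
        have h2 : (a • x + b • y).re = a * x.re + b * y.re := by simp
        rw [h2]
        have h3 : (a * x.re + b * y.re) * k i = a * (x.re * k i) + b * (y.re * k i) := by ring
        rw [h3]
        rcases eq_or_lt_of_le ha with h4 | h4
        · rw [← h4] at hab ⊢
          rw [zero_add] at hab
          rw [hab, zero_mul, zero_add, one_mul]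
          exact hy
        · have h5 : a * (x.re * k i) < a * Real.log R := mul_lt_mul_of_pos_left hx h4
          have h6 : b * (y.re * k i) ≤ b * Real.log R := mul_le_mul_of_nonneg_left hy.le hb
          calc _ < a * Real.log R + b * Real.log R := add_lt_add_of_lt_of_le h5 h6
            _ = Real.log R := by rw [← add_mul, hab, one_mul]
      have hnonempty : {s : ℂ | s.re * k i < Real.log R}.Nonempty := by
        refine ⟨((Real.log R - 1) / k i : ℝ), ?_⟩
        have hk' : (0 : ℝ) < k i := by exact_mod_cast hki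
        simp only [Set.mem_ofPred_eq, Complex.ofReal_re]
        rw [div_mul_cancel₀ _ hk'.ne']
        linarith
      refine IsConnected.image ⟨hnonempty, hconv.isPreconnected⟩ _ ?_
      intro s hs
      have hs' : ‖Complex.exp s‖ ^ k i < R := by
        change s.re * k i < Real.log R at hs
        rwa [Complex.norm_exp, ← Real.exp_nat_mul, mul_comm, ← Real.lt_log_iff_exp_lt hR0]
      have h1 : ContinuousAt (h i) (Complex.exp s) :=
        (hr i _ (lt_of_lt_of_le hs' (hR i).2.1)).2.continuousAt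
      refine ContinuousAt.continuousWithinAt ?_
      refine ContinuousAt.prodMk ?_ ?_
      · exact (Complex.continuous_exp.pow _).continuousAt
      · exact ContinuousAt.comp (f := Complex.exp) (g := h i) h1 Complex.continuous_exp.continuousAt

end Vale.Agent.P267.H823
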