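import Vale.Agent.P267.H823.LocGeom
import Vale.Agent.P268.Hol

/-!
# P267, package CURV-C1 (helper823): holomorphic functions on a complex surface, coordinates
-/

open Filter Topology
open scoped Manifold ContDiff

set_option linter.unusedSectionVars false

namespace Vale.Agent.P267.H823

section Gen

variable (E : Type*) [NormedAddCommGroup E] [NormedSpace ℂ E]
  {M : Type*} [TopologicalSpace M] [ChartedSpace E M]

/-- `s` is holomorphic near `p` -/
def HolN (s : M → ℂ) (p : M) : Prop := ∀ᶠ x in 𝓝 p, MDifferentiableAt 𝓘(ℂ, E) 𝓘(ℂ) s x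

variable {E}

theorem HolN.mdiff {s : M → ℂ} {p : M} (h : HolN E s p) : MDifferentiableAt 𝓘(ℂ, E) 𝓘(ℂ) s p :=
  h.self_of_nhds

theorem HolN.continuousAt {s : M → ℂ} {p : M} (h : HolN E s p) : ContinuousAt s p :=
  h.mdiff.continuousAt

theorem HolN.eventually {s : M → ℂ} {p : M} (h : HolN E s p) : ∀ᶠ x in 𝓝 p, HolN E s x :=
  h.eventually_nhds

theorem holN_of_open {s : M → ℂ} {U : Set M} (hU : IsOpen U)
    (h : MDifferentiableOn 𝓘(ℂ, E) 𝓘(ℂ) s U) {p : M} (hp : p ∈ U) : HolN E s p := by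
  filter_upwards [hU.mem_nhds hp] with x hx
  exact (h x hx).mdifferentiableAt (hU.mem_nhds hx)

theorem HolN.congr {s t : M → ℂ} {p : M} (h : HolN E s p) (hst : ∀ᶠ x in 𝓝 p, t x = s x) :
    HolN E t p := by
  filter_upwards [h, hst.eventually_nhds] with x h1 h2
  exact h1.congr_of_eventuallyEq h2

theorem HolN.const (c : ℂ) (p : M) : HolN E (fun _ => c) p :=
  Filter.Eventually.of_forall fun _ => mdifferentiableAt_const

theorem HolN.mul {s t : M → ℂ} {p : M} (h : HolN E s p) (h' : HolN E t p) :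
    HolN E (fun x => s x * t x) p := by
  filter_upwards [h, h'] with x h1 h2
  exact h1.mul h2

theorem HolN.add {s t : M → ℂ} {p : M} (h : HolN E s p) (h' : HolN E t p) :
    HolN E (fun x => s x + t x) p := by
  filter_upwards [h, h'] with x h1 h2
  exact h1.add h2

theorem HolN.sub {s t : M → ℂ} {p : M} (h : HolN E s p) (h' : HolN E t p) :
    HolN E (fun x => s x - t x) p := by
  filter_upwards [h, h'] with x h1 h2
  exact h1.sub h2

theorem HolN.pow {s : M → ℂ} {p : M} (h : HolN E s p) (n : ℕ) :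
    HolN E (fun x => s x ^ n) p := by
  filter_upwards [h] with x h1
  exact h1.pow n

theorem HolN.prod {ι : Type*} (S : Finset ι) {s : ι → M → ℂ} {p : M}
    (h : ∀ i ∈ S, HolN E (s i) p) : HolN E (fun x => ∏ i ∈ S, s i x) p := by
  classical
  induction S using Finset.induction_on with
  | empty => simpa using HolN.const 1 p
  | insert a S ha ih =>
    simp only [Finset.prod_insert ha]
    exact (h a (Finset.mem_insert_self _ _)).mul
      (ih fun i hi => h i (Finset.mem_insert_of_mem hi))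

theorem HolN.inv {s : M → ℂ} {p : M} (h : HolN E s p) (h0 : s p ≠ 0) :
    HolN E (fun x => (s x)⁻¹) p := by
  filter_upwards [h, h.continuousAt.eventually_ne h0] with x h1 h2
  have h3 : MDifferentiableAt 𝓘(ℂ) 𝓘(ℂ) (fun z : ℂ => z⁻¹) (s x) :=
    (differentiableAt_inv h2).mdifferentiableAt
  exact h3.comp x h1

end Gen

section Coord

variable {E : Type*} [NormedAddCommGroup E] [NormedSpace ℂ E]
  {M : Type*} [TopologicalSpace M] [ChartedSpace E M]
  {F : Type*} [NormedAddCommGroup F] [NormedSpace ℂ F] [FiniteDimensional ℂ F]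

theorem HolN.analyticAt {ψ : OpenPartialHomeomorph M F}
    (hψ : ψ.MDifferentiable 𝓘(ℂ, E) 𝓘(ℂ, F)) {x : M} (hx : x ∈ ψ.source) {s : M → ℂ}
    (hs : HolN E s x) : AnalyticAt ℂ (s ∘ ψ.symm) (ψ x) := by
  have hxt : ψ x ∈ ψ.target := ψ.map_source hx
  have h1 : ∀ᶠ y in 𝓝 (ψ x), MDifferentiableAt 𝓘(ℂ, E) 𝓘(ℂ) s (ψ.symm y) := by
    have h2 : Tendsto ψ.symm (𝓝 (ψ x)) (𝓝 x) := by
      have := (ψ.continuousAt_symm hxt).tendsto
      rwa [ψ.left_inv hx] at this
    exact h2.eventually hs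
  have h2 : ∀ᶠ y in 𝓝 (ψ x), y ∈ ψ.target := ψ.open_target.mem_nhds hxt
  obtain ⟨U, hU, hUo, hxU⟩ := eventually_nhds_iff.1 (h1.and h2)
  refine Vale.Agent.P268.analyticAt_of_differentiableOn hUo (fun y hy => ?_) hxU
  have h3 := (hU y hy).1
  have h4 := hψ.mdifferentiableAt_symm (hU y hy).2
  exact (h3.comp y h4).differentiableAt.differentiableWithinAt

theorem holN_of_analyticAt {ψ : OpenPartialHomeomorph M F}
    (hψ : ψ.MDifferentiable 𝓘(ℂ, E) 𝓘(ℂ, F)) {x : M} (hx : x ∈ ψ.source) {q : F → ℂ}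
    (hq : AnalyticAt ℂ q (ψ x)) : HolN E (q ∘ ψ) x := by
  have h1 : ∀ᶠ y in 𝓝 x, AnalyticAt ℂ q (ψ y) :=
    (ψ.continuousAt hx).eventually hq.eventually_analyticAt
  filter_upwards [h1, ψ.open_source.mem_nhds hx] with y h2 h3
  have h4 : MDifferentiableAt 𝓘(ℂ, F) 𝓘(ℂ) q (ψ y) := h2.differentiableAt.mdifferentiableAt
  exact h4.comp y (hψ.mdifferentiableAt h3)

theorem mfderiv_comp_ne_zero {ψ : OpenPartialHomeomorph M F}
    [IsManifold 𝓘(ℂ, E) 1 M]
    (hψ : ψ.MDifferentiable 𝓘(ℂ, E) 𝓘(ℂ, F)) {x : M} (hx : x ∈ ψ.source) {q : F → ℂ}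
    (hq : DifferentiableAt ℂ q (ψ x)) (h : fderiv ℂ q (ψ x) ≠ 0) :
    mfderiv 𝓘(ℂ, E) 𝓘(ℂ) (q ∘ ψ) x ≠ 0 := by
  intro h0
  have h1 : mfderiv 𝓘(ℂ, E) 𝓘(ℂ) (q ∘ ψ) x =
      (mfderiv 𝓘(ℂ, F) 𝓘(ℂ) q (ψ x)).comp (mfderiv 𝓘(ℂ, E) 𝓘(ℂ, F) ψ x) :=
    mfderiv_comp x hq.mdifferentiableAt (hψ.mdifferentiableAt hx)
  rw [h1, mfderiv_eq_fderiv] at h0
  apply h
  ext v
  obtain ⟨w, rfl⟩ := hψ.mfderiv_surjective hx v
  exact congrArg (fun A => A w) h0

theorem fderiv_ne_zero_of_mfderiv {ψ : OpenPartialHomeomorph M F}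
    (hψ : ψ.MDifferentiable 𝓘(ℂ, E) 𝓘(ℂ, F)) {x : M} (hx : x ∈ ψ.source) {s : M → ℂ}
    (hs : HolN E s x) (h : mfderiv 𝓘(ℂ, E) 𝓘(ℂ) s x ≠ 0) :
    fderiv ℂ (s ∘ ψ.symm) (ψ x) ≠ 0 := by
  intro h0
  apply h
  have h1 : s =ᶠ[𝓝 x] (s ∘ ψ.symm) ∘ ψ := by
    filter_upwards [ψ.open_source.mem_nhds hx] with y hy
    simp [ψ.left_inv hy]
  rw [h1.mfderiv_eq]
  have h2 := (hs.analyticAt hψ hx).differentiableAt
  rw [mfderiv_comp x h2.mdifferentiableAt (hψ.mdifferentiableAt hx), mfderiv_eq_fderiv, h0]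
  exact ContinuousLinearMap.zero_comp _

end Coord

section Dim2

variable {E : Type*} [NormedAddCommGroup E] [NormedSpace ℂ E] [FiniteDimensional ℂ E]

/-- A germ which is not zero is not zero on a line through the point. -/
theorem exists_line {g : E → ℂ} {p : E} (hg : AnalyticAt ℂ g p) (h0 : g p = 0)
    (hne : ∃ᶠ x in 𝓝 p, g x ≠ 0) :
    ∃ v : E, v ≠ 0 ∧ ¬ ∀ᶠ w in 𝓝 (0 : ℂ), g (p + w • v) = 0 := by
  obtain ⟨r, hr, h1⟩ := Metric.eventually_nhds_iff.1 hg.eventually_analyticAt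
  obtain ⟨x, hx1, hx2⟩ := (hne.and_eventually (Metric.ball_mem_nhds p hr)).exists
  refine ⟨x - p, ?_, fun hcon => ?_⟩
  · intro h2
    rw [sub_eq_zero] at h2
    rw [h2] at hx1
    exact hx1 h0
  have hxp : 0 < ‖x - p‖ := by
    rw [norm_pos_iff, sub_ne_zero]
    rintro rfl
    exact hx1 h0
  have h2 : AnalyticOnNhd ℂ (fun w : ℂ => g (p + w • (x - p))) (Metric.ball 0 (r / ‖x - p‖)) := by
    intro w hw
    have h3 : dist (p + w • (x - p)) p < r := by
      rw [dist_eq_norm, add_sub_cancel_left, norm_smul]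
      rw [mem_ball_zero_iff] at hw
      exact (lt_div_iff₀ hxp).1 hw
    exact AnalyticAt.comp_of_eq (h1 h3)
      (analyticAt_const.add (analyticAt_id.smul analyticAt_const)) rfl
  have h3 := h2.eqOn_zero_of_preconnected_of_eventuallyEq_zero
    (convex_ball (0 : ℂ) _).isPreconnected (z₀ := 0)
    (Metric.mem_ball_self (by positivity)) hcon
  have h4 : (1 : ℂ) ∈ Metric.ball (0 : ℂ) (r / ‖x - p‖) := by
    rw [mem_ball_zero_iff, norm_one, lt_div_iff₀ hxp, one_mul]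
    rwa [dist_eq_norm] at hx2
  have h5 := h3 h4
  simp only [one_smul, Pi.zero_apply] at h5
  exact hx1 (by simpa using h5)

theorem exists_coord (h2 : Module.finrank ℂ E = 2) {v : E} (hv : v ≠ 0) :
    ∃ L : E ≃L[ℂ] ℂ × ℂ, L.symm (0, 1) = v := by
  have h3 : Module.finrank ℂ E = Module.finrank ℂ (ℂ × ℂ) := by
    rw [h2, Module.finrank_prod, Module.finrank_self]
  let L0 : E ≃L[ℂ] ℂ × ℂ := ContinuousLinearEquiv.ofFinrankEq h3
  have hne : L0 v ≠ 0 := by
    intro h4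
    exact hv (by simpa using h4)
  have hne' : ((0 : ℂ), (1 : ℂ)) ≠ 0 := by
    intro h4
    exact one_ne_zero (congrArg Prod.snd h4)
  obtain ⟨A, hA⟩ := SeparatingDual.exists_continuousLinearEquiv_apply_eq (R := ℂ) hne hne'
  refine ⟨L0.trans A, ?_⟩
  rw [ContinuousLinearEquiv.symm_trans_apply, ← hA, A.symm_apply_apply, L0.symm_apply_apply]

end Dim2

section Mfd

variable {E : Type*} [NormedAddCommGroup E] [NormedSpace ℂ E] [FiniteDimensional ℂ E]
  {M : Type*} [TopologicalSpace M] [ChartedSpace E M] [IsManifold 𝓘(ℂ, E) ω M]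

/-- affine change of coordinates -/
noncomputable def affHomeo (L : E ≃L[ℂ] ℂ × ℂ) (c : E) : E ≃ₜ ℂ × ℂ :=
  (Homeomorph.subRight c).trans L.toHomeomorph

theorem affHomeo_apply (L : E ≃L[ℂ] ℂ × ℂ) (c x : E) : affHomeo L c x = L (x - c) := rfl

theorem affHomeo_symm_apply (L : E ≃L[ℂ] ℂ × ℂ) (c : E) (y : ℂ × ℂ) :
    (affHomeo L c).symm y = L.symm y + c := rfl

/-- coordinates on `M` centred at `p` -/
noncomputable def crd (p : M) (L : E ≃L[ℂ] ℂ × ℂ) : OpenPartialHomeomorph M (ℂ × ℂ) :=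
  (chartAt E p).trans (affHomeo L (chartAt E p p)).toOpenPartialHomeomorph

theorem crd_source (p : M) (L : E ≃L[ℂ] ℂ × ℂ) : (crd p L).source = (chartAt E p).source := by
  simp [crd]

theorem crd_self (p : M) (L : E ≃L[ℂ] ℂ × ℂ) : crd p L p = 0 := by
  simp [crd, affHomeo_apply]

theorem mem_crd_source (p : M) (L : E ≃L[ℂ] ℂ × ℂ) : p ∈ (crd p L).source := by
  rw [crd_source]
  exact mem_chart_source E p

theorem crd_symm_apply (p : M) (L : E ≃L[ℂ] ℂ × ℂ) (y : ℂ × ℂ) :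
    (crd p L).symm y = (chartAt E p).symm (L.symm y + chartAt E p p) := rfl

theorem crd_mdiff (p : M) (L : E ≃L[ℂ] ℂ × ℂ) :
    (crd p L).MDifferentiable 𝓘(ℂ, E) 𝓘(ℂ, ℂ × ℂ) := by
  have : IsManifold 𝓘(ℂ, E) 1 M := IsManifold.of_le (n := ω) le_top
  refine (mdifferentiable_chart (I := 𝓘(ℂ, E)) p).trans ⟨?_, ?_⟩
  · have h : Differentiable ℂ fun x : E => L (x - chartAt E p p) :=
      L.differentiable.comp (differentiable_id.sub_const _)
    exact h.mdifferentiable.mdifferentiableOn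
  · have h : Differentiable ℂ fun y : ℂ × ℂ => L.symm y + chartAt E p p :=
      L.symm.differentiable.add_const _
    exact h.mdifferentiable.mdifferentiableOn

end Mfd

end Vale.Agent.P267.H823
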