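import Mathlib

/-!
# P267, Poincare-Lelong for one smooth curve (helper823): the approximate identity
-/

open Filter Topology MeasureTheory Set
open scoped Real

namespace Vale.Agent.P267.H823.PL

/-- the kernel `θ / (r² θ + 1)²` -/
noncomputable def ker (θ r : ℝ) : ℝ := θ / (r ^ 2 * θ + 1) ^ 2

theorem ker_nonneg {θ : ℝ} (hθ : 0 ≤ θ) (r : ℝ) : 0 ≤ ker θ r := by
  unfold ker
  positivity

theorem ker_le {c C θ : ℝ} (hc : 0 < c) (h1 : c ≤ θ) (h2 : θ ≤ C) (r : ℝ) :
    ker θ r ≤ C * (1 / (r ^ 2 * c + 1) ^ 2) := by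
  unfold ker
  have h3 : 0 < r ^ 2 * c + 1 := by positivity
  have h4 : r ^ 2 * c + 1 ≤ r ^ 2 * θ + 1 := by
    have := mul_le_mul_of_nonneg_left h1 (sq_nonneg r)
    linarith
  have h5 : (r ^ 2 * c + 1) ^ 2 ≤ (r ^ 2 * θ + 1) ^ 2 := pow_le_pow_left₀ h3.le h4 2
  rw [mul_one_div]
  exact div_le_div₀ (by linarith) h2 (by positivity) h5

theorem integrable_bound {c : ℝ} (hc : 0 < c) :
    Integrable fun ζ : ℂ => 1 / (‖ζ‖ ^ 2 * c + 1) ^ 2 := by
  have h1 : Integrable fun ζ : ℂ => (1 + ‖ζ‖ ^ 2) ^ (-(4 : ℝ) / 2) :=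
    integrable_rpow_neg_one_add_norm_sq (by
      rw [Complex.finrank_real_complex]
      norm_num)
  set k := min c 1 with hk
  have hk0 : 0 < k := lt_min hc one_pos
  refine (h1.const_mul (1 / k ^ 2)).mono' ?_ (Eventually.of_forall fun ζ => ?_)
  · have : Continuous fun ζ : ℂ => 1 / (‖ζ‖ ^ 2 * c + 1) ^ 2 := by
      refine continuous_const.div (by fun_prop) fun ζ => ?_
      positivity
    exact this.aestronglyMeasurable
  · have h2 : (1 + ‖ζ‖ ^ 2) ^ (-(4 : ℝ) / 2) = 1 / (1 + ‖ζ‖ ^ 2) ^ 2 := by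
      rw [show (-(4 : ℝ) / 2) = -((2 : ℕ) : ℝ) by norm_num, Real.rpow_neg (by positivity),
        Real.rpow_natCast, one_div]
    rw [h2, Real.norm_of_nonneg (by positivity), one_div_mul_one_div, ← mul_pow]
    refine one_div_le_one_div_of_le (by positivity) ?_
    refine pow_le_pow_left₀ (by positivity) ?_ 2
    have h3 : k ≤ c := min_le_left _ _
    have h4 : k ≤ 1 := min_le_right _ _
    nlinarith [sq_nonneg ‖ζ‖]

theorem integral_ker {θ : ℝ} (hθ : 0 < θ) : ∫ ζ : ℂ, ker θ ‖ζ‖ = π := by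
  rw [integral_fun_norm_addHaar (volume : Measure ℂ) (ker θ), Complex.finrank_real_complex]
  have h1 : (volume : Measure ℂ).real (Metric.ball 0 1) = π := by
    rw [Measure.real, Complex.volume_ball]
    simp
  have h2 : ∫ y in Ioi (0 : ℝ), y ^ (2 - 1) • ker θ y = 1 / 2 := by
    have hd : ∀ y ∈ Ici (0 : ℝ), HasDerivAt (fun y : ℝ => -(1 / 2) * (y ^ 2 * θ + 1)⁻¹)
        (y ^ (2 - 1) • ker θ y) y := by
      intro y _
      have h3 : HasDerivAt (fun y : ℝ => y ^ 2 * θ + 1) (2 * y * θ) y := by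
        have := ((hasDerivAt_pow 2 y).mul_const θ).add_const 1
        simpa using this
      have h4 : y ^ 2 * θ + 1 ≠ 0 := by positivity
      have h5 := (h3.inv h4).const_mul (-(1 / 2))
      have h6 : y ^ (2 - 1) • ker θ y = -(1 / 2) * (-(2 * y * θ) / (y ^ 2 * θ + 1) ^ 2) := by
        simp only [ker, smul_eq_mul]
        field_simp
        norm_num
      rw [h6]
      exact h5
    have hlim : Tendsto (fun y : ℝ => -(1 / 2) * (y ^ 2 * θ + 1)⁻¹) atTop (𝓝 0) := by
      have h3 : Tendsto (fun y : ℝ => y ^ 2 * θ + 1) atTop atTop := by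
        refine tendsto_atTop_add_const_right _ _ ?_
        exact (tendsto_pow_atTop two_ne_zero).atTop_mul_const hθ
      have h4 := (tendsto_inv_atTop_zero.comp h3).const_mul (-(1 / 2) : ℝ)
      rw [mul_zero] at h4
      exact h4
    have h3 := integral_Ioi_of_hasDerivAt_of_nonneg' hd (fun y hy => by
      rw [smul_eq_mul]
      have : (0 : ℝ) < y := hy
      exact mul_nonneg (by positivity) (ker_nonneg hθ.le y)) hlim
    rw [h3]
    norm_num
  rw [h2, h1]
  simp only [nsmul_eq_mul, smul_eq_mul, Nat.cast_ofNat]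
  ring

/-- **Approximate identity.** -/
theorem tendsto_kernel {H : ℂ × ℂ → ℂ} {θ : ℂ × ℂ → ℝ} {W : Set (ℂ × ℂ)} (hW : IsOpen W)
    (hH : Continuous H) (hc : HasCompactSupport H) (hHW : tsupport H ⊆ W)
    (hθ : ContinuousOn θ W) (hpos : ∀ y ∈ W, 0 < θ y) :
    Tendsto (fun ε : ℝ => ∫ y : ℂ × ℂ, ((ε * θ y / (‖y.1‖ ^ 2 * θ y + ε) ^ 2 : ℝ) : ℂ) * H y)
      (𝓝[>] 0) (𝓝 (π * ∫ w : ℂ, H (0, w))) := by
  -- bounds on the support
  obtain ⟨B, hB⟩ := hc.exists_bound_of_continuousOn hH.continuousOn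
  have hB' : ∀ y, ‖H y‖ ≤ |B| := by
    intro y
    by_cases hy : y ∈ tsupport H
    · exact (hB y hy).trans (le_abs_self B)
    · rw [image_eq_zero_of_notMem_tsupport hy, norm_zero]
      exact abs_nonneg B
  have hK : IsCompact (tsupport H) := hc
  obtain ⟨c, hc0, hcθ⟩ : ∃ c > 0, ∀ y ∈ tsupport H, c ≤ θ y := by
    rcases (tsupport H).eq_empty_or_nonempty with h | h
    · exact ⟨1, one_pos, fun y hy => by rw [h] at hy; exact hy.elim⟩
    · obtain ⟨y0, hy0, hmin⟩ := hK.exists_isMinOn h (hθ.mono hHW)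
      exact ⟨θ y0, hpos y0 (hHW hy0), fun y hy => hmin hy⟩
  obtain ⟨C, hC0, hCθ⟩ : ∃ C : ℝ, 0 ≤ C ∧ ∀ y ∈ tsupport H, θ y ≤ C := by
    obtain ⟨C, hC⟩ := hK.exists_bound_of_continuousOn (hθ.mono hHW)
    exact ⟨|C|, abs_nonneg C, fun y hy => (le_abs_self _).trans ((hC y hy).trans (le_abs_self C))⟩
  -- a bound for the second variable
  obtain ⟨R, hR⟩ := hK.isBounded.subset_ball (0 : ℂ × ℂ)
  have hsupp2 : ∀ z w : ℂ, R ≤ ‖w‖ → H (z, w) = 0 := by
    intro z w hw
    by_contra hne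
    have h1 := hR (subset_tsupport H hne)
    rw [mem_ball_zero_iff, Prod.norm_def] at h1
    exact absurd (lt_of_le_of_lt (le_max_right _ _) h1) (not_lt.2 hw)
  -- the integrand
  set G : ℝ → ℂ × ℂ → ℂ := fun ε y =>
    ((ε * θ y / (‖y.1‖ ^ 2 * θ y + ε) ^ 2 : ℝ) : ℂ) * H y with hG
  have hGcont : ∀ ε > 0, Continuous (G ε) := by
    intro ε hε
    rw [continuous_iff_continuousAt]
    intro y
    by_cases hy : y ∈ W
    · have h1 : ContinuousAt θ y := hθ.continuousAt (hW.mem_nhds hy)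
      refine ContinuousAt.mul ?_ hH.continuousAt
      refine Complex.continuous_ofReal.continuousAt.comp ?_
      refine ContinuousAt.div (by fun_prop) (by fun_prop) ?_
      have := hpos y hy
      positivity
    · have hy' : y ∉ tsupport H := fun h => hy (hHW h)
      have h1 : G ε =ᶠ[𝓝 y] fun _ => 0 := by
        filter_upwards [(isClosed_tsupport H).isOpen_compl.mem_nhds hy'] with x hx
        simp only [hG, image_eq_zero_of_notMem_tsupport hx, mul_zero]
      exact h1.continuousAt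
  have hGcs : ∀ ε, HasCompactSupport (G ε) := fun ε =>
    hc.mul_left
  -- the scaled integrand
  set J : ℝ → ℂ → ℂ → ℂ := fun s w ζ =>
    ((ker (θ (s • ζ, w)) ‖ζ‖ : ℝ) : ℂ) * H (s • ζ, w) with hJ
  have hscale : ∀ ε > 0, ∀ w, ∫ ζ, G ε (ζ, w) = ∫ ζ, J (√ε) w ζ := by
    intro ε hε w
    have h1 := Measure.integral_comp_smul (volume : Measure ℂ) (fun ζ => G ε (ζ, w)) (√ε)
    have hs : √ε ^ 2 = ε := Real.sq_sqrt hε.le
    rw [Complex.finrank_real_complex, hs, abs_of_pos (by positivity)] at h1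
    have h2 : ∫ ζ, G ε (ζ, w) = ε • ∫ ζ, G ε (√ε • ζ, w) := by
      rw [h1, smul_smul, mul_inv_cancel₀ hε.ne', one_smul]
    rw [h2, ← integral_smul]
    congr 1
    funext ζ
    simp only [hG, hJ, ker]
    rw [norm_smul, mul_pow, Real.norm_eq_abs, sq_abs, hs, Complex.real_smul, ← mul_assoc,
      ← Complex.ofReal_mul]
    congr 2
    have h3 : ε * ‖ζ‖ ^ 2 * θ (√ε • ζ, w) + ε = ε * (‖ζ‖ ^ 2 * θ (√ε • ζ, w) + 1) := by ring
    rw [h3]
    generalize ‖ζ‖ ^ 2 * θ (√ε • ζ, w) + 1 = X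
    generalize θ (√ε • ζ, w) = T
    by_cases h4 : X = 0
    · simp [h4]
    · field_simp
  -- domination
  have hdom : ∀ s w ζ, ‖J s w ζ‖ ≤ |B| * (C * (1 / (‖ζ‖ ^ 2 * c + 1) ^ 2)) := by
    intro s w ζ
    by_cases hy : (s • ζ, w) ∈ tsupport H
    · have h1 := hcθ _ hy
      have h2 := hCθ _ hy
      simp only [hJ]
      rw [norm_mul, Complex.norm_real, Real.norm_of_nonneg (ker_nonneg (hc0.le.trans h1) _),
        mul_comm |B|]
      exact mul_le_mul (ker_le hc0 h1 h2 _) (hB' _) (norm_nonneg _)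
        ((ker_nonneg (hc0.le.trans h1) _).trans (ker_le hc0 h1 h2 _))
    · simp only [hJ, image_eq_zero_of_notMem_tsupport hy, mul_zero, norm_zero]
      positivity
  -- the inner limit
  have hinner : ∀ w, Tendsto (fun ε : ℝ => ∫ ζ, J (√ε) w ζ) (𝓝[>] 0) (𝓝 (π * H (0, w))) := by
    intro w
    have hs0 : Tendsto (fun ε : ℝ => √ε) (𝓝[>] 0) (𝓝 0) := by
      have h1 : Tendsto (fun ε : ℝ => √ε) (𝓝 0) (𝓝 (√0)) := Real.continuous_sqrt.tendsto 0
      rw [Real.sqrt_zero] at h1
      exact h1.mono_left nhdsWithin_le_nhds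
    have hlim : ∀ ζ, Tendsto (fun ε : ℝ => J (√ε) w ζ) (𝓝[>] 0)
        (𝓝 (((ker (θ (0, w)) ‖ζ‖ : ℝ) : ℂ) * H (0, w))) := by
      intro ζ
      have h1 : Tendsto (fun ε : ℝ => (√ε • ζ, w)) (𝓝[>] 0) (𝓝 (0, w)) := by
        have h2 : Tendsto (fun ε : ℝ => √ε • ζ) (𝓝[>] 0) (𝓝 0) := by
          have := hs0.smul_const ζ
          rwa [zero_smul] at this
        exact h2.prodMk_nhds tendsto_const_nhds
      by_cases hw : ((0 : ℂ), w) ∈ W
      · have h2 : ContinuousAt θ (0, w) := hθ.continuousAt (hW.mem_nhds hw)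
        have h3 : ContinuousAt (fun y => ((ker (θ y) ‖ζ‖ : ℝ) : ℂ) * H y) (0, w) := by
          refine ContinuousAt.mul ?_ hH.continuousAt
          refine Complex.continuous_ofReal.continuousAt.comp ?_
          unfold ker
          refine ContinuousAt.div (by fun_prop) (by fun_prop) ?_
          have := hpos _ hw
          positivity
        exact h3.tendsto.comp h1
      · have hy' : ((0 : ℂ), w) ∉ tsupport H := fun h => hw (hHW h)
        have h2 : ∀ᶠ y in 𝓝 ((0 : ℂ), w), H y = 0 := by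
          filter_upwards [(isClosed_tsupport H).isOpen_compl.mem_nhds hy'] with x hx
          exact image_eq_zero_of_notMem_tsupport hx
        have h3 : ∀ᶠ ε : ℝ in 𝓝[>] 0, J (√ε) w ζ = 0 := by
          filter_upwards [h1.eventually h2] with ε hε
          simp only [hJ, hε, mul_zero]
        rw [h2.self_of_nhds, mul_zero]
        exact tendsto_const_nhds.congr' (h3.mono fun ε h => h.symm)
    have hval : ∫ ζ : ℂ, ((ker (θ (0, w)) ‖ζ‖ : ℝ) : ℂ) * H (0, w) = π * H (0, w) := by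
      rw [integral_mul_const]
      by_cases hw : ((0 : ℂ), w) ∈ W
      · rw [integral_complex_ofReal, integral_ker (hpos _ hw)]
      · rw [image_eq_zero_of_notMem_tsupport fun h => hw (hHW h), mul_zero, mul_zero]
    rw [← hval]
    refine tendsto_integral_filter_of_dominated_convergence
      (fun ζ => |B| * (C * (1 / (‖ζ‖ ^ 2 * c + 1) ^ 2))) ?_ ?_ ?_ ?_
    · filter_upwards [self_mem_nhdsWithin] with ε hε
      have hε' : (0 : ℝ) < ε := hε
      have h1 : J (√ε) w = fun ζ => (ε : ℂ) * G ε (√ε • ζ, w) := by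
        funext ζ
        have hs : √ε ^ 2 = ε := Real.sq_sqrt hε'.le
        simp only [hG, hJ, ker]
        rw [norm_smul, mul_pow, Real.norm_eq_abs, sq_abs, hs, ← mul_assoc, ← Complex.ofReal_mul]
        congr 2
        have h3 : ε * ‖ζ‖ ^ 2 * θ (√ε • ζ, w) + ε = ε * (‖ζ‖ ^ 2 * θ (√ε • ζ, w) + 1) := by ring
        rw [h3]
        generalize ‖ζ‖ ^ 2 * θ (√ε • ζ, w) + 1 = X
        generalize θ (√ε • ζ, w) = T
        by_cases h4 : X = 0
        · simp [h4]
        · field_simp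
      rw [h1]
      refine Continuous.aestronglyMeasurable ?_
      exact continuous_const.mul ((hGcont ε hε').comp (by fun_prop))
    · exact Eventually.of_forall fun ε => Eventually.of_forall fun ζ => hdom _ _ _
    · exact ((integrable_bound hc0).const_mul C).const_mul |B|
    · exact Eventually.of_forall hlim
  -- the outer integral
  have houter : ∀ ε > 0, ∫ y, G ε y = ∫ w, ∫ ζ, J (√ε) w ζ := by
    intro ε hε
    have h1 : Integrable (G ε) ((volume : Measure ℂ).prod (volume : Measure ℂ)) :=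
      (hGcont ε hε).integrable_of_hasCompactSupport (hGcs ε)
    have h2 := integral_prod_symm (G ε) h1
    rw [← Measure.volume_eq_prod] at h2
    rw [h2]
    congr 1
    funext w
    exact hscale ε hε w
  set K0 : ℝ := ∫ ζ : ℂ, |B| * (C * (1 / (‖ζ‖ ^ 2 * c + 1) ^ 2)) with hK0
  have hbd : ∀ s w, ‖∫ ζ, J s w ζ‖ ≤ (Metric.closedBall (0 : ℂ) R).indicator (fun _ => K0) w := by
    intro s w
    by_cases hw : w ∈ Metric.closedBall (0 : ℂ) R
    · rw [indicator_of_mem hw]
      exact norm_integral_le_of_norm_le (((integrable_bound hc0).const_mul C).const_mul |B|)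
        (Eventually.of_forall fun ζ => hdom _ _ _)
    · rw [indicator_of_notMem hw]
      have h1 : ∀ ζ, J s w ζ = 0 := by
        intro ζ
        simp only [hJ]
        rw [hsupp2 _ w, mul_zero]
        rw [mem_closedBall_zero_iff, not_le] at hw
        exact hw.le
      simp [h1]
  have hlim : Tendsto (fun ε : ℝ => ∫ w, ∫ ζ, J (√ε) w ζ) (𝓝[>] 0)
      (𝓝 (∫ w, π * H (0, w))) := by
    refine tendsto_integral_filter_of_dominated_convergence
      ((Metric.closedBall (0 : ℂ) R).indicator fun _ => K0) ?_ ?_ ?_ ?_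
    · filter_upwards [self_mem_nhdsWithin] with ε hε
      have hε' : (0 : ℝ) < ε := hε
      have h1 : Integrable (G ε) ((volume : Measure ℂ).prod (volume : Measure ℂ)) :=
        (hGcont ε hε').integrable_of_hasCompactSupport (hGcs ε)
      have h2 := h1.integral_prod_right.aestronglyMeasurable
      refine h2.congr (Eventually.of_forall fun w => ?_)
      exact hscale ε hε' w
    · exact Eventually.of_forall fun ε => Eventually.of_forall fun w => hbd _ _
    · refine (integrable_indicator_iff measurableSet_closedBall).2 ?_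
      exact integrableOn_const (by
        exact (isCompact_closedBall (0 : ℂ) R).measure_lt_top.ne)
    · exact Eventually.of_forall hinner
  rw [integral_const_mul] at hlim
  refine hlim.congr' ?_
  filter_upwards [self_mem_nhdsWithin] with ε hε
  exact (houter ε hε).symm

end Vale.Agent.P267.H823.PL
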