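import Vale.Agent.P267.H332.Pair.Loc

/-!
# P267, Poincare-Lelong for one smooth curve (helper823): `∂∂̄ log (N + ε)`
-/

open scoped Manifold ContDiff ComplexConjugate Matrix
open MeasureTheory Set Filter Topology

noncomputable section

namespace Vale.Agent.P267.H823.PL

open Vale.Agent.P267.FL Vale.Agent.P267.H332

theorem fderiv_real_comp {u : C2 → ℝ} {h : ℝ → ℝ} {h' : ℝ} {z : C2}
    (hu : DifferentiableAt ℝ u z) (hh : HasDerivAt h h' (u z)) (v : C2) :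
    fderiv ℝ (fun y => ((h (u y) : ℝ) : ℂ)) z v =
      (h' : ℂ) * fderiv ℝ (fun y => (u y : ℂ)) z v := by
  have h1 : HasFDerivAt (fun y => ((h (u y) : ℝ) : ℂ))
      (Complex.ofRealCLM.comp (h' • fderiv ℝ u z)) z :=
    Complex.ofRealCLM.hasFDerivAt.comp z (hh.comp_hasFDerivAt z hu.hasFDerivAt)
  have h2 : HasFDerivAt (fun y => (u y : ℂ)) (Complex.ofRealCLM.comp (fderiv ℝ u z)) z :=
    Complex.ofRealCLM.hasFDerivAt.comp z hu.hasFDerivAt
  rw [h1.fderiv, h2.fderiv]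
  simp

theorem dz_real_comp {u : C2 → ℝ} {h : ℝ → ℝ} {h' : ℝ} {z : C2}
    (hu : DifferentiableAt ℝ u z) (hh : HasDerivAt h h' (u z)) (i : Fin 2) :
    dz i (fun y => ((h (u y) : ℝ) : ℂ)) z = (h' : ℂ) * dz i (fun y => (u y : ℂ)) z := by
  unfold dz
  rw [fderiv_real_comp hu hh, fderiv_real_comp hu hh]
  simp only [smul_eq_mul]
  ring

theorem dzb_real_comp {u : C2 → ℝ} {h : ℝ → ℝ} {h' : ℝ} {z : C2}
    (hu : DifferentiableAt ℝ u z) (hh : HasDerivAt h h' (u z)) (i : Fin 2) :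
    dzb i (fun y => ((h (u y) : ℝ) : ℂ)) z = (h' : ℂ) * dzb i (fun y => (u y : ℂ)) z := by
  unfold dzb
  rw [fderiv_real_comp hu hh, fderiv_real_comp hu hh]
  simp only [smul_eq_mul]
  ring

/-- real functions: `∂̄ψ` is the conjugate of `∂ψ` -/
theorem dzb_real {u : C2 → ℝ} {z : C2} (hu : DifferentiableAt ℝ u z) (j : Fin 2) :
    dzb j (fun y => (u y : ℂ)) z = conj (dz j (fun y => (u y : ℂ)) z) := by
  have h1 : DifferentiableAt ℝ (fun y => (u y : ℂ)) z :=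
    Complex.ofRealCLM.differentiableAt.comp z hu
  rw [← dzb_conj h1]
  simp only [Complex.conj_ofReal]

/-- the covector `∂g - g ∂ψ` -/
def cov (g : C2 → ℂ) (ψ : C2 → ℝ) (z : C2) (i : Fin 2) : ℂ :=
  dz i g z - g z * dz i (fun y => (ψ y : ℂ)) z

section

variable {g : C2 → ℂ} {ψ : C2 → ℝ} {N : C2 → ℝ} {z : C2}

theorem ofReal_normSq_exp (w : ℂ) (t : ℝ) :
    ((‖w‖ ^ 2 * Real.exp (-t) : ℝ) : ℂ) = w * (((Real.exp (-t) : ℝ) : ℂ) * conj w) := by
  push_cast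
  rw [← Complex.mul_conj']
  ring

theorem dz_N (hg : DifferentiableAt ℂ g z) (hψ : DifferentiableAt ℝ ψ z)
    (hN : N =ᶠ[𝓝 z] fun y => ‖g y‖ ^ 2 * Real.exp (-ψ y)) (i : Fin 2) :
    dz i (fun y => (N y : ℂ)) z =
      conj (g z) * ((Real.exp (-ψ z) : ℝ) : ℂ) * cov g ψ z i := by
  have h1 : (fun y => (N y : ℂ)) =ᶠ[𝓝 z]
      fun y => g y * (((Real.exp (-ψ y) : ℝ) : ℂ) * conj (g y)) := by
    filter_upwards [hN] with y hy
    rw [hy, ofReal_normSq_exp]
  have hE : HasDerivAt (fun t : ℝ => Real.exp (-t)) (-Real.exp (-ψ z)) (ψ z) := by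
    have := (hasDerivAt_neg (ψ z)).exp
    rwa [mul_neg, mul_one] at this
  have hEd : DifferentiableAt ℝ (fun y => ((Real.exp (-ψ y) : ℝ) : ℂ)) z :=
    Complex.ofRealCLM.differentiableAt.comp z (hψ.neg.exp)
  have hgR : DifferentiableAt ℝ g z := hg.restrictScalars ℝ
  have hgc : DifferentiableAt ℝ (fun y => conj (g y)) z := differentiableAt_conj hgR
  have hEg : DifferentiableAt ℝ (fun y => ((Real.exp (-ψ y) : ℝ) : ℂ) * conj (g y)) z :=
    hEd.mul hgc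
  rw [dz_congr h1, dz_mul hgR hEg, dz_mul hEd hgc, dz_conj hgR, dzb_of_hol hg,
    dz_real_comp (h := fun t => Real.exp (-t)) hψ hE, cov]
  simp only [map_zero]
  push_cast
  ring

theorem dzb_N (hg : DifferentiableAt ℂ g z) (hψ : DifferentiableAt ℝ ψ z)
    (hN : N =ᶠ[𝓝 z] fun y => ‖g y‖ ^ 2 * Real.exp (-ψ y)) (i : Fin 2) :
    dzb i (fun y => (N y : ℂ)) z =
      g z * ((Real.exp (-ψ z) : ℝ) : ℂ) * conj (cov g ψ z i) := by
  have h1 : DifferentiableAt ℝ N z := by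
    have : DifferentiableAt ℝ (fun y => ‖g y‖ ^ 2 * Real.exp (-ψ y)) z :=
      ((hg.restrictScalars ℝ).norm_sq ℝ).mul hψ.neg.exp
    exact this.congr_of_eventuallyEq hN
  rw [dzb_real h1, dz_N hg hψ hN, map_mul, map_mul, Complex.conj_conj, Complex.conj_ofReal]

/-- `∂∂̄N` -/
theorem ddz_N (hg : AnalyticAt ℂ g z) (hψ : ContDiffAt ℝ 2 ψ z)
    (hN : N =ᶠ[𝓝 z] fun y => ‖g y‖ ^ 2 * Real.exp (-ψ y)) (i j : Fin 2) :
    ddz (fun y => (N y : ℂ)) z i j =
      ((Real.exp (-ψ z) : ℝ) : ℂ) * cov g ψ z i * conj (cov g ψ z j) -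
        (N z : ℂ) * ddz (fun y => (ψ y : ℂ)) z i j := by
  have hψ1 : DifferentiableAt ℝ ψ z := hψ.differentiableAt (by norm_num)
  have hψc : ContDiffAt ℝ 2 (fun y => (ψ y : ℂ)) z := contDiffAt_ofReal hψ
  have h1 : dzb j (fun y => (N y : ℂ)) =ᶠ[𝓝 z] fun y =>
      g y * (((Real.exp (-ψ y) : ℝ) : ℂ) *
        (conj (dz j g y) - conj (g y) * dzb j (fun y => (ψ y : ℂ)) y)) := by
    filter_upwards [hg.eventually_analyticAt, hψ.eventually (by simp), hN.eventually_nhds]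
      with y h2 h3 h4
    have h5 : DifferentiableAt ℝ ψ y := h3.differentiableAt (by norm_num)
    rw [dzb_N h2.differentiableAt h5 h4, dzb_real h5, cov]
    simp only [map_sub, map_mul]
    ring
  have hE : HasDerivAt (fun t : ℝ => Real.exp (-t)) (-Real.exp (-ψ z)) (ψ z) := by
    have := (hasDerivAt_neg (ψ z)).exp
    rwa [mul_neg, mul_one] at this
  have hEd : DifferentiableAt ℝ (fun y => ((Real.exp (-ψ y) : ℝ) : ℂ)) z :=
    Complex.ofRealCLM.differentiableAt.comp z (hψ1.neg.exp)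
  have hgC : DifferentiableAt ℂ g z := hg.differentiableAt
  have hgR : DifferentiableAt ℝ g z := hgC.restrictScalars ℝ
  have hgc : DifferentiableAt ℝ (fun y => conj (g y)) z := differentiableAt_conj hgR
  have hdg := hol_dz hg j
  have hdgR : DifferentiableAt ℝ (dz j g) z := hdg.differentiableAt.restrictScalars ℝ
  have hdgc : DifferentiableAt ℝ (fun y => conj (dz j g y)) z := differentiableAt_conj hdgR
  have hdψ := differentiableAt_dzb hψc j
  have hb : DifferentiableAt ℝ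
      (fun y => conj (dz j g y) - conj (g y) * dzb j (fun y => (ψ y : ℂ)) y) z :=
    hdgc.sub (hgc.mul hdψ)
  have hdzc : dz i (fun y => conj (dz j g y)) z = 0 := by
    rw [dz_conj hdgR, dzb_of_hol hdg.differentiableAt, map_zero]
  have hdzc' : dz i (fun y => conj (g y)) z = 0 := by
    rw [dz_conj hgR, dzb_of_hol hgC, map_zero]
  have hEb : DifferentiableAt ℝ (fun y => ((Real.exp (-ψ y) : ℝ) : ℂ) *
      (conj (dz j g y) - conj (g y) * dzb j (fun y => (ψ y : ℂ)) y)) z := hEd.mul hb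
  have hgψ : DifferentiableAt ℝ (fun y => conj (g y) * dzb j (fun y => (ψ y : ℂ)) y) z :=
    hgc.mul hdψ
  rw [ddz_apply, dz_congr h1, dz_mul hgR hEb, dz_mul hEd hb,
    dz_real_comp (h := fun t => Real.exp (-t)) hψ1 hE, dz_sub hdgc hgψ,
    dz_mul hgc hdψ, hdzc, hdzc', hN.self_of_nhds, ofReal_normSq_exp, ddz_apply]
  simp only [cov, map_sub, map_mul, dzb_real hψ1 j]
  push_cast
  ring

/-- **The key formula**: `∂∂̄ log (N + ε)`. -/
theorem ddz_log (hg : AnalyticAt ℂ g z) (hψ : ContDiffAt ℝ 2 ψ z)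
    (hN : N =ᶠ[𝓝 z] fun y => ‖g y‖ ^ 2 * Real.exp (-ψ y)) {ε : ℝ} (hε : 0 < ε) (i j : Fin 2) :
    ddz (fun y => (Real.log (N y + ε) : ℂ)) z i j =
      ((ε * Real.exp (-ψ z) / (N z + ε) ^ 2 : ℝ) : ℂ) * (cov g ψ z i * conj (cov g ψ z j)) -
        ((N z / (N z + ε) : ℝ) : ℂ) * ddz (fun y => (ψ y : ℂ)) z i j := by
  have hψ1 : DifferentiableAt ℝ ψ z := hψ.differentiableAt (by norm_num)
  have hNs : ∀ {y : C2}, ContDiffAt ℝ 2 ψ y → AnalyticAt ℂ g y →
      (N =ᶠ[𝓝 y] fun y => ‖g y‖ ^ 2 * Real.exp (-ψ y)) → ContDiffAt ℝ 2 N y := by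
    intro y h1 h2 h3
    have h4 : ContDiffAt ℝ 2 (fun y => ‖g y‖ ^ 2 * Real.exp (-ψ y)) y :=
      ((contDiffAt_of_analyticAt h2).norm_sq ℝ).mul h1.neg.exp
    exact h4.congr_of_eventuallyEq h3
  have hpos : ∀ {y : C2}, (N y = ‖g y‖ ^ 2 * Real.exp (-ψ y)) → 0 < N y + ε := by
    intro y h
    rw [h]
    positivity
  have h1 : dzb j (fun y => (Real.log (N y + ε) : ℂ)) =ᶠ[𝓝 z] fun y =>
      (((N y + ε)⁻¹ : ℝ) : ℂ) * dzb j (fun y => (N y : ℂ)) y := by
    filter_upwards [hg.eventually_analyticAt, hψ.eventually (by simp), hN.eventually_nhds]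
      with y h2 h3 h4
    have h5 : DifferentiableAt ℝ N y := (hNs h3 h2 h4).differentiableAt (by norm_num)
    have h6 : HasDerivAt (fun t : ℝ => Real.log (t + ε)) (N y + ε)⁻¹ (N y) := by
      have := ((hasDerivAt_id (N y)).add_const ε).log (hpos h4.self_of_nhds).ne'
      simpa using this
    rw [dzb_real_comp (h := fun t => Real.log (t + ε)) h5 h6]
  have hN2 := hNs hψ hg hN
  have hN1 : DifferentiableAt ℝ N z := hN2.differentiableAt (by norm_num)
  have hp := hpos hN.self_of_nhds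
  have h2 : HasDerivAt (fun t : ℝ => (t + ε)⁻¹) (-((N z + ε) ^ 2)⁻¹) (N z) := by
    have : HasDerivAt (fun t : ℝ => (t + ε)⁻¹) (-1 / (N z + ε) ^ 2) (N z) :=
      ((hasDerivAt_id (N z)).add_const ε).inv hp.ne'
    rwa [neg_div, one_div] at this
  have h3 : DifferentiableAt ℝ (fun y => (((N y + ε)⁻¹ : ℝ) : ℂ)) z :=
    Complex.ofRealCLM.differentiableAt.comp z ((hN1.add_const ε).inv hp.ne')
  have hNc : ContDiffAt ℝ 2 (fun y => (N y : ℂ)) z := contDiffAt_ofReal hN2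
  rw [ddz_apply, dz_congr h1, dz_mul h3 (differentiableAt_dzb hNc j),
    dz_real_comp (h := fun t => (t + ε)⁻¹) hN1 h2, ← ddz_apply, ddz_N hg hψ hN,
    dz_N hg.differentiableAt hψ1 hN, dzb_N hg.differentiableAt hψ1 hN]
  have hNz : (N z : ℂ) = g z * (((Real.exp (-ψ z) : ℝ) : ℂ) * conj (g z)) := by
    rw [hN.self_of_nhds, ofReal_normSq_exp]
  have hpc : ((N z : ℂ) + ε) ≠ 0 := by
    rw [← Complex.ofReal_add]
    exact_mod_cast hp.ne'
  set E : ℂ := ((Real.exp (-ψ z) : ℝ) : ℂ) with hE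
  have hEr : (Complex.ofReal (ε * Real.exp (-ψ z) / (N z + ε) ^ 2)) =
      ε * E / ((N z : ℂ) + ε) ^ 2 := by
    push_cast
    rw [hE]
    push_cast
    ring
  rw [hEr]
  push_cast
  field_simp
  linear_combination (cov g ψ z i * conj (cov g ψ z j) * E) * hNz
end

end Vale.Agent.P267.H823.PL
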