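import Vale.Agent.P267.H823.PL1
import Vale.Agent.P267.H823.PL2
import Vale.Agent.P267.H928.Int.Cplx

/-!
# P267, Poincare-Lelong for one smooth curve (helper823): the limits in coordinates
-/

open scoped Manifold ContDiff ComplexConjugate Matrix Real
open MeasureTheory Set Filter Topology

noncomputable section

namespace Vale.Agent.P267.H823.PL

open Vale.Agent.P267.FL

/-- absolute value of the real Jacobian -/
def adet (σ : C2 → C2) (y : C2) : ℝ := |(fderiv ℝ σ y).det|

theorem continuousOn_adet {σ : C2 → C2} {S : Set C2} (hS : IsOpen S)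
    (hσ : DifferentiableOn ℂ σ S) : ContinuousOn (adet σ) S := by
  have h1 : ContDiffOn ℝ 1 σ S :=
    (P268.contDiffOn_of_differentiableOn hS hσ 1).restrict_scalars ℝ
  have h2 : ContinuousOn (fderiv ℝ σ) S := h1.continuousOn_fderiv_of_isOpen hS le_rfl
  exact (ContinuousLinearMap.continuous_det.comp_continuousOn h2).abs

/-- the homeomorphism `ℂ × ℂ ≃ ℂ²` -/
def iot : ℂ × ℂ ≃ₜ C2 := (Homeomorph.finTwoArrow (X := ℂ)).symm

theorem iot_apply (p : ℂ × ℂ) : iot p = ![p.1, p.2] := by
  apply iot.symm.injective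
  rw [iot.symm_apply_apply]
  rfl

theorem iot_zero (p : ℂ × ℂ) : iot p 0 = p.1 := by rw [iot_apply]; rfl

theorem integral_C2 (f : C2 → ℂ) : ∫ y, f y = ∫ p : ℂ × ℂ, f (iot p) := by
  have h := (volume_preserving_finTwoArrow ℂ).symm
  have h2 := h.integral_comp' (g := f)
  rw [← h2]
  rfl

theorem tendsto_flat {κ : OpenPartialHomeomorph C2 C2}
    (hκs : DifferentiableOn ℂ κ.symm κ.target) {g : C2 → ℂ} (hg : ∀ z ∈ κ.source, κ z 0 = g z)
    {ψ : C2 → ℝ} (hψ : ContinuousOn ψ κ.source) {q : C2 → ℂ} (hq : ContinuousOn q κ.source)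
    {K : Set C2} (hK : IsCompact K) (hKs : K ⊆ κ.source)
    (hq0 : ∀ z ∈ κ.source, z ∉ K → q z = 0) :
    Integrable ((iot ⁻¹' κ.target).indicator
        (fun p => (adet κ.symm (iot p) : ℂ) * q (κ.symm (iot p))) ∘ fun w : ℂ => ((0 : ℂ), w)) ∧
    Tendsto (fun ε : ℝ => ∫ z in κ.source,
        ((ε * Real.exp (-ψ z) / (‖g z‖ ^ 2 * Real.exp (-ψ z) + ε) ^ 2 : ℝ) : ℂ) * q z)
      (𝓝[>] 0) (𝓝 (π * ∫ w in {w : ℂ | iot (0, w) ∈ κ.target},
        (adet κ.symm (iot (0, w)) : ℂ) * q (κ.symm (iot (0, w))))) := by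
  set S := κ.target with hS
  have hSo : IsOpen S := κ.open_target
  set σ := κ.symm with hσ
  set L : Set (ℂ × ℂ) := iot ⁻¹' (κ '' K) with hL
  have hLc : IsCompact L := by
    rw [hL, iot.isCompact_preimage]
    exact hK.image_of_continuousOn (κ.continuousOn.mono hKs)
  set W : Set (ℂ × ℂ) := iot ⁻¹' S with hW
  have hWo : IsOpen W := hSo.preimage iot.continuous
  have hLW : L ⊆ W := by
    rintro p ⟨z, hz, hzp⟩
    rw [hW, mem_preimage, ← hzp]
    exact κ.map_source (hKs hz)
  set H : ℂ × ℂ → ℂ := W.indicator (fun p => (adet σ (iot p) : ℂ) * q (σ (iot p))) with hH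
  have hH0 : ∀ p ∉ L, H p = 0 := by
    intro p hp
    by_cases hpW : p ∈ W
    · rw [hH, indicator_of_mem hpW]
      have h1 : σ (iot p) ∈ κ.source := κ.map_target hpW
      have h2 : σ (iot p) ∉ K := by
        intro h
        apply hp
        exact ⟨_, h, κ.right_inv hpW⟩
      rw [hq0 _ h1 h2, mul_zero]
    · rw [hH, indicator_of_notMem hpW]
  have hHc : Continuous H := by
    rw [continuous_iff_continuousAt]
    intro p
    by_cases hp : p ∈ W
    · have h1 : H =ᶠ[𝓝 p] fun p => (adet σ (iot p) : ℂ) * q (σ (iot p)) := by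
        filter_upwards [hWo.mem_nhds hp] with y hy
        rw [hH, indicator_of_mem hy]
      refine ContinuousAt.congr ?_ h1.symm
      have h2 : ContinuousAt (adet σ) (iot p) :=
        (continuousOn_adet hSo hκs).continuousAt (hSo.mem_nhds hp)
      have h3 : ContinuousAt σ (iot p) := κ.continuousAt_symm hp
      have h4 : ContinuousAt q (σ (iot p)) :=
        hq.continuousAt (κ.open_source.mem_nhds (κ.map_target hp))
      have h5 : ContinuousAt iot p := iot.continuous.continuousAt
      have h6 : ContinuousAt (fun p => (adet σ (iot p) : ℂ)) p :=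
        Complex.continuous_ofReal.continuousAt.comp (ContinuousAt.comp (g := adet σ) h2 h5)
      have h7 : ContinuousAt (fun p => σ (iot p)) p := ContinuousAt.comp (g := σ) h3 h5
      exact h6.mul (ContinuousAt.comp (g := q) h4 h7)
    · have h1 : H =ᶠ[𝓝 p] fun _ => 0 := by
        filter_upwards [hLc.isClosed.isOpen_compl.mem_nhds (fun h => hp (hLW h))] with y hy
        exact hH0 y hy
      exact h1.continuousAt
  have hHcs : HasCompactSupport H := HasCompactSupport.intro hLc hH0
  have hts : tsupport H ⊆ W := by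
    refine Subset.trans (closure_minimal ?_ hLc.isClosed) hLW
    intro p hp
    by_contra h
    exact hp (hH0 p h)
  refine ⟨?_, ?_⟩
  · refine Continuous.integrable_of_hasCompactSupport (hHc.comp (by fun_prop)) ?_
    refine HasCompactSupport.intro (hLc.image continuous_snd) fun w hw => ?_
    exact hH0 _ fun h => hw ⟨_, h, rfl⟩
  set θ : ℂ × ℂ → ℝ := fun p => Real.exp (-ψ (σ (iot p))) with hθ
  have hθc : ContinuousOn θ W := by
    have h1 : ContinuousOn (fun p => σ (iot p)) W :=
      ContinuousOn.comp (t := S) κ.continuousOn_symm iot.continuous.continuousOn fun p hp => hp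
    have h2 : ContinuousOn (fun p => ψ (σ (iot p))) W :=
      ContinuousOn.comp hψ h1 fun p hp => κ.map_target hp
    exact h2.neg.rexp
  have key := tendsto_kernel hWo hHc hHcs hts hθc (fun p _ => Real.exp_pos _)
  have hrhs : ∫ w : ℂ, H (0, w) = ∫ w in {w : ℂ | iot (0, w) ∈ S},
      (adet σ (iot (0, w)) : ℂ) * q (σ (iot (0, w))) := by
    have hm : MeasurableSet {w : ℂ | iot (0, w) ∈ S} := by
      refine (hSo.preimage (f := fun w : ℂ => iot (0, w)) ?_).measurableSet
      exact iot.continuous.comp (by fun_prop)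
    rw [← integral_indicator hm]
    refine integral_congr_ae (Eventually.of_forall fun w => ?_)
    simp only [hH, hW]
    by_cases hw : iot (0, w) ∈ S
    · rw [indicator_of_mem (show ((0 : ℂ), w) ∈ iot ⁻¹' S from hw), indicator_of_mem (show w ∈ {w : ℂ | iot (0, w) ∈ S} from hw)]
    · rw [indicator_of_notMem (show ((0 : ℂ), w) ∉ iot ⁻¹' S from hw),
        indicator_of_notMem (show w ∉ {w : ℂ | iot (0, w) ∈ S} from hw)]
  rw [← hrhs]
  refine key.congr fun ε => ?_
  have hder : ∀ y ∈ σ.source, HasFDerivAt σ (fderiv ℝ σ y) y := fun y hy =>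
    ((hκs.differentiableAt (hSo.mem_nhds hy)).restrictScalars ℝ).hasFDerivAt
  have h1 := integral_target_eq_integral_abs_det_fderiv_smul (volume : Measure C2) hder
    (fun z => ((ε * Real.exp (-ψ z) / (‖g z‖ ^ 2 * Real.exp (-ψ z) + ε) ^ 2 : ℝ) : ℂ) * q z)
  rw [show σ.target = κ.source from rfl] at h1
  rw [h1, show σ.source = S from rfl, ← integral_indicator hSo.measurableSet, integral_C2]
  refine integral_congr_ae (Eventually.of_forall fun p => ?_)
  by_cases hp : iot p ∈ S
  · have h2 : g (σ (iot p)) = p.1 := by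
      rw [← hg _ (κ.map_target hp), κ.right_inv hp, iot_zero]
    simp only [hH, hW, hθ]
    rw [indicator_of_mem hp, indicator_of_mem (show p ∈ iot ⁻¹' S from hp), h2, adet,
      Complex.real_smul]
    ring
  · simp only [hH, hW]
    rw [indicator_of_notMem hp, indicator_of_notMem (show p ∉ iot ⁻¹' S from hp), mul_zero]

/-- the zero set of the first coordinate is a null set -/
theorem volume_zero {κ : OpenPartialHomeomorph C2 C2}
    (hκs : DifferentiableOn ℂ κ.symm κ.target) {g : C2 → ℂ}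
    (hg : ∀ z ∈ κ.source, κ z 0 = g z) : volume {z ∈ κ.source | g z = 0} = 0 := by
  have h1 : {z ∈ κ.source | g z = 0} ⊆ κ.symm '' (κ.target ∩ {y | y 0 = 0}) := by
    rintro z ⟨hz, hz0⟩
    exact ⟨κ z, ⟨κ.map_source hz, by show κ z 0 = 0; rw [hg z hz, hz0]⟩, κ.left_inv hz⟩
  refine measure_mono_null h1 ?_
  refine addHaar_image_eq_zero_of_differentiableOn_of_addHaar_eq_zero volume
    ((hκs.restrictScalars ℝ).mono inter_subset_left) ?_
  exact measure_mono_null inter_subset_right
    (Measure.pi_hyperplane (fun _ : Fin 2 => (volume : Measure ℂ)) 0 (0 : ℂ))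

section dom

variable {α : Type*} [MeasurableSpace α] {μ : Measure α}

theorem tendsto_dom {b : α → ℂ} (hb : Integrable b μ) {N : α → ℝ}
    (hNm : AEStronglyMeasurable N μ) (hN : ∀ᵐ z ∂μ, 0 < N z) :
    Tendsto (fun ε : ℝ => ∫ z, ((N z / (N z + ε) : ℝ) : ℂ) * b z ∂μ) (𝓝[>] 0)
      (𝓝 (∫ z, b z ∂μ)) := by
  refine tendsto_integral_filter_of_dominated_convergence (fun z => ‖b z‖) ?_ ?_ hb.norm ?_
  · refine Eventually.of_forall fun ε => ?_
    have h1 : AEStronglyMeasurable (fun z => N z / (N z + ε)) μ := by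
      have := hNm.aemeasurable
      exact (this.div (this.add_const ε)).aestronglyMeasurable
    exact (Complex.continuous_ofReal.comp_aestronglyMeasurable h1).mul hb.aestronglyMeasurable
  · filter_upwards [self_mem_nhdsWithin] with ε hε
    have hε' : (0 : ℝ) < ε := hε
    filter_upwards [hN] with z hz
    rw [norm_mul]
    have h2 : ‖((N z / (N z + ε) : ℝ) : ℂ)‖ ≤ 1 := by
      rw [Complex.norm_real, Real.norm_of_nonneg (by positivity), div_le_one (by positivity)]
      linarith
    exact mul_le_of_le_one_left (norm_nonneg _) h2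
  · filter_upwards [hN] with z hz
    have h1 : Tendsto (fun ε : ℝ => ((N z / (N z + ε) : ℝ) : ℂ) * b z) (𝓝 0)
        (𝓝 (((N z / (N z + 0) : ℝ) : ℂ) * b z)) := by
      refine ContinuousAt.tendsto (f := fun ε : ℝ => ((N z / (N z + ε) : ℝ) : ℂ) * b z) ?_
      refine ContinuousAt.mul ?_ continuousAt_const
      refine Complex.continuous_ofReal.continuousAt.comp ?_
      refine ContinuousAt.div (by fun_prop) (by fun_prop) ?_
      simp [hz.ne']
    rw [add_zero, div_self hz.ne', Complex.ofReal_one, one_mul] at h1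
    exact h1.mono_left nhdsWithin_le_nhds

theorem tendsto_off {b : α → ℂ} {N E : α → ℝ}
    (hNm : AEStronglyMeasurable N μ) (hEm : AEStronglyMeasurable E μ)
    (hbm : AEStronglyMeasurable b μ)
    (hb : Integrable (fun z => E z / N z ^ 2 * ‖b z‖) μ) (hE : ∀ᵐ z ∂μ, 0 ≤ E z)
    (hN : ∀ᵐ z ∂μ, b z ≠ 0 → 0 < N z) :
    Tendsto (fun ε : ℝ => ∫ z, ((ε * E z / (N z + ε) ^ 2 : ℝ) : ℂ) * b z ∂μ) (𝓝[>] 0) (𝓝 0) := by
  have h0 : (0 : ℂ) = ∫ _, (0 : ℂ) ∂μ := by simp
  rw [h0]
  refine tendsto_integral_filter_of_dominated_convergence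
    (fun z => E z / N z ^ 2 * ‖b z‖) ?_ ?_ hb ?_
  · refine Eventually.of_forall fun ε => ?_
    have h1 : AEStronglyMeasurable (fun z => ε * E z / (N z + ε) ^ 2) μ := by
      have := hNm.aemeasurable
      exact ((hEm.aemeasurable.const_mul ε).div
        ((this.add_const ε).pow_const 2)).aestronglyMeasurable
    exact (Complex.continuous_ofReal.comp_aestronglyMeasurable h1).mul hbm
  · have h1 : ∀ᶠ ε : ℝ in 𝓝[>] 0, ε ≤ 1 := by
      filter_upwards [Ioc_mem_nhdsGT (zero_lt_one (α := ℝ))] with ε hε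
      exact hε.2
    filter_upwards [self_mem_nhdsWithin, h1] with ε hε hε1
    have hε' : (0 : ℝ) < ε := hε
    filter_upwards [hN, hE] with z hz hEz
    rw [norm_mul]
    by_cases hbz : b z = 0
    · simp [hbz]
    have hz' := hz hbz
    refine mul_le_mul_of_nonneg_right ?_ (norm_nonneg _)
    rw [Complex.norm_real, Real.norm_of_nonneg (by positivity)]
    refine div_le_div₀ hEz ?_ (by positivity) ?_
    · exact mul_le_of_le_one_left hEz hε1
    · exact pow_le_pow_left₀ hz'.le (by linarith) 2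
  · filter_upwards [hN] with z hz
    by_cases hbz : b z = 0
    · simp [hbz]
    have hz' := hz hbz
    have h1 : Tendsto (fun ε : ℝ => ((ε * E z / (N z + ε) ^ 2 : ℝ) : ℂ) * b z) (𝓝 0)
        (𝓝 (((0 * E z / (N z + 0) ^ 2 : ℝ) : ℂ) * b z)) := by
      refine ContinuousAt.tendsto (f := fun ε : ℝ => ((ε * E z / (N z + ε) ^ 2 : ℝ) : ℂ) * b z) ?_
      refine ContinuousAt.mul ?_ continuousAt_const
      refine Complex.continuous_ofReal.continuousAt.comp ?_
      refine ContinuousAt.div (by fun_prop) (by fun_prop) ?_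
      simp [hz'.ne']
    rw [zero_mul, zero_div, Complex.ofReal_zero, zero_mul] at h1
    exact h1.mono_left nhdsWithin_le_nhds

end dom

/-! ### change of variables in one complex variable -/

theorem det_smulRight (c : ℂ) :
    (((ContinuousLinearMap.toSpanSingleton ℂ c).restrictScalars ℝ : ℂ →L[ℝ] ℂ)).det = ‖c‖ ^ 2 := by
  rw [H928.Int.det_real, Complex.normSq_eq_norm_sq]
  congr 2
  have := LinearMap.det_ring ((ContinuousLinearMap.toSpanSingleton ℂ c : ℂ →L[ℂ] ℂ) : ℂ →ₗ[ℂ] ℂ)
  rw [this]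
  simp

theorem one_var {h : ℂ → ℂ} {V : Set ℂ} (hV : IsOpen V) (hh : DifferentiableOn ℂ h V)
    (hinj : InjOn h V) (Φ : ℂ → ℂ) :
    (∫ w in h '' V, Φ w = ∫ t in V, ((‖deriv h t‖ ^ 2 : ℝ) : ℂ) * Φ (h t)) ∧
      (IntegrableOn Φ (h '' V) ↔
        IntegrableOn (fun t => ((‖deriv h t‖ ^ 2 : ℝ) : ℂ) * Φ (h t)) V) := by
  have hd : ∀ t ∈ V, HasFDerivWithinAt h
      ((ContinuousLinearMap.toSpanSingleton ℂ (deriv h t)).restrictScalars ℝ : ℂ →L[ℝ] ℂ) V t := by
    intro t ht
    have h1 : HasFDerivAt h (ContinuousLinearMap.toSpanSingleton ℂ (deriv h t)) t :=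
      (hh.differentiableAt (hV.mem_nhds ht)).hasDerivAt.hasFDerivAt
    exact (h1.restrictScalars ℝ).hasFDerivWithinAt
  have key : ∀ t : ℂ, |(((ContinuousLinearMap.toSpanSingleton ℂ (deriv h t)).restrictScalars ℝ :
      ℂ →L[ℝ] ℂ)).det| • Φ (h t) = ((‖deriv h t‖ ^ 2 : ℝ) : ℂ) * Φ (h t) := by
    intro t
    rw [det_smulRight, abs_of_nonneg (by positivity), Complex.real_smul]
  constructor
  · rw [integral_image_eq_integral_abs_det_fderiv_smul volume hV.measurableSet hd hinj Φ]
    simp only [key]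
  · rw [integrableOn_image_iff_integrableOn_abs_det_fderiv_smul volume hV.measurableSet hd hinj Φ]
    simp only [key]

end Vale.Agent.P267.H823.PL
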