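import Vale.Agent.P267.H823.PL3
import Vale.Agent.P267.H332.Pair.IntAx

/-!
# P267, Poincare-Lelong for one smooth curve (helper823): local computations on the surface
-/

open scoped Manifold ContDiff ComplexConjugate Matrix Real
open MeasureTheory Set Filter Topology

set_option linter.unusedSectionVars false

noncomputable section

namespace Vale.Agent.P267.H823.PL

open Vale.Agent.P267.FL Vale.Agent.P267.H332 Vale.Agent.P267.H757

variable {X : Type*} [TopologicalSpace X] [ChartedSpace C2 X]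

/-- velocity of the curve `f` in the chart `e` -/
def vel (f : ℂ → X) (e : Ch X) (t : ℂ) : C2 := deriv (fun s => e (f s)) t

/-- the coefficient of `dt ∧ dt̄` of the pull-back of the two-form `F` by the holomorphic
map `f` -/
def pbC (f : ℂ → X) (F : TwoF X) (t : ℂ) : ℂ :=
  ∑ i, ∑ j, F.f11 (f t) i j *
    (vel f (chartAt C2 (f t)) t i * conj (vel f (chartAt C2 (f t)) t j))

/-- the regularised norm function -/
def Neps (N : X → ℝ) (ε : ℝ) (x : X) : ℝ := (N x + ε)⁻¹

section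

variable [IsManifold 𝓘(ℂ, C2) ω X]

theorem differentiableAt_chart_comp {f : ℂ → X} {t : ℂ}
    (hf : MDifferentiableAt 𝓘(ℂ) 𝓘(ℂ, C2) f t) {e : Ch X} (he : e ∈ atlas C2 X)
    (ht : f t ∈ e.source) : DifferentiableAt ℂ (fun s => e (f s)) t := by
  have h1 : MDifferentiableAt 𝓘(ℂ, C2) 𝓘(ℂ, C2) e (f t) := mdifferentiableAt_atlas he ht
  exact mdifferentiableAt_iff_differentiableAt.1 (h1.comp t hf)

theorem vel_change {f : ℂ → X} {t : ℂ} (hf : MDifferentiableAt 𝓘(ℂ) 𝓘(ℂ, C2) f t) {e e' : Ch X}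
    (he : e ∈ atlas C2 X) (he' : e' ∈ atlas C2 X) (ht : f t ∈ e.source) (ht' : f t ∈ e'.source) :
    vel f e' t = (jacM e e' (f t)).mulVec (vel f e t) := by
  have h1 := differentiableAt_chart_comp hf he ht
  have h2 : (fun s => e' (f s)) =ᶠ[𝓝 t] fun s => (fun z => e' (e.symm z)) (e (f s)) := by
    have h3 : ∀ᶠ s in 𝓝 t, f s ∈ e.source :=
      hf.continuousAt.eventually (e.open_source.mem_nhds ht)
    filter_upwards [h3] with s hs
    simp only [e.left_inv hs]
  have h4 := trans_differentiableAt he he' ht ht'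
  rw [jacM_mulVec he he' ht ht', vel, vel, h2.deriv_eq]
  exact (h4.hasFDerivAt.comp_hasDerivAt t h1.hasDerivAt).deriv

theorem pbC_chart {f : ℂ → X} {t : ℂ} (hf : MDifferentiableAt 𝓘(ℂ) 𝓘(ℂ, C2) f t) (F : TwoF X)
    {e : Ch X} (he : e ∈ atlas C2 X) (ht : f t ∈ e.source) :
    pbC f F t = ∑ i, ∑ j, loc11 e F.f11 (e (f t)) i j * (vel f e t i * conj (vel f e t j)) := by
  rw [pbC, vel_change hf he (chart_mem_atlas C2 (f t)) ht (mem_chart_source C2 (f t))]
  simp only [loc11, e.left_inv ht, jac, Matrix.mulVec, dotProduct, Fin.sum_univ_two,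
    Matrix.of_apply, smul_eq_mul, map_add, map_mul]
  ring

theorem loc2_cF_wedge (N : X → ℝ) (F : TwoF X) (e : Ch X) (z : C2) :
    loc2 1 e ((cF N).wedge F) z =
      -(loc11 e (curvN N) z 0 0 * loc11 e F.f11 z 1 1 + loc11 e (curvN N) z 1 1 *
        loc11 e F.f11 z 0 0 - loc11 e (curvN N) z 0 1 * loc11 e F.f11 z 1 0 -
          loc11 e (curvN N) z 1 0 * loc11 e F.f11 z 0 1) := by
  rw [loc2_wedge]
  simp [cF, loc0, loc2]

theorem locRep_eps {N : X → ℝ} (hN : IsNormFn C2 N) {ε : ℝ} (hε : 0 < ε) :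
    LocRep C2 (Neps N ε) univ (fun _ => 1) (fun x => Real.log (N x + ε)) := by
  have hp : ∀ x, 0 < N x + ε := fun x => by
    have := hN.nonneg x
    linarith
  refine ⟨isOpen_univ, mdifferentiableOn_const, fun V _ _ hne => ⟨hne.some, hne.some_mem,
    one_ne_zero⟩, ?_, fun x _ => ?_⟩
  · intro x _
    have h1 : ContMDiffAt 𝓘(ℝ, C2) 𝓘(ℝ) ∞ (fun x => N x + ε) x :=
      hN.smooth.contMDiffAt.add contMDiffAt_const
    exact (ContMDiffAt.comp (g := Real.log) x
      (Real.contDiffAt_log.2 (hp x).ne').contMDiffAt h1).contMDiffWithinAt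
  · rw [Neps, norm_one, one_pow, one_mul, Real.exp_neg, Real.exp_log (hp x)]

theorem isNormFn_eps {N : X → ℝ} (hN : IsNormFn C2 N) {ε : ℝ} (hε : 0 < ε) :
    IsNormFn C2 (Neps N ε) := fun _ => ⟨_, _, _, mem_univ _, locRep_eps hN hε⟩

/-- the quadratic expression `∂g ∧ conj ∂g ∧ F` in coordinates -/
def qf (a : Fin 2 → ℂ) (M : Matrix (Fin 2) (Fin 2) ℂ) : ℂ :=
  a 0 * conj (a 0) * M 1 1 + a 1 * conj (a 1) * M 0 0 - a 0 * conj (a 1) * M 1 0 -
    a 1 * conj (a 0) * M 0 1

/-- **The regularised curvature form, in coordinates.** -/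
theorem loc2_eps {N : X → ℝ} (hN : IsNormFn C2 N) {U : Set X} {g : X → ℂ} {ψ : X → ℝ}
    (h : LocRep C2 N U g ψ) (F : TwoF X) {e : Ch X} (he : e ∈ atlas C2 X) {z : C2}
    (hz : z ∈ e.target) (hzU : e.symm z ∈ U) {ε : ℝ} (hε : 0 < ε) :
    loc2 1 e ((cF (Neps N ε)).wedge F) z =
      -(((ε * Real.exp (-ψ (e.symm z)) / (N (e.symm z) + ε) ^ 2 : ℝ) : ℂ) *
        qf (cov (fun z => g (e.symm z)) (fun z => ψ (e.symm z)) z) (loc11 e F.f11 z)) -
      ((N (e.symm z) / (N (e.symm z) + ε) : ℝ) : ℂ) * loc2 1 e ((cF N).wedge F) z := by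
  have h1 := loc11_curvN (locRep_eps hN hε) he hz (mem_univ _)
  have h2 := loc11_curvN h he hz hzU
  have hD := lr_isOpen h e
  have hg : AnalyticAt ℂ (fun z => g (e.symm z)) z :=
    P268.analyticAt_of_differentiableOn hD (differentiableOn_chart he h.hol) ⟨hz, hzU⟩
  have hψ : ContDiffAt ℝ 2 (fun z => ψ (e.symm z)) z :=
    ((contDiffOn_chart he h.smooth).of_le (WithTop.coe_le_coe.2 le_top)).contDiffAt
      (hD.mem_nhds ⟨hz, hzU⟩)
  have hNe : (fun z => N (e.symm z)) =ᶠ[𝓝 z]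
      fun y => ‖g (e.symm y)‖ ^ 2 * Real.exp (-ψ (e.symm y)) := by
    filter_upwards [hD.mem_nhds ⟨hz, hzU⟩] with y hy
    exact h.eq _ hy.2
  have h3 : ∀ i j, loc11 e (curvN (Neps N ε)) z i j = _ := fun i j => by
    rw [h1]
    exact ddz_log hg hψ hNe hε i j
  rw [loc2_cF_wedge, loc2_cF_wedge, h2]
  simp only [h3, qf]
  ring

/-! ### the integral in coordinates -/

theorem loc2_mul (χ : X → ℝ) (b : X → ℂ) (e : Ch X) (z : C2) :
    loc2 1 e (fun x => (χ x : ℂ) * b x) z = (χ (e.symm z) : ℂ) * loc2 1 e b z := by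
  simp only [loc2, smul_eq_mul]
  ring

theorem reg2_mul {χ : X → ℝ} (hχ : Continuous χ) {b : X → ℂ} (hb : Reg2 ∞ 1 b) :
    Reg2 0 1 (fun x => (χ x : ℂ) * b x) := by
  intro e he
  have h1 : loc2 1 e (fun x => (χ x : ℂ) * b x) = fun z => (χ (e.symm z) : ℂ) * loc2 1 e b z :=
    funext fun z => loc2_mul χ b e z
  rw [h1, contDiffOn_zero]
  exact (Complex.continuous_ofReal.comp_continuousOn
    (hχ.comp_continuousOn e.continuousOn_symm)).mul (hb e he).continuousOn

theorem integrableX_mul [T2Space X] [SigmaCompactSpace X] {χ : X → ℝ} (hχ : Continuous χ)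
    (hχc : HasCompactSupport χ) {b : X → ℂ} (hb : Reg2 ∞ 1 b) :
    IntegrableX (fun x => (χ x : ℂ) * b x) := by
  refine integrableX_of_reg (reg2_mul hχ hb) ?_
  refine HasCompactSupport.intro hχc fun x hx => ?_
  rw [image_eq_zero_of_notMem_tsupport hx]
  simp

/-- a continuous function on an open set, which vanishes off a compact subset, is integrable -/
theorem integrableOn_of_cont {S : Set C2} (hS : IsOpen S) {K : Set C2} (hK : IsCompact K)
    (hKS : K ⊆ S) {V : Type*} [NormedAddCommGroup V] {G : C2 → V} (hG : ContinuousOn G S)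
    (h0 : ∀ z ∈ S, z ∉ K → G z = 0) : IntegrableOn G S := by
  have h1 : IntegrableOn G K := (hG.mono hKS).integrableOn_compact hK
  exact h1.of_forall_sdiff_eq_zero hS.measurableSet fun z hz => h0 z hz.1 hz.2

/-- the integral of `χ · b` over an open set of the chart containing the support of `χ` -/
theorem intV_chart_sub [T2Space X] [SigmaCompactSpace X] {χ : X → ℝ} (hχ : Continuous χ)
    (hχc : HasCompactSupport χ) {b : X → ℂ} (hb : Reg2 ∞ 1 b) {e : Ch X} (he : e ∈ atlas C2 X)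
    {W : Set C2} (hW : W ⊆ e.target)
    (hs : tsupport χ ⊆ e.source ∩ e ⁻¹' W) :
    intV (fun x => (χ x : ℂ) * b x) =
      4 * ∫ z in W, (χ (e.symm z) : ℂ) * loc2 1 e b z := by
  rw [intV_chart he (integrableX_mul hχ hχc hb) fun x hx => by
    rw [image_eq_zero_of_notMem_tsupport fun h => hx (hs h).1]
    simp]
  rw [setIntegral_eq_of_subset_of_forall_sdiff_eq_zero e.open_target.measurableSet hW]
  · simp only [loc2_mul, Complex.real_smul]
    norm_num
  · rintro z ⟨hz, hzW⟩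
    rw [loc2_mul, image_eq_zero_of_notMem_tsupport (f := χ) fun h => hzW ?_]
    · simp
    · have := (hs h).2
      rwa [mem_preimage, e.right_inv hz] at this

end

end Vale.Agent.P267.H823.PL
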