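import Vale.Agent.P267.H823.PL4
import Vale.Agent.P267.H62.Str

/-!
# P267, Poincare-Lelong for one smooth curve (helper823): the local limits
-/

open scoped Manifold ContDiff ComplexConjugate Matrix Real
open MeasureTheory Set Filter Topology

set_option linter.unusedSectionVars false

noncomputable section

namespace Vale.Agent.P267.H823.PL

open Vale.Agent.P267.FL Vale.Agent.P267.H332 Vale.Agent.P267.H757

/-! ### algebra at a point of the curve -/

/-- the matrix entries of the derivative of `κ.symm` -/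
theorem qf_algebra {κ : OpenPartialHomeomorph C2 C2} (hκs : DifferentiableOn ℂ κ.symm κ.target)
    {g : C2 → ℂ} {z : C2} (hz : z ∈ κ.source) (hg : ∀ z ∈ κ.source, κ z 0 = g z)
    (hgd : DifferentiableAt ℂ g z) (hg0 : g z = 0) (ψ : C2 → ℝ) (M : Matrix (Fin 2) (Fin 2) ℂ)
    (c : ℂ) :
    (c * conj c) * ((adet κ.symm (κ z) : ℂ) * qf (cov g ψ z) M) =
      ∑ i, ∑ j, M i j * ((fderiv ℂ κ.symm (κ z) (c • Pi.single 1 1)) i *
        conj ((fderiv ℂ κ.symm (κ z) (c • Pi.single 1 1)) j)) := by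
  have hy : κ z ∈ κ.target := κ.map_source hz
  have hσ : DifferentiableAt ℂ κ.symm (κ z) :=
    hκs.differentiableAt (κ.open_target.mem_nhds hy)
  set D := fderiv ℂ κ.symm (κ z) with hD
  have hcov : ∀ i, cov g ψ z i = fderiv ℂ g z (Pi.single i 1) := by
    intro i
    rw [cov, hg0, zero_mul, sub_zero, dz_of_hol hgd]
  -- `g ∘ κ.symm` is the first coordinate
  have hcomp : ∀ v : C2, fderiv ℂ g z (D v) = v 0 := by
    intro v
    have h1 : (fun y => g (κ.symm y)) =ᶠ[𝓝 (κ z)] fun y => y 0 := by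
      filter_upwards [κ.open_target.mem_nhds hy] with y hy'
      rw [← hg _ (κ.map_target hy'), κ.right_inv hy']
    have h2 : HasFDerivAt (fun y => g (κ.symm y)) ((fderiv ℂ g z).comp D) (κ z) := by
      have h3 : HasFDerivAt g (fderiv ℂ g z) (κ.symm (κ z)) := by
        rw [κ.left_inv hz]; exact hgd.hasFDerivAt
      exact HasFDerivAt.comp (g := g) (f := κ.symm) (κ z) h3 hσ.hasFDerivAt
    have h4 : HasFDerivAt (fun y : C2 => y 0)
        (ContinuousLinearMap.proj (R := ℂ) (φ := fun _ : Fin 2 => ℂ) 0) (κ z) :=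
      (ContinuousLinearMap.proj (R := ℂ) (φ := fun _ : Fin 2 => ℂ) 0).hasFDerivAt
    have h5 := (h4.congr_of_eventuallyEq h1).unique h2
    have h6 := congrArg (fun L : C2 →L[ℂ] ℂ => L v) h5
    simpa using h6.symm
  have hlin : ∀ v : C2, fderiv ℂ g z v = v 0 * cov g ψ z 0 + v 1 * cov g ψ z 1 := by
    intro v
    rw [hcov, hcov]
    conv_lhs => rw [c2_decomp v]
    rw [map_add, map_smul, map_smul, smul_eq_mul, smul_eq_mul]
  have e0 := hcomp (Pi.single 0 1)
  have e1 := hcomp (Pi.single 1 1)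
  rw [hlin] at e0 e1
  rw [Pi.single_eq_same] at e0
  rw [Pi.single_eq_of_ne (by norm_num : (0 : Fin 2) ≠ 1)] at e1
  have hdet : (adet κ.symm (κ z) : ℂ) =
      (D (Pi.single 0 1) 0 * D (Pi.single 1 1) 1 - D (Pi.single 1 1) 0 * D (Pi.single 0 1) 1) *
      conj (D (Pi.single 0 1) 0 * D (Pi.single 1 1) 1 -
        D (Pi.single 1 1) 0 * D (Pi.single 0 1) 1) := by
    rw [Complex.mul_conj]
    congr 1
    rw [adet, hσ.fderiv_restrictScalars ℝ, H928.Int.det_real, abs_of_nonneg (Complex.normSq_nonneg _)]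
    congr 1
    rw [← LinearMap.det_toMatrix', Matrix.det_fin_two]
    simp only [LinearMap.toMatrix'_apply]
    rfl
  rw [hdet]
  simp only [map_smul, Pi.smul_apply, smul_eq_mul, Fin.sum_univ_two, qf, map_mul, map_sub]
  set m00 := D (Pi.single 0 1) 0
  set m10 := D (Pi.single 0 1) 1
  set m01 := D (Pi.single 1 1) 0
  set m11 := D (Pi.single 1 1) 1
  set a0 := cov g ψ z 0
  set a1 := cov g ψ z 1
  have d0 : (m00 * m11 - m01 * m10) * a0 = m11 := by
    linear_combination m11 * e0 - m10 * e1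
  have d1 : (m00 * m11 - m01 * m10) * a1 = -m01 := by
    linear_combination m00 * e1 - m01 * e0
  have c0 : (conj m00 * conj m11 - conj m01 * conj m10) * conj a0 = conj m11 := by
    have := congrArg conj d0
    simpa only [map_mul, map_sub] using this
  have c1 : (conj m00 * conj m11 - conj m01 * conj m10) * conj a1 = -conj m01 := by
    have := congrArg conj d1
    simpa only [map_mul, map_sub, map_neg] using this
  calc c * conj c * ((m00 * m11 - m01 * m10) * (conj m00 * conj m11 - conj m01 * conj m10) *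
        (a0 * conj a0 * M 1 1 + a1 * conj a1 * M 0 0 - a0 * conj a1 * M 1 0 -
          a1 * conj a0 * M 0 1))
      = c * conj c * (((m00 * m11 - m01 * m10) * a0) *
          ((conj m00 * conj m11 - conj m01 * conj m10) * conj a0) * M 1 1 +
          ((m00 * m11 - m01 * m10) * a1) *
          ((conj m00 * conj m11 - conj m01 * conj m10) * conj a1) * M 0 0 -
          ((m00 * m11 - m01 * m10) * a0) *
          ((conj m00 * conj m11 - conj m01 * conj m10) * conj a1) * M 1 0 -
          ((m00 * m11 - m01 * m10) * a1) *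
          ((conj m00 * conj m11 - conj m01 * conj m10) * conj a0) * M 0 1) := by ring
    _ = _ := by rw [d0, d1, c0, c1]; ring

variable {X : Type*} [TopologicalSpace X] [ChartedSpace C2 X]

/-- the data of a curve which is the zero set of the norm function -/
structure CurveOf (N : X → ℝ) (f : ℂ → X) (S : Set X) : Prop where
  holo : MDifferentiable 𝓘(ℂ) 𝓘(ℂ, C2) f
  inj : Function.Injective f
  cnt : S.Countable
  zero : ∀ t, N (f t) = 0
  sub : ∀ x, N x = 0 → x ∈ range f ∪ S

section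

variable [IsManifold 𝓘(ℂ, C2) ω X]

/-- **Reparametrisation of the slice.** -/
theorem slice_eq {N : X → ℝ} {f : ℂ → X} {S : Set X} (hc : CurveOf N f S) {U : Set X} {g : X → ℂ}
    {ψ : X → ℝ} (h : LocRep C2 N U g ψ) {e : Ch X} (he : e ∈ atlas C2 X)
    {κ : OpenPartialHomeomorph C2 C2} (hκU : κ.source ⊆ e.target ∩ e.symm ⁻¹' U)
    (hκ : DifferentiableOn ℂ κ κ.source) (hκs : DifferentiableOn ℂ κ.symm κ.target)
    (hg : ∀ z ∈ κ.source, κ z 0 = g (e.symm z)) (F : TwoF X) (χ : X → ℝ)
    (hχ : tsupport χ ⊆ e.source ∩ e ⁻¹' κ.source)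
    (hint : IntegrableOn (fun w => (adet κ.symm (iot (0, w)) : ℂ) *
      ((χ (e.symm (κ.symm (iot (0, w)))) : ℂ) *
        qf (cov (fun z => g (e.symm z)) (fun z => ψ (e.symm z)) (κ.symm (iot (0, w))))
          (loc11 e F.f11 (κ.symm (iot (0, w)))))) {w : ℂ | iot (0, w) ∈ κ.target}) :
    Integrable (fun t => (χ (f t) : ℂ) * pbC f F t) ∧
    ∫ w in {w : ℂ | iot (0, w) ∈ κ.target}, (adet κ.symm (iot (0, w)) : ℂ) *
      ((χ (e.symm (κ.symm (iot (0, w)))) : ℂ) *
        qf (cov (fun z => g (e.symm z)) (fun z => ψ (e.symm z)) (κ.symm (iot (0, w))))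
          (loc11 e F.f11 (κ.symm (iot (0, w))))) = ∫ t, (χ (f t) : ℂ) * pbC f F t := by
  set Φ : ℂ → ℂ := fun w => (adet κ.symm (iot (0, w)) : ℂ) *
      ((χ (e.symm (κ.symm (iot (0, w)))) : ℂ) *
        qf (cov (fun z => g (e.symm z)) (fun z => ψ (e.symm z)) (κ.symm (iot (0, w))))
          (loc11 e F.f11 (κ.symm (iot (0, w))))) with hΦ
  set T : Set ℂ := {w : ℂ | iot (0, w) ∈ κ.target} with hT
  set V : Set ℂ := {t | f t ∈ e.source ∩ e ⁻¹' κ.source} with hV
  have hVo : IsOpen V := (e.isOpen_inter_preimage κ.open_source).preimage hc.holo.continuous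
  set h' : ℂ → ℂ := fun t => κ (e (f t)) 1 with hh'
  have hgz : ∀ t ∈ V, g (f t) = 0 := by
    intro t ht
    have h1 : f t ∈ U := by
      have := (hκU ht.2).2
      rwa [mem_preimage, e.left_inv ht.1] at this
    exact (h.eq_zero_iff h1).1 (hc.zero t)
  -- (1)
  have h1 : ∀ t ∈ V, κ (e (f t)) = iot (0, h' t) := by
    intro t ht
    rw [iot_apply]
    funext i
    fin_cases i
    · have := hg (e (f t)) ht.2
      rw [e.left_inv ht.1, hgz t ht] at this
      exact this
    · rfl
  have h1' : ∀ t ∈ V, κ.symm (iot (0, h' t)) = e (f t) := fun t ht => by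
    rw [← h1 t ht, κ.left_inv ht.2]
  -- (2)
  have h2 : h' '' V ⊆ T := by
    rintro _ ⟨t, ht, rfl⟩
    change iot (0, h' t) ∈ κ.target
    rw [← h1 t ht]
    exact κ.map_source ht.2
  have h3 : T \ (h' '' V) ⊆ (fun x => κ (e x) 1) '' S := by
    rintro w ⟨hw, hwn⟩
    have hzs : κ.symm (iot (0, w)) ∈ κ.source := κ.map_target hw
    have hzU := hκU hzs
    have hg0 : g (e.symm (κ.symm (iot (0, w)))) = 0 := by
      rw [← hg _ hzs, κ.right_inv hw, iot_zero]
    have hN0 : N (e.symm (κ.symm (iot (0, w)))) = 0 := (h.eq_zero_iff hzU.2).2 hg0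
    have hez : e (e.symm (κ.symm (iot (0, w)))) = κ.symm (iot (0, w)) := e.right_inv hzU.1
    have hw1 : κ (e (e.symm (κ.symm (iot (0, w))))) 1 = w := by
      rw [hez, κ.right_inv hw, iot_apply]
      rfl
    rcases hc.sub _ hN0 with ⟨t, ht⟩ | hS
    · exfalso
      apply hwn
      refine ⟨t, ?_, ?_⟩
      · change f t ∈ e.source ∩ e ⁻¹' κ.source
        rw [ht]
        exact ⟨e.map_target hzU.1, by rw [mem_preimage, hez]; exact hzs⟩
      · rw [hh']
        simp only [ht]
        exact hw1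
    · exact ⟨_, hS, hw1⟩
  have h3' : volume (T \ (h' '' V)) = 0 := ((hc.cnt.image _).mono h3).measure_zero _
  -- (3)
  have h4 : InjOn h' V := by
    intro s hs t ht hst
    have h5 : κ (e (f s)) = κ (e (f t)) := by rw [h1 s hs, h1 t ht, hst]
    exact hc.inj (e.injOn hs.1 ht.1 (κ.injOn hs.2 ht.2 h5))
  -- (4)
  have hfd : ∀ t ∈ V, DifferentiableAt ℂ (fun s => κ (e (f s))) t := by
    intro t ht
    have h5 := differentiableAt_chart_comp (hc.holo t) he ht.1
    have h6 : DifferentiableAt ℂ κ (e (f t)) :=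
      hκ.differentiableAt (κ.open_source.mem_nhds ht.2)
    exact DifferentiableAt.comp (g := κ) t h6 h5
  have h5 : DifferentiableOn ℂ h' V := by
    intro t ht
    exact (differentiableAt_pi.1 (hfd t ht) 1).differentiableWithinAt
  -- (5)
  have h6 : ∀ t ∈ V, ((‖deriv h' t‖ ^ 2 : ℝ) : ℂ) * Φ (h' t) = (χ (f t) : ℂ) * pbC f F t := by
    intro t ht
    have hd := hfd t ht
    have hder : deriv (fun s => κ (e (f s))) t = deriv h' t • (Pi.single 1 1 : C2) := by
      have h7 := hasDerivAt_pi.1 hd.hasDerivAt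
      funext i
      fin_cases i
      · have h8 : HasDerivAt (fun s => κ (e (f s)) 0) 0 t := by
          have h9 : (fun s => κ (e (f s)) 0) =ᶠ[𝓝 t] fun _ => 0 := by
            filter_upwards [hVo.mem_nhds ht] with s hs
            rw [h1 s hs, iot_zero]
          exact (hasDerivAt_const t (0 : ℂ)).congr_of_eventuallyEq h9
        have h9 := (h7 0).unique h8
        simpa using h9
      · have h9 := (h7 1).deriv
        simp only [Fin.mk_one, Fin.isValue, Pi.smul_apply, Pi.single_eq_same, smul_eq_mul, mul_one]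
        exact h9.symm
    have hvel : vel f e t = fderiv ℂ κ.symm (κ (e (f t))) (deriv h' t • Pi.single 1 1) := by
      have h7 : (fun s => e (f s)) =ᶠ[𝓝 t] fun s => κ.symm (κ (e (f s))) := by
        filter_upwards [hVo.mem_nhds ht] with s hs
        rw [κ.left_inv hs.2]
      have h8 : DifferentiableAt ℂ κ.symm (κ (e (f t))) :=
        hκs.differentiableAt (κ.open_target.mem_nhds (κ.map_source ht.2))
      rw [vel, h7.deriv_eq, ← hder]
      exact (h8.hasFDerivAt.comp_hasDerivAt t hd.hasDerivAt).deriv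
    have hgd : DifferentiableAt ℂ (fun z => g (e.symm z)) (e (f t)) :=
      (differentiableOn_chart he h.hol).differentiableAt ((lr_isOpen h e).mem_nhds (hκU ht.2))
    have key := qf_algebra hκs ht.2 hg hgd (by
      show g (e.symm (e (f t))) = 0
      rw [e.left_inv ht.1]; exact hgz t ht) (fun z => ψ (e.symm z)) (loc11 e F.f11 (e (f t)))
      (deriv h' t)
    rw [← hvel, ← pbC_chart (hc.holo t) F he ht.1, Complex.mul_conj, Complex.normSq_eq_norm_sq]
      at key
    rw [← key]
    simp only [hΦ]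
    rw [h1' t ht, ← h1 t ht, e.left_inv ht.1]
    ring
  obtain ⟨k1, k2⟩ := one_var hVo h5 h4 Φ
  have hsubV : IntegrableOn Φ (h' '' V) := hint.mono_set h2
  have k3 : IntegrableOn (fun t => (χ (f t) : ℂ) * pbC f F t) V :=
    (k2.1 hsubV).congr_fun h6 hVo.measurableSet
  have h0 : ∀ t ∉ V, (χ (f t) : ℂ) * pbC f F t = 0 := by
    intro t ht
    rw [image_eq_zero_of_notMem_tsupport (f := χ) fun h => ht (hχ h)]
    simp
  refine ⟨?_, ?_⟩
  · rw [← integrableOn_iff_integrable_of_support_subset (s := V)]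
    · exact k3
    · intro t ht
      by_contra h
      exact ht (h0 t h)
  · rw [← setIntegral_eq_integral_of_forall_compl_eq_zero h0]
    rw [← setIntegral_congr_fun hVo.measurableSet h6, ← k1]
    refine setIntegral_congr_set ?_
    refine (ae_eq_set.2 ⟨h3', ?_⟩)
    rw [sdiff_eq_empty.2 h2, measure_empty]

/-- the local statement -/
def Good (N : X → ℝ) (f : ℂ → X) (F : TwoF X) [T2Space X] [SigmaCompactSpace X] (V : Set X) :
    Prop :=
  ∀ χ : X → ℝ, Continuous χ → HasCompactSupport χ → tsupport χ ⊆ V →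
    Integrable (fun t => (χ (f t) : ℂ) * pbC f F t) ∧
    Tendsto (fun ε : ℝ => intV (fun x => (χ x : ℂ) * (cF (Neps N ε)).wedge F x)) (𝓝[>] 0)
      (𝓝 (-(4 * π) * (∫ t, (χ (f t) : ℂ) * pbC f F t) -
        intV (fun x => (χ x : ℂ) * (cF N).wedge F x)))

/-- the common part of the two cases -/
theorem good_aux [T2Space X] [SigmaCompactSpace X] {N : X → ℝ} (hN : IsNormFn C2 N) {U : Set X}
    {g : X → ℂ} {ψ : X → ℝ} (h : LocRep C2 N U g ψ) {e : Ch X} (he : e ∈ atlas C2 X) {W : Set C2}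
    (hWo : IsOpen W) (hW : W ⊆ e.target ∩ e.symm ⁻¹' U) (hW0 : volume {z ∈ W | N (e.symm z) = 0} = 0)
    {F : TwoF X} (hF : F.Smooth)
    {χ : X → ℝ} (hχ : Continuous χ) (hχc : HasCompactSupport χ)
    (hs : tsupport χ ⊆ e.source ∩ e ⁻¹' W) {J : ℂ}
    (hlim : Tendsto (fun ε : ℝ => ∫ z in W,
      ((ε * Real.exp (-ψ (e.symm z)) / (N (e.symm z) + ε) ^ 2 : ℝ) : ℂ) *
        ((χ (e.symm z) : ℂ) *
        qf (cov (fun z => g (e.symm z)) (fun z => ψ (e.symm z)) z) (loc11 e F.f11 z)))
        (𝓝[>] 0) (𝓝 J)) :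
    Tendsto (fun ε : ℝ => intV (fun x => (χ x : ℂ) * (cF (Neps N ε)).wedge F x)) (𝓝[>] 0)
      (𝓝 (-4 * J - intV (fun x => (χ x : ℂ) * (cF N).wedge F x))) := by
  have hWt : W ⊆ e.target := fun z hz => (hW hz).1
  -- the compact set
  set K : Set C2 := e '' tsupport χ with hK
  have hKc : IsCompact K :=
    hχc.isCompact.image_of_continuousOn (e.continuousOn.mono fun x hx => (hs hx).1)
  have hKW : K ⊆ W := by
    rintro _ ⟨x, hx, rfl⟩
    exact (hs hx).2
  have hχ0 : ∀ z ∈ W, z ∉ K → χ (e.symm z) = 0 := by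
    intro z hz hzK
    refine image_eq_zero_of_notMem_tsupport fun hx => hzK ⟨_, hx, e.right_inv (hWt hz)⟩
  have hχW : ContinuousOn (fun z => (χ (e.symm z) : ℂ)) W :=
    Complex.continuous_ofReal.comp_continuousOn
      (hχ.comp_continuousOn (e.continuousOn_symm.mono hWt))
  have hNW : ContinuousOn (fun z => N (e.symm z)) W :=
    hN.continuous.comp_continuousOn (e.continuousOn_symm.mono hWt)
  have hreg : ∀ {N' : X → ℝ}, IsNormFn C2 N' → Reg2 ∞ 1 ((cF N').wedge F) := fun hN' =>
    reg2_wedge (cF_smooth hN') hF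
  have hwW : ContinuousOn (loc2 1 e ((cF N).wedge F)) W :=
    (hreg hN e he).continuousOn.mono hWt
  have hD := lr_isOpen h e
  have hgD : ∀ z ∈ W, AnalyticAt ℂ (fun z => g (e.symm z)) z := fun z hz =>
    P268.analyticAt_of_differentiableOn hD (differentiableOn_chart he h.hol) (hW hz)
  have hψD : ∀ z ∈ W, ContDiffAt ℝ ∞ (fun z => ψ (e.symm z)) z := fun z hz =>
    (contDiffOn_chart he h.smooth).contDiffAt (hD.mem_nhds (hW hz))
  have hψW : ContinuousOn (fun z => ψ (e.symm z)) W := fun z hz =>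
    (hψD z hz).continuousAt.continuousWithinAt
  set q : C2 → ℂ := fun z =>
    qf (cov (fun z => g (e.symm z)) (fun z => ψ (e.symm z)) z) (loc11 e F.f11 z) with hq
  have hcovW : ∀ i, ContinuousOn
      (fun z => cov (fun z => g (e.symm z)) (fun z => ψ (e.symm z)) z i) W := by
    intro i z hz
    have h1 := (hol_dz (hgD z hz) i).continuousAt
    have h2 := (hgD z hz).continuousAt
    have h3 : ContinuousAt (dz i fun z => (ψ (e.symm z) : ℂ)) z :=
      (contDiffAt_dz (m := 0) ((contDiffAt_ofReal (hψD z hz)).of_le (m := 1)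
        (WithTop.coe_le_coe.2 le_top)) (by norm_num) i).continuousAt
    exact (h1.sub (h2.mul h3)).continuousWithinAt
  have hFW : ∀ i j, ContinuousOn (fun z => loc11 e F.f11 z i j) W := fun i j =>
    (hF.s11 e he i j).continuousOn.mono hWt
  have hqW : ContinuousOn q W := by
    have c : ∀ i, ContinuousOn
        (fun z => conj (cov (fun z => g (e.symm z)) (fun z => ψ (e.symm z)) z i)) W := fun i =>
      Complex.continuous_conj.comp_continuousOn (hcovW i)
    exact (((((hcovW 0).mul (c 0)).mul (hFW 1 1)).add (((hcovW 1).mul (c 1)).mul (hFW 0 0))).sub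
      (((hcovW 0).mul (c 1)).mul (hFW 1 0))).sub (((hcovW 1).mul (c 0)).mul (hFW 0 1))
  -- the second limit
  have i2 : IntegrableOn (fun z => (χ (e.symm z) : ℂ) * loc2 1 e ((cF N).wedge F) z) W :=
    integrableOn_of_cont hWo hKc hKW (hχW.mul hwW) fun z hz hzK => by simp [hχ0 z hz hzK]
  have hlim2 : Tendsto (fun ε : ℝ => ∫ z in W,
      ((N (e.symm z) / (N (e.symm z) + ε) : ℝ) : ℂ) *
        ((χ (e.symm z) : ℂ) * loc2 1 e ((cF N).wedge F) z)) (𝓝[>] 0)
      (𝓝 (∫ z in W, (χ (e.symm z) : ℂ) * loc2 1 e ((cF N).wedge F) z)) := by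
    refine tendsto_dom i2 (hNW.aestronglyMeasurable hWo.measurableSet) ?_
    rw [ae_restrict_iff' hWo.measurableSet, ae_iff]
    refine measure_mono_null ?_ hW0
    intro z hz
    change ¬(z ∈ W → 0 < N (e.symm z)) at hz
    rw [Classical.not_imp] at hz
    exact ⟨hz.1, le_antisymm (not_lt.1 hz.2) (hN.nonneg _)⟩
  have hmain := (hlim.const_mul (-4 : ℂ)).sub (hlim2.const_mul (4 : ℂ))
  rw [← intV_chart_sub hχ hχc (hreg hN) he hWt hs] at hmain
  refine hmain.congr' ?_
  filter_upwards [self_mem_nhdsWithin] with ε hε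
  have hε' : (0 : ℝ) < ε := hε
  rw [intV_chart_sub hχ hχc (hreg (isNormFn_eps hN hε')) he hWt hs]
  have hNe : ∀ z ∈ W, N (e.symm z) + ε ≠ 0 := fun z _ => by
    have := hN.nonneg (e.symm z)
    positivity
  have cA : ContinuousOn (fun z =>
      ((ε * Real.exp (-ψ (e.symm z)) / (N (e.symm z) + ε) ^ 2 : ℝ) : ℂ)) W :=
    Complex.continuous_ofReal.comp_continuousOn
      (((hψW.neg.rexp).const_mul ε).div ((hNW.add continuousOn_const).pow 2)
        fun z hz => pow_ne_zero 2 (hNe z hz))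
  have cB : ContinuousOn (fun z => ((N (e.symm z) / (N (e.symm z) + ε) : ℝ) : ℂ)) W :=
    Complex.continuous_ofReal.comp_continuousOn (hNW.div (hNW.add continuousOn_const) hNe)
  set A : C2 → ℂ := fun z =>
      ((ε * Real.exp (-ψ (e.symm z)) / (N (e.symm z) + ε) ^ 2 : ℝ) : ℂ) *
        ((χ (e.symm z) : ℂ) * q z) with hA
  set B : C2 → ℂ := fun z => ((N (e.symm z) / (N (e.symm z) + ε) : ℝ) : ℂ) *
      ((χ (e.symm z) : ℂ) * loc2 1 e ((cF N).wedge F) z) with hB
  have iA : IntegrableOn A W :=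
    integrableOn_of_cont hWo hKc hKW (cA.mul (hχW.mul hqW)) fun z hz hzK => by
      simp [hA, hχ0 z hz hzK]
  have iB : IntegrableOn B W :=
    integrableOn_of_cont hWo hKc hKW (cB.mul (hχW.mul hwW)) fun z hz hzK => by
      simp [hB, hχ0 z hz hzK]
  have hsplit : ∫ z in W, (χ (e.symm z) : ℂ) * loc2 1 e ((cF (Neps N ε)).wedge F) z =
      ∫ z in W, (-A z - B z) := by
    refine setIntegral_congr_fun hWo.measurableSet fun z hz => ?_
    rw [loc2_eps hN h F he (hW hz).1 (hW hz).2 hε']
    simp only [hA, hB, hq]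
    ring
  have hsplit2 : ∫ z in W, (-A z - B z) = -(∫ z in W, A z) - ∫ z in W, B z := by
    rw [← integral_neg]
    exact integral_sub iA.neg iB
  rw [hsplit, hsplit2]
  ring

theorem good_off [T2Space X] [SigmaCompactSpace X] {N : X → ℝ} (hN : IsNormFn C2 N) {f : ℂ → X}
    {S : Set X} (hc : CurveOf N f S) {F : TwoF X} (hF : F.Smooth) {p : X} (hp : N p ≠ 0) :
    ∃ V : Set X, IsOpen V ∧ p ∈ V ∧ Good N f F V := by
  obtain ⟨U, g, ψ, hpU, h⟩ := hN p
  set e := chartAt C2 p with he'
  have he : e ∈ atlas C2 X := chart_mem_atlas C2 p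
  have hpe : p ∈ e.source := mem_chart_source C2 p
  have hopen : IsOpen (U ∩ {x | N x ≠ 0}) :=
    h.isOpen.inter (isOpen_ne_fun hN.continuous continuous_const)
  set W : Set C2 := e.target ∩ e.symm ⁻¹' (U ∩ {x | N x ≠ 0}) with hW'
  have hWo : IsOpen W := e.symm.isOpen_inter_preimage hopen
  have hNpos : ∀ z ∈ W, 0 < N (e.symm z) := fun z hz =>
    lt_of_le_of_ne (hN.nonneg _) (Ne.symm hz.2.2)
  have hV : IsOpen (e.source ∩ e ⁻¹' W) := e.isOpen_inter_preimage hWo
  have hW : W ⊆ e.target ∩ e.symm ⁻¹' U := fun z hz => ⟨hz.1, hz.2.1⟩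
  have hWt : W ⊆ e.target := fun z hz => hz.1
  refine ⟨_, hV, ⟨hpe, e.map_source hpe, ?_⟩, ?_⟩
  · rw [mem_preimage, e.left_inv hpe]
    exact ⟨hpU, hp⟩
  intro χ hχ hχc hs
  have hzero : ∀ t, (χ (f t) : ℂ) * pbC f F t = 0 := by
    intro t
    rw [image_eq_zero_of_notMem_tsupport (f := χ) fun hx => ?_]
    · simp
    · have h1 := (hs hx).2.2.2
      rw [e.left_inv (hs hx).1] at h1
      exact h1 (hc.zero t)
  simp only [hzero]
  refine ⟨integrable_zero _ _ _, ?_⟩
  have hW0 : volume {z ∈ W | N (e.symm z) = 0} = 0 := by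
    have : {z ∈ W | N (e.symm z) = 0} = ∅ := by
      ext z
      simp only [mem_empty_iff_false, iff_false]
      exact fun hz => (hNpos z hz.1).ne' hz.2
    rw [this, measure_empty]
  have key := good_aux hN h he hWo hW hW0 hF hχ hχc hs (J := 0) ?_
  · simpa using key
  -- the limit is zero
  set K : Set C2 := e '' tsupport χ with hK
  have hKc : IsCompact K :=
    hχc.isCompact.image_of_continuousOn (e.continuousOn.mono fun x hx => (hs hx).1)
  have hKW : K ⊆ W := by
    rintro _ ⟨x, hx, rfl⟩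
    exact (hs hx).2
  have hχ0 : ∀ z ∈ W, z ∉ K → χ (e.symm z) = 0 := by
    intro z hz hzK
    refine image_eq_zero_of_notMem_tsupport fun hx => hzK ⟨_, hx, e.right_inv (hWt hz)⟩
  have hχW : ContinuousOn (fun z => (χ (e.symm z) : ℂ)) W :=
    Complex.continuous_ofReal.comp_continuousOn
      (hχ.comp_continuousOn (e.continuousOn_symm.mono hWt))
  have hNW : ContinuousOn (fun z => N (e.symm z)) W :=
    hN.continuous.comp_continuousOn (e.continuousOn_symm.mono hWt)
  have hD := lr_isOpen h e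
  have hgD : ∀ z ∈ W, AnalyticAt ℂ (fun z => g (e.symm z)) z := fun z hz =>
    P268.analyticAt_of_differentiableOn hD (differentiableOn_chart he h.hol) (hW hz)
  have hψD : ∀ z ∈ W, ContDiffAt ℝ ∞ (fun z => ψ (e.symm z)) z := fun z hz =>
    (contDiffOn_chart he h.smooth).contDiffAt (hD.mem_nhds (hW hz))
  have hψW : ContinuousOn (fun z => ψ (e.symm z)) W := fun z hz =>
    (hψD z hz).continuousAt.continuousWithinAt
  have hcovW : ∀ i, ContinuousOn
      (fun z => cov (fun z => g (e.symm z)) (fun z => ψ (e.symm z)) z i) W := by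
    intro i z hz
    have h1 := (hol_dz (hgD z hz) i).continuousAt
    have h2 := (hgD z hz).continuousAt
    have h3 : ContinuousAt (dz i fun z => (ψ (e.symm z) : ℂ)) z :=
      (contDiffAt_dz (m := 0) ((contDiffAt_ofReal (hψD z hz)).of_le (m := 1)
        (WithTop.coe_le_coe.2 le_top)) (by norm_num) i).continuousAt
    exact (h1.sub (h2.mul h3)).continuousWithinAt
  have hFW : ∀ i j, ContinuousOn (fun z => loc11 e F.f11 z i j) W := fun i j =>
    (hF.s11 e he i j).continuousOn.mono hWt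
  have hqW : ContinuousOn (fun z => qf (cov (fun z => g (e.symm z)) (fun z => ψ (e.symm z)) z)
      (loc11 e F.f11 z)) W := by
    have c : ∀ i, ContinuousOn
        (fun z => conj (cov (fun z => g (e.symm z)) (fun z => ψ (e.symm z)) z i)) W := fun i =>
      Complex.continuous_conj.comp_continuousOn (hcovW i)
    exact (((((hcovW 0).mul (c 0)).mul (hFW 1 1)).add (((hcovW 1).mul (c 1)).mul (hFW 0 0))).sub
      (((hcovW 0).mul (c 1)).mul (hFW 1 0))).sub (((hcovW 1).mul (c 0)).mul (hFW 0 1))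
  have hbW := hχW.mul hqW
  refine tendsto_off (hNW.aestronglyMeasurable hWo.measurableSet)
    (hψW.neg.rexp.aestronglyMeasurable hWo.measurableSet)
    (hbW.aestronglyMeasurable hWo.measurableSet) ?_ ?_ ?_
  · refine integrableOn_of_cont hWo hKc hKW ?_ fun z hz hzK => by simp [hχ0 z hz hzK]
    exact ((hψW.neg.rexp).div (hNW.pow 2) fun z hz => pow_ne_zero 2 (hNpos z hz).ne').mul hbW.norm
  · exact Eventually.of_forall fun z => (Real.exp_pos _).le
  · filter_upwards [ae_restrict_mem hWo.measurableSet] with z hz _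
    exact hNpos z hz

end

end Vale.Agent.P267.H823.PL
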