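import Vale.Agent.P267.H823.PL3
import Vale.Agent.P267.H928.Int.Flat

/-!
# P267, adjunction formula (helper823): Stokes' formula and Gauss–Bonnet on `ℙ¹`
-/

open scoped ContDiff ComplexConjugate Real
open MeasureTheory Set Filter Topology

noncomputable section

namespace Vale.Agent.P267.H823.PL

/-- `∂/∂z` in one variable -/
def D1 (h : ℂ → ℂ) (t : ℂ) : ℂ :=
  (1 / 2) * (fderiv ℝ h t 1 - Complex.I * fderiv ℝ h t Complex.I)

/-- `∂/∂z̄` in one variable -/
def Db (h : ℂ → ℂ) (t : ℂ) : ℂ :=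
  (1 / 2) * (fderiv ℝ h t 1 + Complex.I * fderiv ℝ h t Complex.I)

variable {h g : ℂ → ℂ} {t : ℂ}

theorem fderiv_eq_D (h : ℂ → ℂ) (t v : ℂ) : fderiv ℝ h t v = v * D1 h t + conj v * Db h t := by
  have h1 : v = v.re • (1 : ℂ) + v.im • Complex.I := by
    simp only [Complex.real_smul, mul_one]
    exact (Complex.re_add_im v).symm
  have h2 : fderiv ℝ h t v = (v.re : ℂ) * fderiv ℝ h t 1 + (v.im : ℂ) * fderiv ℝ h t Complex.I := by
    conv_lhs => rw [h1]
    rw [map_add, map_smul, map_smul, Complex.real_smul, Complex.real_smul]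
  have e1 : v = (v.re : ℂ) + (v.im : ℂ) * Complex.I := (Complex.re_add_im v).symm
  have e2 : conj v = (v.re : ℂ) - (v.im : ℂ) * Complex.I := by
    apply Complex.ext <;> simp
  rw [h2, e2, D1, Db]
  conv_rhs =>
    enter [1, 1]
    rw [e1]
  have hI : Complex.I * Complex.I = -1 := Complex.I_mul_I
  linear_combination ((v.im : ℂ) * fderiv ℝ h t Complex.I) * hI

theorem D1_congr (h1 : h =ᶠ[𝓝 t] g) : D1 h t = D1 g t := by
  unfold D1
  rw [h1.fderiv_eq]

theorem Db_congr (h1 : h =ᶠ[𝓝 t] g) : Db h t = Db g t := by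
  unfold Db
  rw [h1.fderiv_eq]

theorem D1_const (c : ℂ) : D1 (fun _ => c) t = 0 := by
  unfold D1
  rw [fderiv_const_apply]
  simp

theorem Db_const (c : ℂ) : Db (fun _ => c) t = 0 := by
  unfold Db
  rw [fderiv_const_apply]
  simp

theorem D1_add (hh : DifferentiableAt ℝ h t) (hg : DifferentiableAt ℝ g t) :
    D1 (fun s => h s + g s) t = D1 h t + D1 g t := by
  unfold D1
  rw [fderiv_fun_add hh hg]
  simp only [add_apply]
  ring

theorem Db_add (hh : DifferentiableAt ℝ h t) (hg : DifferentiableAt ℝ g t) :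
    Db (fun s => h s + g s) t = Db h t + Db g t := by
  unfold Db
  rw [fderiv_fun_add hh hg]
  simp only [add_apply]
  ring

theorem D1_sub (hh : DifferentiableAt ℝ h t) (hg : DifferentiableAt ℝ g t) :
    D1 (fun s => h s - g s) t = D1 h t - D1 g t := by
  unfold D1
  rw [fderiv_fun_sub hh hg]
  simp only [sub_apply]
  ring

theorem Db_sub (hh : DifferentiableAt ℝ h t) (hg : DifferentiableAt ℝ g t) :
    Db (fun s => h s - g s) t = Db h t - Db g t := by
  unfold Db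
  rw [fderiv_fun_sub hh hg]
  simp only [sub_apply]
  ring

theorem D1_neg : D1 (fun s => -h s) t = -D1 h t := by
  unfold D1
  rw [fderiv_fun_neg]
  simp only [neg_apply]
  ring

theorem Db_neg : Db (fun s => -h s) t = -Db h t := by
  unfold Db
  rw [fderiv_fun_neg]
  simp only [neg_apply]
  ring

theorem D1_mul (hh : DifferentiableAt ℝ h t) (hg : DifferentiableAt ℝ g t) :
    D1 (fun s => h s * g s) t = h t * D1 g t + D1 h t * g t := by
  unfold D1
  rw [fderiv_fun_mul hh hg]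
  simp only [add_apply, smul_apply, smul_eq_mul]
  ring

theorem Db_mul (hh : DifferentiableAt ℝ h t) (hg : DifferentiableAt ℝ g t) :
    Db (fun s => h s * g s) t = h t * Db g t + Db h t * g t := by
  unfold Db
  rw [fderiv_fun_mul hh hg]
  simp only [add_apply, smul_apply, smul_eq_mul]
  ring

theorem differentiableAt_conj1 (hh : DifferentiableAt ℝ h t) :
    DifferentiableAt ℝ (fun s => conj (h s)) t :=
  (Complex.conjCLE : ℂ →L[ℝ] ℂ).differentiableAt.comp t hh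

theorem fderiv_conj1 (hh : DifferentiableAt ℝ h t) (v : ℂ) :
    fderiv ℝ (fun s => conj (h s)) t v = conj (fderiv ℝ h t v) := by
  have h1 : fderiv ℝ (fun s => conj (h s)) t =
      (Complex.conjCLE : ℂ →L[ℝ] ℂ).comp (fderiv ℝ h t) :=
    ((Complex.conjCLE : ℂ →L[ℝ] ℂ).hasFDerivAt.comp t hh.hasFDerivAt).fderiv
  rw [h1]
  rfl

theorem D1_conj (hh : DifferentiableAt ℝ h t) : D1 (fun s => conj (h s)) t = conj (Db h t) := by
  unfold D1 Db
  rw [fderiv_conj1 hh, fderiv_conj1 hh]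
  simp only [map_mul, map_add, Complex.conj_I, map_div₀, map_one, map_ofNat]
  ring

theorem Db_conj (hh : DifferentiableAt ℝ h t) : Db (fun s => conj (h s)) t = conj (D1 h t) := by
  unfold D1 Db
  rw [fderiv_conj1 hh, fderiv_conj1 hh]
  simp only [map_mul, map_sub, Complex.conj_I, map_div₀, map_one, map_ofNat]
  ring

theorem D1_hol (hh : DifferentiableAt ℂ h t) : D1 h t = deriv h t := by
  unfold D1
  rw [hh.fderiv_restrictScalars ℝ]
  simp only [ContinuousLinearMap.coe_restrictScalars', fderiv_eq_smul_deriv, smul_eq_mul]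
  linear_combination (-(1 / 2) * deriv h t) * Complex.I_mul_I

theorem Db_hol (hh : DifferentiableAt ℂ h t) : Db h t = 0 := by
  unfold Db
  rw [hh.fderiv_restrictScalars ℝ]
  simp only [ContinuousLinearMap.coe_restrictScalars', fderiv_eq_smul_deriv, smul_eq_mul]
  linear_combination ((1 / 2) * deriv h t) * Complex.I_mul_I

theorem fderiv_comp_hol (hh : DifferentiableAt ℝ h (g t)) (hg : DifferentiableAt ℂ g t) (v : ℂ) :
    fderiv ℝ (fun s => h (g s)) t v = fderiv ℝ h (g t) (v * deriv g t) := by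
  have h1 : fderiv ℝ (fun s => h (g s)) t =
      (fderiv ℝ h (g t)).comp ((fderiv ℂ g t).restrictScalars ℝ) :=
    (hh.hasFDerivAt.comp t (hg.hasFDerivAt.restrictScalars ℝ)).fderiv
  rw [h1]
  simp only [ContinuousLinearMap.comp_apply, ContinuousLinearMap.coe_restrictScalars',
    fderiv_eq_smul_deriv, smul_eq_mul]

theorem D1_comp (hh : DifferentiableAt ℝ h (g t)) (hg : DifferentiableAt ℂ g t) :
    D1 (fun s => h (g s)) t = deriv g t * D1 h (g t) := by
  have h1 : D1 (fun s => h (g s)) t = (1 / 2) * (fderiv ℝ (fun s => h (g s)) t 1 -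
    Complex.I * fderiv ℝ (fun s => h (g s)) t Complex.I) := rfl
  rw [h1, fderiv_comp_hol hh hg, fderiv_comp_hol hh hg, fderiv_eq_D h (g t),
    fderiv_eq_D h (g t)]
  simp only [map_mul, Complex.conj_I, one_mul]
  linear_combination (-(1 / 2) * deriv g t * D1 h (g t) +
    (1 / 2) * conj (deriv g t) * Db h (g t)) * Complex.I_mul_I

theorem Db_comp (hh : DifferentiableAt ℝ h (g t)) (hg : DifferentiableAt ℂ g t) :
    Db (fun s => h (g s)) t = conj (deriv g t) * Db h (g t) := by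
  have h1 : Db (fun s => h (g s)) t = (1 / 2) * (fderiv ℝ (fun s => h (g s)) t 1 +
    Complex.I * fderiv ℝ (fun s => h (g s)) t Complex.I) := rfl
  rw [h1, fderiv_comp_hol hh hg, fderiv_comp_hol hh hg, fderiv_eq_D h (g t),
    fderiv_eq_D h (g t)]
  simp only [map_mul, Complex.conj_I, one_mul]
  linear_combination ((1 / 2) * deriv g t * D1 h (g t) -
    (1 / 2) * conj (deriv g t) * Db h (g t)) * Complex.I_mul_I

theorem contDiff_D1 {n m : WithTop ℕ∞} (hh : ContDiff ℝ n h) (hm : m + 1 ≤ n) :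
    ContDiff ℝ m (D1 h) := by
  have h1 : ContDiff ℝ m (fderiv ℝ h) := hh.fderiv_right hm
  exact contDiff_const.mul ((h1.clm_apply contDiff_const).sub
    (contDiff_const.mul (h1.clm_apply contDiff_const)))

theorem contDiff_Db {n m : WithTop ℕ∞} (hh : ContDiff ℝ n h) (hm : m + 1 ≤ n) :
    ContDiff ℝ m (Db h) := by
  have h1 : ContDiff ℝ m (fderiv ℝ h) := hh.fderiv_right hm
  exact contDiff_const.mul ((h1.clm_apply contDiff_const).add
    (contDiff_const.mul (h1.clm_apply contDiff_const)))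

/-- compact support: the integral of `∂h/∂z` vanishes -/
theorem integral_D1 (hh : ContDiff ℝ 1 h) (hc : HasCompactSupport h) :
    Integrable (D1 h) ∧ ∫ t, D1 h t = 0 := by
  have hi : ∀ v : ℂ, Integrable (fun z => fderiv ℝ h z v) := by
    intro v
    refine Continuous.integrable_of_hasCompactSupport
      ((hh.continuous_fderiv one_ne_zero).clm_apply continuous_const) ?_
    exact (hc.fderiv (𝕜 := ℝ)).comp_left (g := fun L : ℂ →L[ℝ] ℂ => L v) (by simp)
  have h1 : D1 h = fun t => (1 / 2) * (fderiv ℝ h t 1 - Complex.I * fderiv ℝ h t Complex.I) := rfl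
  rw [h1]
  refine ⟨((hi 1).sub ((hi Complex.I).const_mul Complex.I)).const_mul _, ?_⟩
  rw [integral_const_mul, integral_sub (hi 1) ((hi Complex.I).const_mul Complex.I),
    integral_const_mul, H928.Int.integral_fderiv_eq_zero volume hh hc,
    H928.Int.integral_fderiv_eq_zero volume hh hc]
  simp

/-! ### cut-off -/

/-- the cut-off function -/
def cutB : ContDiffBump (0 : ℂ) := ⟨1, 2, by norm_num, by norm_num⟩

/-- cut-off function: `1` for `|z| ≤ 1`, `0` for `|z| ≥ 2` -/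
def chi (z : ℂ) : ℂ := ((cutB z : ℝ) : ℂ)

theorem chi_contDiff : ContDiff ℝ ∞ chi := Complex.ofRealCLM.contDiff.comp cutB.contDiff

theorem chi_one {z : ℂ} (hz : ‖z‖ ≤ 1) : chi z = 1 := by
  have : cutB z = 1 := cutB.one_of_mem_closedBall (by simpa [cutB] using hz)
  simp [chi, this]

theorem chi_zero {z : ℂ} (hz : 2 ≤ ‖z‖) : chi z = 0 := by
  have : cutB z = 0 := cutB.zero_of_le_dist (by simpa [cutB] using hz)
  simp [chi, this]

/-- the cut-off function in the other coordinate -/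
def chi' (s : ℂ) : ℂ := if s = 0 then 1 else 1 - chi s⁻¹

theorem chi'_contDiff : ContDiff ℝ ∞ chi' := by
  rw [contDiff_iff_contDiffAt]
  intro s
  by_cases hs : s = 0
  · subst hs
    have h1 : chi' =ᶠ[𝓝 0] fun _ => 1 := by
      filter_upwards [Metric.ball_mem_nhds (0 : ℂ) (show (0 : ℝ) < 1 / 2 by norm_num)] with s hs
      by_cases h0 : s = 0
      · simp [chi', h0]
      · have h2 : ‖s‖ < 1 / 2 := by simpa using hs
        have h3 : 2 ≤ ‖s⁻¹‖ := by
          rw [norm_inv]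
          have := inv_anti₀ (norm_pos_iff.2 h0) h2.le
          norm_num at this
          exact this
        simp [chi', h0, chi_zero h3]
    exact contDiffAt_const.congr_of_eventuallyEq h1
  · have h1 : chi' =ᶠ[𝓝 s] fun s => 1 - chi s⁻¹ := by
      filter_upwards [isOpen_ne.mem_nhds hs] with y hy
      exact if_neg hy
    refine ContDiffAt.congr_of_eventuallyEq ?_ h1
    have h2 : ContDiffAt ℝ ∞ (fun s : ℂ => s⁻¹) s := contDiffAt_inv ℝ hs
    exact contDiffAt_const.sub ((chi_contDiff.contDiffAt).comp s h2)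

theorem chi'_zero {s : ℂ} (hs : 1 ≤ ‖s‖) : chi' s = 0 := by
  have h0 : s ≠ 0 := by
    rintro rfl
    rw [norm_zero] at hs
    linarith
  have h1 : ‖s⁻¹‖ ≤ 1 := by
    rw [norm_inv]
    exact inv_le_one_of_one_le₀ hs
  rw [chi', if_neg h0, chi_one h1, sub_self]

theorem hasDerivAt_inv' (ht : t ≠ 0) : HasDerivAt (fun s : ℂ => s⁻¹) (-(t ^ 2)⁻¹) t := hasDerivAt_inv ht

theorem deriv_inv'' (t : ℂ) : deriv (fun s : ℂ => s⁻¹) t = -(t ^ 2)⁻¹ := deriv_inv

theorem inv_image : (fun s : ℂ => s⁻¹) '' {0}ᶜ = {0}ᶜ := by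
  ext s
  constructor
  · rintro ⟨t, ht, rfl⟩
    exact inv_ne_zero ht
  · intro hs
    exact ⟨s⁻¹, inv_ne_zero hs, inv_inv s⟩

theorem ae_ne : ∀ᵐ t : ℂ, t ≠ 0 := by
  rw [ae_iff]
  simp

/-- change of variables `s = 1/t` -/
theorem inv_var (Φ : ℂ → ℂ) :
    (∫ w, Φ w = ∫ t, ((‖-(t ^ 2)⁻¹‖ ^ 2 : ℝ) : ℂ) * Φ t⁻¹) ∧
      (Integrable Φ ↔ Integrable (fun t : ℂ => ((‖-(t ^ 2)⁻¹‖ ^ 2 : ℝ) : ℂ) * Φ t⁻¹)) := by
  have hd : DifferentiableOn ℂ (fun s : ℂ => s⁻¹) {0}ᶜ := fun t ht =>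
    (differentiableAt_inv ht).differentiableWithinAt
  obtain ⟨h1, h2⟩ := one_var isOpen_compl_singleton hd (inv_injective.injOn) Φ
  simp only [deriv_inv''] at h1 h2
  rw [inv_image] at h1 h2
  have hr : (volume : Measure ℂ).restrict {0}ᶜ = volume := restrict_compl_singleton 0
  unfold IntegrableOn at h2
  rw [hr] at h1 h2
  exact ⟨h1, h2⟩

/-- **Stokes' formula on `ℙ¹`** for `(0,1)`-forms `q₀ dt̄ = q₁ ds̄`, `s = 1/t`. -/
theorem stokes_D1 {q₀ q₁ : ℂ → ℂ} (h₀ : ContDiff ℝ 1 q₀) (h₁ : ContDiff ℝ 1 q₁)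
    (hq : ∀ t, t ≠ 0 → q₀ t = conj (-(t ^ 2)⁻¹) * q₁ t⁻¹) :
    Integrable (D1 q₀) ∧ ∫ t, D1 q₀ t = 0 := by
  have c1 : ContDiff ℝ 1 chi := chi_contDiff.of_le (by simp)
  have c2 : ContDiff ℝ 1 chi' := chi'_contDiff.of_le (by simp)
  set A : ℂ → ℂ := fun t => chi t * q₀ t with hA
  set B : ℂ → ℂ := fun s => chi' s * q₁ s with hB
  have hA1 : ContDiff ℝ 1 A := c1.mul h₀
  have hB1 : ContDiff ℝ 1 B := c2.mul h₁
  have hAc : HasCompactSupport A := by
    refine HasCompactSupport.intro (isCompact_closedBall (0 : ℂ) 2) fun t ht => ?_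
    have : 2 < ‖t‖ := by simpa using ht
    simp [hA, chi_zero this.le]
  have hBc : HasCompactSupport B := by
    refine HasCompactSupport.intro (isCompact_closedBall (0 : ℂ) 1) fun t ht => ?_
    have : 1 < ‖t‖ := by simpa using ht
    simp [hB, chi'_zero this.le]
  obtain ⟨iA, zA⟩ := integral_D1 hA1 hAc
  obtain ⟨iB, zB⟩ := integral_D1 hB1 hBc
  obtain ⟨v1, v2⟩ := inv_var (D1 B)
  have key : ∀ t : ℂ, t ≠ 0 →
      D1 q₀ t = D1 A t + ((‖-(t ^ 2)⁻¹‖ ^ 2 : ℝ) : ℂ) * D1 B t⁻¹ := by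
    intro t ht
    have e1 : q₀ =ᶠ[𝓝 t] fun s => A s + conj (-(s ^ 2)⁻¹) * B s⁻¹ := by
      filter_upwards [isOpen_ne.mem_nhds ht] with s hs
      simp only [hA, hB, chi', if_neg (inv_ne_zero hs), inv_inv]
      rw [hq s hs]
      ring
    have hAd : DifferentiableAt ℝ A t := hA1.differentiable one_ne_zero t
    have hBd : DifferentiableAt ℝ B t⁻¹ := hB1.differentiable one_ne_zero _
    have hinv : DifferentiableAt ℂ (fun s : ℂ => s⁻¹) t := differentiableAt_inv ht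
    have hsq0 : DifferentiableAt ℂ (fun s : ℂ => s ^ 2) t := differentiableAt_pow 2
    have hsq : DifferentiableAt ℂ (fun s : ℂ => -(s ^ 2)⁻¹) t :=
      (hsq0.inv (pow_ne_zero 2 ht)).neg
    have hcd : DifferentiableAt ℝ (fun s : ℂ => conj (-(s ^ 2)⁻¹)) t :=
      differentiableAt_conj1 (hsq.restrictScalars ℝ)
    have hBi : DifferentiableAt ℝ (fun s : ℂ => B s⁻¹) t :=
      DifferentiableAt.comp (g := B) t hBd (hinv.restrictScalars ℝ)
    have hprod : DifferentiableAt ℝ (fun s : ℂ => conj (-(s ^ 2)⁻¹) * B s⁻¹) t := hcd.mul hBi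
    rw [D1_congr e1, D1_add hAd hprod, D1_mul hcd hBi, D1_conj (hsq.restrictScalars ℝ),
      Db_hol hsq, map_zero, zero_mul, add_zero, D1_comp (g := fun s : ℂ => s⁻¹) hBd hinv,
      deriv_inv'', ← Complex.normSq_eq_norm_sq, ← Complex.mul_conj]
    ring
  have hae : (D1 q₀) =ᵐ[volume] fun t => D1 A t + ((‖-(t ^ 2)⁻¹‖ ^ 2 : ℝ) : ℂ) * D1 B t⁻¹ := by
    filter_upwards [ae_ne] with t ht
    exact key t ht
  have iB' := v2.1 iB
  refine ⟨(iA.add iB').congr hae.symm, ?_⟩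
  rw [integral_congr_ae hae, integral_add iA iB', zA, ← v1, zB, add_zero]

/-- **Stokes' formula on `ℙ¹`** for `(1,0)`-forms `p₀ dt = p₁ ds`, `s = 1/t`. -/
theorem stokes_Db {p₀ p₁ : ℂ → ℂ} (h₀ : ContDiff ℝ 1 p₀) (h₁ : ContDiff ℝ 1 p₁)
    (hp : ∀ t, t ≠ 0 → p₀ t = (-(t ^ 2)⁻¹) * p₁ t⁻¹) :
    Integrable (Db p₀) ∧ ∫ t, Db p₀ t = 0 := by
  have c : ∀ {p : ℂ → ℂ}, ContDiff ℝ 1 p → ContDiff ℝ 1 fun s => conj (p s) := fun hp =>
    Complex.conjCLE.contDiff.comp hp
  obtain ⟨i, z⟩ := stokes_D1 (c h₀) (c h₁) fun t ht => by rw [hp t ht, map_mul]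
  have h1 : ∀ t, D1 (fun s => conj (p₀ s)) t = conj (Db p₀ t) := fun t =>
    D1_conj (h₀.differentiable one_ne_zero t)
  have h2 : (fun t => conj (D1 (fun s => conj (p₀ s)) t)) = Db p₀ := by
    funext t
    rw [h1, Complex.conj_conj]
  refine ⟨?_, ?_⟩
  · rw [← h2]
    exact (Complex.conjCLE : ℂ →L[ℝ] ℂ).integrable_comp i
  · rw [← h2, integral_conj, z, map_zero]

/-- integrability on `ℙ¹` -/
theorem integrable_P1 {b₀ b₁ : ℂ → ℂ} (h₀ : Continuous b₀) (h₁ : Continuous b₁)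
    (hb : ∀ t, t ≠ 0 → b₀ t = ((‖-(t ^ 2)⁻¹‖ ^ 2 : ℝ) : ℂ) * b₁ t⁻¹) : Integrable b₀ := by
  have iA : Integrable fun t => chi t * b₀ t := by
    refine (chi_contDiff.continuous.mul h₀).integrable_of_hasCompactSupport ?_
    refine HasCompactSupport.intro (isCompact_closedBall (0 : ℂ) 2) fun t ht => ?_
    have : 2 < ‖t‖ := by simpa using ht
    simp [chi_zero this.le]
  have iB : Integrable fun t => chi' t * b₁ t := by
    refine (chi'_contDiff.continuous.mul h₁).integrable_of_hasCompactSupport ?_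
    refine HasCompactSupport.intro (isCompact_closedBall (0 : ℂ) 1) fun t ht => ?_
    have : 1 < ‖t‖ := by simpa using ht
    simp [chi'_zero this.le]
  have iB' := (inv_var fun t => chi' t * b₁ t).2.1 iB
  refine (iA.add iB').congr ?_
  filter_upwards [ae_ne] with t ht
  simp only [Pi.add_apply, chi', if_neg (inv_ne_zero ht), inv_inv]
  rw [hb t ht]
  ring

/-! ### the function `log (1 + |t|²)` -/

theorem one_add_pos (t : ℂ) : 0 < 1 + ‖t‖ ^ 2 := by positivity

theorem contDiff_logf : ContDiff ℝ ∞ fun t : ℂ => ((Real.log (1 + ‖t‖ ^ 2) : ℝ) : ℂ) := by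
  have h1 : ContDiff ℝ ∞ fun t : ℂ => 1 + ‖t‖ ^ 2 := contDiff_const.add (contDiff_norm_sq ℝ)
  exact Complex.ofRealCLM.contDiff.comp (h1.log fun t => (one_add_pos t).ne')

theorem ofReal_one_add (t : ℂ) : (((1 + ‖t‖ ^ 2 : ℝ)) : ℂ) = 1 + t * conj t := by
  push_cast
  rw [Complex.mul_conj']

theorem Db_logf (t : ℂ) :
    Db (fun t : ℂ => ((Real.log (1 + ‖t‖ ^ 2) : ℝ) : ℂ)) t = t * (1 + t * conj t)⁻¹ := by
  have hd : DifferentiableAt ℝ (fun t : ℂ => 1 + ‖t‖ ^ 2) t :=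
    (contDiff_const.add (contDiff_norm_sq ℝ) : ContDiff ℝ 1 _).differentiable one_ne_zero t
  have hf : ∀ v : ℂ, fderiv ℝ (fun t : ℂ => ((Real.log (1 + ‖t‖ ^ 2) : ℝ) : ℂ)) t v =
      (((1 + ‖t‖ ^ 2)⁻¹ : ℝ) : ℂ) * fderiv ℝ (fun t : ℂ => ((1 + ‖t‖ ^ 2 : ℝ) : ℂ)) t v := by
    intro v
    have h1 : HasFDerivAt (fun y : ℂ => ((Real.log (1 + ‖y‖ ^ 2) : ℝ) : ℂ))
        (Complex.ofRealCLM.comp ((1 + ‖t‖ ^ 2)⁻¹ • fderiv ℝ (fun t : ℂ => 1 + ‖t‖ ^ 2) t)) t :=
      Complex.ofRealCLM.hasFDerivAt.comp t (hd.hasFDerivAt.log (one_add_pos t).ne')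
    have h2 : HasFDerivAt (fun y : ℂ => ((1 + ‖y‖ ^ 2 : ℝ) : ℂ))
        (Complex.ofRealCLM.comp (fderiv ℝ (fun t : ℂ => 1 + ‖t‖ ^ 2) t)) t :=
      Complex.ofRealCLM.hasFDerivAt.comp t hd.hasFDerivAt
    rw [h1.fderiv, h2.fderiv]
    simp only [ContinuousLinearMap.comp_apply, smul_apply, smul_eq_mul,
      Complex.ofRealCLM_apply, Complex.ofReal_mul]
  have h3 : Db (fun t : ℂ => ((Real.log (1 + ‖t‖ ^ 2) : ℝ) : ℂ)) t =
      (((1 + ‖t‖ ^ 2)⁻¹ : ℝ) : ℂ) * Db (fun t : ℂ => ((1 + ‖t‖ ^ 2 : ℝ) : ℂ)) t := by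
    unfold Db
    rw [hf, hf]
    ring
  have h4 : (fun t : ℂ => ((1 + ‖t‖ ^ 2 : ℝ) : ℂ)) = fun t => 1 + t * conj t :=
    funext ofReal_one_add
  have hid : DifferentiableAt ℝ (fun t : ℂ => t) t := differentiableAt_id
  have hic : DifferentiableAt ℝ (fun t : ℂ => conj t) t := differentiableAt_conj1 hid
  have hm : DifferentiableAt ℝ (fun t : ℂ => t * conj t) t := hid.mul hic
  have hid' : DifferentiableAt ℂ (fun t : ℂ => t) t := differentiableAt_id
  have h5 : Db (fun t : ℂ => 1 + t * conj t) t = t := by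
    rw [Db_add (differentiableAt_const _) hm, Db_const, Db_mul hid hic,
      Db_conj hid, Db_hol hid', D1_hol hid']
    simp
  rw [h3, h4, h5, Complex.ofReal_inv, ofReal_one_add]
  ring

theorem D1_Db_logf (t : ℂ) : D1 (Db fun t : ℂ => ((Real.log (1 + ‖t‖ ^ 2) : ℝ) : ℂ)) t =
    ((ker 1 ‖t‖ : ℝ) : ℂ) := by
  have h1 : (Db fun t : ℂ => ((Real.log (1 + ‖t‖ ^ 2) : ℝ) : ℂ)) =
      fun t => t * (1 + t * conj t)⁻¹ := funext Db_logf
  have hid : DifferentiableAt ℝ (fun t : ℂ => t) t := differentiableAt_id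
  have hic : DifferentiableAt ℝ (fun t : ℂ => conj t) t := differentiableAt_conj1 hid
  have hne : (1 : ℂ) + t * conj t ≠ 0 := by
    rw [← ofReal_one_add]
    exact_mod_cast (one_add_pos t).ne'
  have hd : DifferentiableAt ℝ (fun t : ℂ => 1 + t * conj t) t :=
    (differentiableAt_const _).add (hid.mul hic)
  have hdi : DifferentiableAt ℝ (fun t : ℂ => (1 + t * conj t)⁻¹) t := hd.inv hne
  have hm : DifferentiableAt ℝ (fun t : ℂ => t * conj t) t := hid.mul hic
  have hid' : DifferentiableAt ℂ (fun t : ℂ => t) t := differentiableAt_id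
  have h2 : D1 (fun t : ℂ => 1 + t * conj t) t = conj t := by
    rw [D1_add (differentiableAt_const _) hm, D1_const, D1_mul hid hic,
      D1_conj hid, Db_hol hid', D1_hol hid']
    simp
  -- derivative of the inverse
  have h3 : D1 (fun t : ℂ => (1 + t * conj t)⁻¹) t = -((1 + t * conj t) ^ 2)⁻¹ * conj t := by
    have e : ∀ v, fderiv ℝ (fun t : ℂ => (1 + t * conj t)⁻¹) t v =
        -((1 + t * conj t) ^ 2)⁻¹ * fderiv ℝ (fun t : ℂ => 1 + t * conj t) t v := by
      intro v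
      have h4 : HasFDerivAt (fun t : ℂ => (1 + t * conj t)⁻¹) _ t :=
        ((hasFDerivAt_inv hne).restrictScalars ℝ).comp t hd.hasFDerivAt
      rw [h4.fderiv]
      simp [mul_comm]
    have e2 : D1 (fun t : ℂ => (1 + t * conj t)⁻¹) t = -((1 + t * conj t) ^ 2)⁻¹ *
        D1 (fun t : ℂ => 1 + t * conj t) t := by
      unfold D1
      rw [e, e]
      ring
    rw [e2, h2]
  rw [h1, D1_mul hid hdi, h3, D1_hol hid', deriv_id'', ker]
  have h5 : (((1 : ℝ) / (‖t‖ ^ 2 * 1 + 1) ^ 2 : ℝ) : ℂ) = 1 / (1 + t * conj t) ^ 2 := by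
    rw [← ofReal_one_add]
    push_cast
    ring
  rw [h5]
  field_simp
  ring

theorem integral_logf :
    ∫ t, D1 (Db fun t : ℂ => ((Real.log (1 + ‖t‖ ^ 2) : ℝ) : ℂ)) t = π := by
  simp only [D1_Db_logf]
  rw [integral_complex_ofReal, integral_ker one_pos]

/-- **Gauss–Bonnet on `ℙ¹`.** If `u₀ (t) = c + k log |t|² + u₁ (1/t)` then `∫ ∂∂̄ u₀ = kπ`. -/
theorem gauss_bonnet {u₀ u₁ : ℂ → ℝ} (h₀ : ContDiff ℝ 2 u₀) (h₁ : ContDiff ℝ 2 u₁) {c k : ℝ}
    (hu : ∀ t, t ≠ 0 → u₀ t = c + k * Real.log (‖t‖ ^ 2) + u₁ t⁻¹) :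
    ∫ t, D1 (Db fun s => (u₀ s : ℂ)) t = k * π := by
  set l : ℂ → ℂ := fun t => ((Real.log (1 + ‖t‖ ^ 2) : ℝ) : ℂ) with hl
  have hlc : ContDiff ℝ 2 l := contDiff_logf.of_le (WithTop.coe_le_coe.2 le_top)
  have hc₀ : ContDiff ℝ 2 fun t => (u₀ t : ℂ) := Complex.ofRealCLM.contDiff.comp h₀
  have hc₁ : ContDiff ℝ 2 fun t => (u₁ t : ℂ) := Complex.ofRealCLM.contDiff.comp h₁
  set U₀ : ℂ → ℂ := fun t => (u₀ t : ℂ) - k * l t with hU₀
  set U₁ : ℂ → ℂ := fun t => (u₁ t : ℂ) - k * l t with hU₁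
  have hkl : ContDiff ℝ 2 fun t => (k : ℂ) * l t := contDiff_const.mul hlc
  have hU₀c : ContDiff ℝ 2 U₀ := hc₀.sub hkl
  have hU₁c : ContDiff ℝ 2 U₁ := hc₁.sub hkl
  have hU : ∀ t, t ≠ 0 → U₀ t = c + U₁ t⁻¹ := by
    intro t ht
    have h2 : (0 : ℝ) < ‖t‖ := norm_pos_iff.2 ht
    have h3 : Real.log (1 + ‖t‖ ^ 2) = Real.log (‖t‖ ^ 2) + Real.log (1 + ‖t⁻¹‖ ^ 2) := by
      rw [← Real.log_mul (by positivity) (by positivity)]
      congr 1
      rw [norm_inv]
      field_simp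
      ring
    simp only [hU₀, hU₁, hl]
    rw [hu t ht, h3]
    push_cast
    ring
  obtain ⟨i, z⟩ := stokes_D1 (contDiff_Db (m := 1) hU₀c (by norm_num))
    (contDiff_Db (m := 1) hU₁c (by norm_num)) (fun t ht => by
      have e1 : U₀ =ᶠ[𝓝 t] fun s => c + U₁ s⁻¹ := by
        filter_upwards [isOpen_ne.mem_nhds ht] with s hs
        exact hU s hs
      have hd : DifferentiableAt ℝ U₁ t⁻¹ := hU₁c.differentiable (by norm_num) _
      have hinv : DifferentiableAt ℂ (fun s : ℂ => s⁻¹) t := differentiableAt_inv ht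
      have hdi : DifferentiableAt ℝ (fun s : ℂ => U₁ s⁻¹) t :=
        DifferentiableAt.comp (g := U₁) t hd (hinv.restrictScalars ℝ)
      rw [Db_congr e1, Db_add (differentiableAt_const _) hdi, Db_const, zero_add,
        Db_comp (g := fun s : ℂ => s⁻¹) hd hinv, deriv_inv''])
  have hsplit : ∀ t, D1 (Db fun s => (u₀ s : ℂ)) t = D1 (Db U₀) t + k * D1 (Db l) t := by
    intro t
    have e1 : (fun s => (u₀ s : ℂ)) = fun s => U₀ s + (k : ℂ) * l s := by
      funext s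
      simp only [hU₀]
      ring
    have e2 : (Db fun s => (u₀ s : ℂ)) = fun s => Db U₀ s + (k : ℂ) * Db l s := by
      funext s
      rw [e1, Db_add (hU₀c.differentiable (by norm_num) s) (hkl.differentiable (by norm_num) s),
        Db_mul (differentiableAt_const _) (hlc.differentiable (by norm_num) s), Db_const]
      ring
    have d1 : DifferentiableAt ℝ (Db U₀) t :=
      (contDiff_Db (m := 1) hU₀c (by norm_num)).differentiable one_ne_zero t
    have d2 : DifferentiableAt ℝ (Db l) t :=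
      (contDiff_Db (m := 1) hlc (by norm_num)).differentiable one_ne_zero t
    have d3 : DifferentiableAt ℝ (fun s => (k : ℂ) * Db l s) t :=
      (differentiableAt_const _).mul d2
    rw [e2, D1_add d1 d3, D1_mul (differentiableAt_const _) d2, D1_const]
    ring
  have il : Integrable fun t => (k : ℂ) * D1 (Db l) t := by
    refine Integrable.const_mul ?_ _
    have : D1 (Db l) = fun t => ((ker 1 ‖t‖ : ℝ) : ℂ) := funext D1_Db_logf
    rw [this]
    have h5 := (integrable_bound one_pos).ofReal (𝕜 := ℂ)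
    refine h5.congr (Eventually.of_forall fun t => ?_)
    simp only [ker]
    rfl
  simp only [hsplit]
  rw [integral_add i il, z, integral_const_mul, integral_logf, zero_add]

end Vale.Agent.P267.H823.PL
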