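import Vale.Agent.P267.H823.Hensel

/-!
# P267, package CURV-C1 (helper823): the Newton-Puiseux theorem for holomorphic coefficients
-/

open Filter Topology Polynomial

namespace Vale.Agent.P267.H823

namespace Puiseux

/-- A monic polynomial of degree `d`, without term of degree `d - 1`, other than `X ^ d`, is the
product of two coprime factors of smaller degree. -/
theorem exists_factor {d : ℕ} (hd : 0 < d) {Q : ℂ[X]} (hm : Q.Monic) (hdeg : Q.natDegree = d)
    (h0 : Q.coeff (d - 1) = 0) (hne : Q ≠ X ^ d) :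
    ∃ (Q1 Q2 : ℂ[X]), Q1.Monic ∧ Q2.Monic ∧ Q1.natDegree < d ∧ Q2.natDegree < d ∧
      Q1.natDegree + Q2.natDegree = d ∧ IsCoprime Q1 Q2 ∧ Q = Q1 * Q2 := by
  have hQ0 : Q ≠ 0 := hm.ne_zero
  have hdg : Q.degree ≠ 0 := by
    rw [Polynomial.degree_eq_natDegree hQ0, hdeg]
    exact_mod_cast hd.ne'
  obtain ⟨α, hα⟩ := IsAlgClosed.exists_root Q hdg
  obtain ⟨q, hq, hnd⟩ := exists_eq_pow_rootMultiplicity_mul_and_not_dvd Q hQ0 α
  set m := rootMultiplicity α Q with hmdef
  have hmpos : 0 < m := (rootMultiplicity_pos hQ0).2 hα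
  have hpm : ((X - C α) ^ m).Monic := (monic_X_sub_C α).pow m
  have hqm : q.Monic := hpm.of_mul_monic_left (hq ▸ hm)
  have hdeg2 : ((X - C α) ^ m).natDegree = m := by
    rw [(monic_X_sub_C α).natDegree_pow, natDegree_X_sub_C, mul_one]
  have hsum : m + q.natDegree = d := by
    have h1 := hpm.natDegree_mul hqm
    rw [← hq, hdeg, hdeg2] at h1
    exact h1.symm
  have hlt : m < d := by
    rcases (show m ≤ d by omega).lt_or_eq with h | h
    · exact h
    exfalso
    have hq0 : q.natDegree = 0 := by omega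
    have hq1 : q = 1 := (hqm.natDegree_eq_zero).1 hq0
    rw [hq1, mul_one, h] at hq
    rw [hq, sub_eq_add_neg, ← C_neg, coeff_X_add_C_pow] at h0
    have h1 : d - (d - 1) = 1 := by omega
    have h2 : d.choose (d - 1) = d := by
      rw [Nat.choose_symm_of_eq_add (show d = d - 1 + 1 by omega), Nat.choose_one_right]
    rw [h1, h2, pow_one] at h0
    have h3 : α = 0 := by
      rcases mul_eq_zero.1 h0 with h | h
      · exact neg_eq_zero.1 h
      · exact absurd h (by exact_mod_cast hd.ne')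
    apply hne
    rw [hq, h3, map_zero, sub_zero]
  refine ⟨(X - C α) ^ m, q, hpm, hqm, by rw [hdeg2]; exact hlt, by omega, by rw [hdeg2]; exact hsum,
    ?_, hq⟩
  exact IsCoprime.pow_left (((irreducible_X_sub_C α).coprime_iff_not_dvd).2 hnd)

theorem scaleRoots_prod {κ : Type} (s : Finset κ) (β : κ → ℂ) (r : ℂ) :
    scaleRoots (∏ i ∈ s, (X - C (β i))) r = ∏ i ∈ s, (X - C (r * β i)) := by
  classical
  induction s using Finset.induction_on with
  | empty => simp
  | insert a s ha ih =>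
    rw [Finset.prod_insert ha, Finset.prod_insert ha, mul_scaleRoots_of_noZeroDivisors, ih,
      X_sub_C_scaleRoots, mul_comm r]


/-! ### Power substitutions -/

theorem tendsto_pow {N : ℕ} (hN : 0 < N) : Tendsto (fun s : ℂ => s ^ N) (𝓝 0) (𝓝 0) := by
  have h : ContinuousAt (fun s : ℂ => s ^ N) 0 := (continuous_pow N).continuousAt
  rw [ContinuousAt, zero_pow hN.ne'] at h
  exact h

theorem analyticAt_comp_pow {F : Type*} [NormedAddCommGroup F] [NormedSpace ℂ F]
    {f : ℂ → F} (h : AnalyticAt ℂ f 0) {N : ℕ} (hN : 0 < N) :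
    AnalyticAt ℂ (fun s => f (s ^ N)) 0 :=
  AnalyticAt.comp_of_eq h (analyticAt_id.pow N) (by simp [hN.ne'])

/-- `P (s ^ N)` is a product of linear factors near `0` -/
def SplitN (P : ℂ → ℂ[X]) (N : ℕ) : Prop :=
  ∃ (κ : Type) (_ : Fintype κ) (β : κ → ℂ → ℂ), (∀ i, AnalyticAt ℂ (β i) 0) ∧
    ∀ᶠ s in 𝓝 (0 : ℂ), P (s ^ N) = ∏ i, (X - C (β i s))

/-- products -/
theorem SplitN.mul {P R1 R2 : ℂ → ℂ[X]} {N1 N2 : ℕ} (hN1 : 0 < N1) (hN2 : 0 < N2)
    (h : ∀ᶠ s in 𝓝 (0 : ℂ), P s = R1 s * R2 s) (h1 : SplitN R1 N1)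
    (h2 : SplitN (fun s => R2 (s ^ N1)) N2) : SplitN P (N1 * N2) := by
  obtain ⟨κ1, _, β1, h3, h4⟩ := h1
  obtain ⟨κ2, _, β2, h5, h6⟩ := h2
  refine ⟨κ1 ⊕ κ2, inferInstance, Sum.elim (fun i s => β1 i (s ^ N2)) β2, ?_, ?_⟩
  · rintro (i | i)
    · exact analyticAt_comp_pow (h3 i) hN2
    · exact h5 i
  · filter_upwards [(tendsto_pow (Nat.mul_pos hN1 hN2)).eventually h,
      (tendsto_pow hN2).eventually h4, h6] with s h7 h8 h9
    rw [h7, Fintype.prod_sum_type]
    simp only [Sum.elim_inl, Sum.elim_inr]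
    rw [← h8, ← h9]
    simp only [← pow_mul, mul_comm]

/-- scaling of the roots -/
theorem SplitN.scale {P Q : ℂ → ℂ[X]} {M N R : ℕ} (hN : 0 < N)
    (h : ∀ᶠ s in 𝓝 (0 : ℂ), P (s ^ M) = scaleRoots (Q s) (s ^ R))
    (h1 : SplitN Q N) : SplitN P (M * N) := by
  obtain ⟨κ, _, β, h3, h4⟩ := h1
  refine ⟨κ, inferInstance, fun i s => ((s ^ N) ^ R) * β i s, fun i => ?_, ?_⟩
  · exact ((analyticAt_id.pow N).pow R).mul (h3 i)
  · filter_upwards [(tendsto_pow hN).eventually h, h4] with s h7 h8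
    have h9 : s ^ (M * N) = (s ^ N) ^ M := by rw [← pow_mul, mul_comm]
    rw [h9, h7, h8, scaleRoots_prod]

/-- translation of the roots -/
theorem SplitN.shift {P : ℂ → ℂ[X]} {c : ℂ → ℂ} {N : ℕ} (hN : 0 < N)
    (hc : AnalyticAt ℂ c 0) (h1 : SplitN (fun s => (P s).comp (X - C (c s))) N) :
    SplitN P N := by
  obtain ⟨κ, _, β, h3, h4⟩ := h1
  refine ⟨κ, inferInstance, fun i s => β i s - c (s ^ N), fun i => ?_, ?_⟩
  · exact (h3 i).sub (analyticAt_comp_pow hc hN)
  · filter_upwards [h4] with s h5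
    have h6 : P (s ^ N) = ((P (s ^ N)).comp (X - C (c (s ^ N)))).comp
        (X + C (c (s ^ N))) := by
      rw [comp_assoc, sub_comp, X_comp, C_comp, add_sub_cancel_right, comp_X]
    rw [h6, h5, prod_comp]
    refine Finset.prod_congr rfl fun i _ => ?_
    rw [sub_comp, X_comp, C_comp, C_sub]
    ring

/-! ### The Tschirnhaus transformation -/

theorem comp_monic {P : ℂ[X]} {d : ℕ} (hm : P.Monic ∧ P.natDegree = d) (c : ℂ) :
    (P.comp (X - C c)).Monic ∧ (P.comp (X - C c)).natDegree = d := by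
  refine ⟨hm.1.comp_X_sub_C c, ?_⟩
  rw [natDegree_comp, natDegree_X_sub_C, mul_one, hm.2]

theorem coeff_comp {P : ℂ[X]} {d : ℕ} (hd : P.natDegree = d) (c : ℂ) (i : ℕ) :
    (P.comp (X - C c)).coeff i =
      ∑ j ∈ Finset.range (d + 1), P.coeff j * ((-c) ^ (j - i) * (j.choose i : ℂ)) := by
  rw [comp, eval₂_eq_sum_range, finsetSum_coeff, hd]
  refine Finset.sum_congr rfl fun j _ => ?_
  rw [coeff_C_mul, sub_eq_add_neg, ← C_neg, coeff_X_add_C_pow]

theorem coeff_comp_pred {P : ℂ[X]} {d : ℕ} (hd : 0 < d) (hm : P.Monic ∧ P.natDegree = d) :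
    (P.comp (X - C (P.coeff (d - 1) / d))).coeff (d - 1) = 0 := by
  obtain ⟨e, rfl⟩ : ∃ e, d = e + 1 := ⟨d - 1, by omega⟩
  rw [coeff_comp hm.2, Finset.sum_range_succ, Finset.sum_range_succ, Finset.sum_eq_zero]
  · have h1 : P.coeff (e + 1) = 1 := by
      have := hm.1.coeff_natDegree
      rwa [hm.2] at this
    rw [h1]
    simp only [Nat.add_sub_cancel, Nat.choose_self, Nat.sub_self, Nat.add_sub_cancel_left,
      Nat.choose_succ_self_right, pow_zero, pow_one, Nat.cast_one, mul_one, zero_add, one_mul]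
    have h2 : ((e + 1 : ℕ) : ℂ) ≠ 0 := by exact_mod_cast Nat.succ_ne_zero e
    field_simp
    ring
  · intro j hj
    rw [Finset.mem_range] at hj
    rw [Nat.choose_eq_zero_of_lt (by omega)]
    simp

/-- the monic polynomial with given lower coefficients -/
noncomputable def mk {d : ℕ} (b : Fin d → ℂ) : ℂ[X] := X ^ d + ∑ i : Fin d, C (b i) * X ^ (i : ℕ)

theorem mk_monic {d : ℕ} (b : Fin d → ℂ) : (mk b).Monic ∧ (mk b).natDegree = d := by
  have h := degree_sum_fin_lt b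
  refine ⟨monic_X_pow_add h, ?_⟩
  rw [mk, natDegree_add_eq_left_of_degree_lt (by rw [degree_X_pow]; exact h), natDegree_X_pow]

theorem coeff_mk {d : ℕ} (b : Fin d → ℂ) (i : Fin d) : (mk b).coeff i = b i := by
  rw [mk, coeff_add, coeff_X_pow, if_neg (by omega), zero_add, finsetSum_coeff,
    Finset.sum_eq_single i]
  · simp
  · intro j _ hj
    rw [coeff_C_mul, coeff_X_pow, if_neg, mul_zero]
    intro h
    exact hj (Fin.ext h.symm)
  · intro h
    exact absurd (Finset.mem_univ _) h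

/-- the induction step, for polynomials without term of degree `d - 1` -/
theorem step {d : ℕ} (hd : 0 < d)
    (ih : ∀ e < d, ∀ (P : ℂ → ℂ[X]),
      (∀ s, (P s).Monic ∧ (P s).natDegree = e) →
      (∀ i, AnalyticAt ℂ (fun s => (P s).coeff i) 0) → ∃ N : ℕ, 0 < N ∧ SplitN P N)
    {P : ℂ → ℂ[X]} (hm : ∀ s, (P s).Monic ∧ (P s).natDegree = d)
    (hP : ∀ i, AnalyticAt ℂ (fun s => (P s).coeff i) 0) (h0 : ∀ s, (P s).coeff (d - 1) = 0) :
    ∃ N : ℕ, 0 < N ∧ SplitN P N := by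
  classical
  have h2 : ∀ i : Fin d, ∃ (k : ℕ) (g : ℂ → ℂ), AnalyticAt ℂ g 0 ∧
      (∀ᶠ s in 𝓝 (0 : ℂ), (P s).coeff i = s ^ k * g s) ∧
      ((∀ᶠ s in 𝓝 (0 : ℂ), (P s).coeff i = 0) → g = fun _ => 0) ∧
      ((¬ ∀ᶠ s in 𝓝 (0 : ℂ), (P s).coeff i = 0) → g 0 ≠ 0) := by
    intro i
    by_cases h3 : ∀ᶠ s in 𝓝 (0 : ℂ), (P s).coeff i = 0
    · refine ⟨0, fun _ => 0, analyticAt_const, ?_, fun _ => rfl, fun h => absurd h3 h⟩
      filter_upwards [h3] with s hs
      rw [hs, mul_zero]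
    · obtain ⟨k, g, hg1, hg2, hg3⟩ := (hP i).exists_eventuallyEq_pow_smul_nonzero_iff.2 h3
      refine ⟨k, g, hg1, ?_, fun h => absurd h h3, fun _ => hg2⟩
      filter_upwards [hg3] with s hs
      rw [hs, sub_zero, smul_eq_mul]
  choose k g hg1 hg2 hg3 hg4 using h2
  by_cases hall : ∀ i : Fin d, ∀ᶠ s in 𝓝 (0 : ℂ), (P s).coeff i = 0
  · refine ⟨1, one_pos, Fin d, inferInstance, fun _ _ => 0,
      fun i => analyticAt_const, ?_⟩
    filter_upwards [(Filter.eventually_all).2 hall] with s hs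
    rw [pow_one]
    simp only [map_zero, sub_zero, Finset.prod_const, Finset.card_univ, Fintype.card_fin]
    ext j
    rw [coeff_X_pow]
    rcases lt_trichotomy j d with h | h | h
    · rw [if_neg h.ne]
      exact hs ⟨j, h⟩
    · rw [if_pos h, h]
      have := (hm s).1.coeff_natDegree
      rwa [(hm s).2] at this
    · rw [if_neg h.ne', coeff_eq_zero_of_natDegree_lt]
      rw [(hm s).2]
      exact h
  obtain ⟨i1, hi1⟩ := not_forall.1 hall
  set I : Finset (Fin d) := Finset.univ.filter fun i : Fin d =>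
    ¬ ∀ᶠ s in 𝓝 (0 : ℂ), (P s).coeff i = 0 with hI
  have hmemI : ∀ i, i ∈ I ↔ ¬ ∀ᶠ s in 𝓝 (0 : ℂ), (P s).coeff i = 0 := by
    intro i
    simp [hI]
  set M : ℕ := d.factorial with hM
  have hMpos : 0 < M := Nat.factorial_pos d
  have hdvd : ∀ i : Fin d, (d - i) ∣ M := fun i =>
    Nat.dvd_factorial (by have := i.2; omega) (Nat.sub_le _ _)
  obtain ⟨i0, hi0, hmin⟩ := Finset.exists_min_image I (fun i => M * k i / (d - i))
    ⟨i1, (hmemI i1).2 hi1⟩
  set R : ℕ := M * k i0 / (d - i0) with hR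
  have key : ∀ i ∈ I, R * (d - i) ≤ M * k i := by
    intro i hi
    have h3 := hmin i hi
    exact (Nat.le_div_iff_mul_le (by have := i.2; omega)).1 h3
  have key0 : R * (d - i0) = M * k i0 :=
    Nat.div_mul_cancel (dvd_mul_of_dvd_left (hdvd i0) _)
  set b : ℂ → Fin d → ℂ := fun s i =>
    s ^ (M * k i - R * (d - i)) * g i (s ^ M) with hb
  set Q : ℂ → ℂ[X] := fun s => mk (b s) with hQ
  have hQm : ∀ s, (Q s).Monic ∧ (Q s).natDegree = d := fun s => mk_monic _
  have hbA : ∀ i, AnalyticAt ℂ (fun s => b s i) 0 := by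
    intro i
    exact (analyticAt_id.pow _).mul (analyticAt_comp_pow (hg1 i) hMpos)
  have hQA : ∀ i, AnalyticAt ℂ (fun s => (Q s).coeff i) 0 := by
    intro j
    rcases lt_trichotomy j d with h | h | h
    · have h3 : (fun s => (Q s).coeff j) = fun s => b s ⟨j, h⟩ := by
        funext s
        exact coeff_mk (b s) ⟨j, h⟩
      rw [h3]
      exact hbA _
    · have h3 : (fun s => (Q s).coeff j) = fun _ => 1 := by
        funext s
        rw [h]
        have := (hQm s).1.coeff_natDegree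
        rwa [(hQm s).2] at this
      rw [h3]
      exact analyticAt_const
    · have h3 : (fun s => (Q s).coeff j) = fun _ => 0 := by
        funext s
        exact coeff_eq_zero_of_natDegree_lt (by rw [(hQm s).2]; exact h)
      rw [h3]
      exact analyticAt_const
  have hscale : ∀ᶠ s in 𝓝 (0 : ℂ), P (s ^ M) = scaleRoots (Q s) (s ^ R) := by
    filter_upwards [(tendsto_pow hMpos).eventually ((Filter.eventually_all).2 hg2)] with s hs
    ext j
    rw [coeff_scaleRoots, (hQm s).2]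
    rcases lt_trichotomy j d with h | h | h
    · have h3 := hs ⟨j, h⟩
      have h4 : (Q s).coeff j = b s ⟨j, h⟩ := coeff_mk (b s) ⟨j, h⟩
      simp only at h3
      rw [h3, h4, hb]
      simp only
      by_cases hj : (⟨j, h⟩ : Fin d) ∈ I
      · have h5 := key _ hj
        simp only at h5
        have h6 : M * k ⟨j, h⟩ = (M * k ⟨j, h⟩ - R * (d - j)) + R * (d - j) := by omega
        rw [← pow_mul, ← pow_mul]
        conv_lhs => rw [h6, pow_add]
        ring
      · have h5 := hg3 ⟨j, h⟩ (by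
          by_contra h6
          exact hj ((hmemI _).2 h6))
        rw [h5]
        simp
    · rw [h, Nat.sub_self, pow_zero, mul_one]
      have h3 := (hm (s ^ M)).1.coeff_natDegree
      have h4 := (hQm s).1.coeff_natDegree
      rw [(hm (s ^ M)).2] at h3
      rw [(hQm s).2] at h4
      rw [h3, h4]
    · rw [coeff_eq_zero_of_natDegree_lt (by rw [(hm _).2]; exact h),
        coeff_eq_zero_of_natDegree_lt (by rw [(hQm s).2]; exact h), zero_mul]
  have hQ0 : (Q 0).coeff (d - 1) = 0 := by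
    have h3 : (Q 0).coeff (d - 1) = b 0 ⟨d - 1, by omega⟩ :=
      coeff_mk (b 0) ⟨d - 1, by omega⟩
    rw [h3, hb]
    have h4 := hg3 ⟨d - 1, by omega⟩ (Filter.Eventually.of_forall fun p => h0 p)
    simp only [h4, mul_zero]
  have hQne : Q 0 ≠ X ^ d := by
    intro h3
    have h4 : (Q 0).coeff i0 = b 0 i0 := coeff_mk (b 0) i0
    rw [h3, coeff_X_pow, if_neg i0.2.ne, hb] at h4
    simp only [key0, Nat.sub_self, pow_zero, one_mul, zero_pow hMpos.ne'] at h4
    exact hg4 i0 ((hmemI i0).1 hi0) h4.symm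
  obtain ⟨Q1, Q2, hQ1m, hQ2m, hd1, hd2, hsum, hco, hfac⟩ :=
    exists_factor hd (hQm 0).1 (hQm 0).2 hQ0 hQne
  obtain ⟨R1, R2, hR1, hR2, hR1A, hR2A, -, -, hR⟩ := hensel (P := Q) (y0 := (0 : ℂ))
    (d1 := Q1.natDegree) (d2 := Q2.natDegree)
    (fun y => ⟨(hQm y).1, by rw [(hQm y).2, hsum]⟩) hQA hQ1m hQ2m rfl rfl hco hfac
  obtain ⟨N1, hN1, hs1⟩ := ih _ hd1 R1 hR1 hR1A
  obtain ⟨N2, hN2, hs2⟩ := ih _ hd2 (fun s => R2 (s ^ N1))
    (fun s => hR2 _) (fun i => analyticAt_comp_pow (hR2A i) hN1)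
  exact ⟨M * (N1 * N2), Nat.mul_pos hMpos (Nat.mul_pos hN1 hN2),
    SplitN.scale (Nat.mul_pos hN1 hN2) hscale (SplitN.mul hN1 hN2 hR hs1 hs2)⟩

theorem main (d : ℕ) :
    ∀ (P : ℂ → ℂ[X]), (∀ s, (P s).Monic ∧ (P s).natDegree = d) →
      (∀ i, AnalyticAt ℂ (fun s => (P s).coeff i) 0) → ∃ N : ℕ, 0 < N ∧ SplitN P N := by
  induction d using Nat.strong_induction_on with
  | _ d ih =>
  intro P hm hP
  rcases Nat.eq_zero_or_pos d with hd | hd
  · refine ⟨1, one_pos, Empty, inferInstance, fun i => i.elim,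
      fun i => i.elim, ?_⟩
    refine Filter.Eventually.of_forall fun s => ?_
    rw [Finset.univ_eq_empty, Finset.prod_empty]
    exact (hm _).1.natDegree_eq_zero.1 (by rw [(hm _).2, hd])
  have hcA : AnalyticAt ℂ (fun s : ℂ => (P s).coeff (d - 1) / d) 0 := (hP (d - 1)).div_const
  obtain ⟨N, hN, h4⟩ := step hd ih
    (P := fun s => (P s).comp (X - C ((P s).coeff (d - 1) / d)))
    (fun s => comp_monic (hm s) _) (fun i => by
      have h5 : (fun s : ℂ => ((P s).comp (X - C ((P s).coeff (d - 1) / d))).coeff i) =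
          fun s => ∑ j ∈ Finset.range (d + 1), (P s).coeff j *
            ((-((P s).coeff (d - 1) / d)) ^ (j - i) * (j.choose i : ℂ)) := by
        funext s
        exact coeff_comp (hm s).2 _ i
      rw [h5]
      refine Finset.analyticAt_fun_sum _ fun j _ => ?_
      exact (hP j).mul ((hcA.neg.pow _).mul analyticAt_const))
    (fun s => coeff_comp_pred hd (hm s))
  exact ⟨N, hN, h4.shift hN hcA⟩

end Puiseux

open Puiseux

/-- The Newton-Puiseux theorem for monic polynomials with holomorphic coefficients. -/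
theorem puiseux {d : ℕ} {P : ℂ → ℂ[X]} (hm : ∀ s, (P s).Monic ∧ (P s).natDegree = d)
    (hP : ∀ i, AnalyticAt ℂ (fun s => (P s).coeff i) 0) :
    ∃ N : ℕ, 0 < N ∧ ∃ β : Fin d → ℂ → ℂ, (∀ i, AnalyticAt ℂ (β i) 0) ∧
      ∀ᶠ s in 𝓝 (0 : ℂ), P (s ^ N) = ∏ i, (X - C (β i s)) := by
  obtain ⟨N, hN, κ, _, β, h1, h2⟩ := main d P hm hP
  have h3 : Fintype.card κ = d := by
    have h4 := h2.self_of_nhds
    have h5 := (hm ((0 : ℂ) ^ N)).2
    rw [h4, natDegree_finsetProd_X_sub_C_eq_card, Finset.card_univ] at h5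
    exact h5
  have e := Fintype.equivFinOfCardEq h3
  refine ⟨N, hN, fun i => β (e.symm i), fun i => h1 _, ?_⟩
  filter_upwards [h2] with s hs
  rw [← e.symm.prod_comp] at hs
  exact hs

end Vale.Agent.P267.H823
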